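import Mathlib

namespace Vale.Agent.P317

open Finset

theorem boch {G : Type*} (S : Finset G) (μ : G → ℝ) (N : (G → ℝ) →ₗ[ℝ] (G → ℝ))
    (E : (G → ℝ) → (G → ℝ) → ℝ) (hμ : ∀ x ∈ S, 0 < μ x)
    (e1 : ∀ f g, ∑ x ∈ S, g x * N f x = E f g) (e2 : ∀ f, E f f ≤ ∑ x ∈ S, N f x ^ 2 / μ x)
    (e3 : ∀ f, E f (fun _ => 1) = 0) (e4 : ∀ f g, 2 * E f g ≤ E f f + E g g)
    (conn : ∀ f, E f f = 0 → ∀ x ∈ S, ∀ y ∈ S, f x = f y) (g : G → ℝ)
    (hg : ∑ x ∈ S, μ x * g x = 0) : ∑ x ∈ S, μ x * g x ^ 2 ≤ E g g := by
  classical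
  rcases S.eq_empty_or_nonempty with rfl | hne
  · simp [← e1]
  have hZ : 0 < ∑ x ∈ S, μ x := Finset.sum_pos hμ hne
  obtain ⟨ext, hext⟩ : ∃ ext : (S → ℝ) → G → ℝ,
    ext = fun f x => if h : x ∈ S then f ⟨x, h⟩ else 0 := ⟨_, rfl⟩
  have x1 : ∀ f g, ext (f + g) = ext f + ext g := fun f g => funext fun x => by
    simp only [hext, Pi.add_apply]; split_ifs <;> simp
  have x2 : ∀ (c : ℝ) f, ext (c • f) = c • ext f := fun c f => funext fun x => by
    simp only [hext, Pi.smul_apply]; split_ifs <;> simp
  let T : (S → ℝ) →ₗ[ℝ] (S → ℝ) :=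
    { toFun := fun f x => N (ext f) x / μ x + ∑ y ∈ S, μ y * ext f y
      map_add' := fun f g => by
        funext x
        simp only [x1, map_add, mul_add, Finset.sum_add_distrib, add_div, Pi.add_apply]
        ring
      map_smul' := fun c f => by
        funext x
        simp only [x2, map_smul, Pi.smul_apply, smul_eq_mul, RingHom.id_apply, mul_add,
          mul_left_comm _ c, ← Finset.mul_sum, mul_div_assoc] }
  have t1 : ∀ f (h : G → ℝ), (∀ x : S, T f x = h x) → ∑ x ∈ S, μ x * h x = 0 →
      ∑ y ∈ S, μ y * ext f y = 0 ∧ ∀ x ∈ S, N (ext f) x = μ x * h x := by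
    intro f h hf h0
    have p : ∀ x ∈ S, N (ext f) x = μ x * h x - μ x * ∑ y ∈ S, μ y * ext f y := by
      intro x hx
      have := hf ⟨x, hx⟩
      simp only [T, LinearMap.coe_mk, AddHom.coe_mk] at this
      rw [← this]
      field_simp [(hμ x hx).ne']
      ring
    have q := e1 (ext f) fun _ => 1
    rw [e3, Finset.sum_congr rfl fun x hx => by rw [one_mul, p x hx], Finset.sum_sub_distrib, h0,
      ← Finset.sum_mul, zero_sub, neg_eq_zero, mul_eq_zero] at q
    have q' := q.resolve_left hZ.ne'
    exact ⟨q', fun x hx => by rw [p x hx, q', mul_zero, sub_zero]⟩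
  have inj : Function.Injective T := by
    rw [← LinearMap.ker_eq_bot, LinearMap.ker_eq_bot']
    intro f hf
    obtain ⟨p, q⟩ := t1 f (fun _ => 0) (fun x => by rw [hf]; rfl) (by simp)
    have z := e1 (ext f) (ext f)
    rw [Finset.sum_eq_zero fun x hx => by rw [q x hx, mul_zero, mul_zero]] at z
    have c := conn (ext f) z.symm
    funext x
    rw [Finset.sum_congr rfl fun y hy => by rw [c y hy x x.2], ← Finset.sum_mul, mul_eq_zero] at p
    simpa [hext] using p.resolve_left hZ.ne'
  obtain ⟨f, hf⟩ := LinearMap.injective_iff_surjective.1 inj fun x => g x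
  obtain ⟨-, q⟩ := t1 f g (fun x => by rw [hf]) hg
  have v1 : ∑ x ∈ S, μ x * g x ^ 2 = E (ext f) g := by
    rw [← e1]
    exact Finset.sum_congr rfl fun x hx => by rw [q x hx]; ring
  have v2 : ∑ x ∈ S, N (ext f) x ^ 2 / μ x = ∑ x ∈ S, μ x * g x ^ 2 :=
    Finset.sum_congr rfl fun x hx => by rw [q x hx]; field_simp [(hμ x hx).ne']
  linarith [e2 (ext f), e4 (ext f) g]

variable {V : Type} [Fintype V] [DecidableEq V]

omit [Fintype V] in
lemma block {C : Type} [DecidableEq C] (X : Finset V) (π : V → C) (nl : V → Prop) [DecidablePred nl]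
    {t : ℝ} (ht : 1 ≤ t) (T : V → V → ℝ) (g : V → ℝ)
    (h1 : ∀ e ∈ X, ∀ f ∈ X, e ≠ f → π e = π f → nl e)
    (h2 : ∀ e ∈ X, ∀ f ∈ X, e ≠ f → T e f =
      if π e = π f then t else (if nl e then t else 1) * (if nl f then t else 1)) :
    ∑ e ∈ X, ∑ f ∈ X.erase e, T e f * (g e * g f) + ∑ e ∈ X, (if nl e then t else 1) * g e ^ 2 ≤
      (∑ e ∈ X, (if nl e then t else 1) * g e) ^ 2 := by
  obtain ⟨u, hu⟩ : ∃ u : V → ℝ, u = fun e => if nl e then g e else 0 := ⟨_, rfl⟩
  have a : 0 ≤ ∑ e ∈ X, ∑ f ∈ X, if π e = π f then u e * u f else 0 := by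
    have : ∀ e ∈ X, ∀ f, (if π e = π f then u e * u f else 0) = ∑ c ∈ X.image π,
        (if π e = c then u e else 0) * (if π f = c then u f else 0) := fun e he f => by
      rw [Finset.sum_eq_single_of_mem (π e) (Finset.mem_image_of_mem _ he) fun c _ hc => by
        simp [hc.symm]]
      simp [eq_comm]
    rw [Finset.sum_congr rfl fun e he => Finset.sum_congr rfl fun f _ => this e he f]
    simp_rw [Finset.sum_comm (t := X.image π), ← Finset.sum_mul_sum]
    exact Finset.sum_nonneg fun _ _ => mul_self_nonneg _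
  have b := mul_nonneg (show 0 ≤ t ^ 2 - t by nlinarith) a
  rw [sq (∑ e ∈ X, _), Finset.sum_mul_sum, ← Finset.sum_add_distrib, ← sub_nonneg,
    ← Finset.sum_sub_distrib]
  refine b.trans_eq ?_
  rw [Finset.mul_sum]
  refine Finset.sum_congr rfl fun e he => ?_
  rw [← Finset.add_sum_erase _ _ he, ← Finset.add_sum_erase _ _ he, mul_add, Finset.mul_sum,
    add_comm (∑ _ ∈ _, _) (_ * g e ^ 2), add_sub_add_comm, ← Finset.sum_sub_distrib]
  congr 1
  · simp only [hu]; split_ifs <;> ring
  · refine Finset.sum_congr rfl fun f hf => ?_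
    have hf' := Finset.mem_erase.1 hf
    rw [h2 e he f hf'.2 hf'.1.symm]
    by_cases p : π e = π f
    · simp only [hu, p, if_true, h1 e he f hf'.2 hf'.1.symm p, h1 f hf'.2 e he hf'.1 p.symm]; ring
    · simp only [p, if_false]; ring

/-- mixed derivatives -/
def D (a : Finset V → ℝ) : List (V → ℝ) → Finset V → ℝ
  | [], y => a y
  | v :: vs, y => ∑ e ∈ yᶜ, v e * D a vs (insert e y)

variable {a : Finset V → ℝ}

lemma D_cons (v : V → ℝ) (vs : List (V → ℝ)) (y : Finset V) :
    D a (v :: vs) y = ∑ e ∈ yᶜ, v e * D a vs (insert e y) := rfl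

lemma D_two (u v : V → ℝ) (vs : List (V → ℝ)) (y : Finset V) : D a (u :: v :: vs) y =
    ∑ e ∈ yᶜ, ∑ f ∈ yᶜ.erase e, D a vs (insert f (insert e y)) * (u e * v f) := by
  simp only [D_cons, Finset.compl_insert, Finset.mul_sum]
  exact Finset.sum_congr rfl fun _ _ => Finset.sum_congr rfl fun _ _ => by ring

omit [Fintype V] in
lemma sum_swap (X : Finset V) (φ : V → V → ℝ) :
    ∑ e ∈ X, ∑ f ∈ X.erase e, φ e f = ∑ e ∈ X, ∑ f ∈ X.erase e, φ f e :=
  Finset.sum_comm' fun e f => by simp only [Finset.mem_erase]; tauto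

lemma D_swap (u v : V → ℝ) (vs : List (V → ℝ)) (y : Finset V) :
    D a (u :: v :: vs) y = D a (v :: u :: vs) y := by
  rw [D_two, D_two, sum_swap]
  exact Finset.sum_congr rfl fun _ _ => Finset.sum_congr rfl fun _ _ => by
    rw [Finset.insert_comm, mul_comm (u _)]

lemma D_perm {vs ws : List (V → ℝ)} (h : vs.Perm ws) (y : Finset V) : D a vs y = D a ws y := by
  induction h generalizing y with
  | nil => rfl
  | cons v _ ih => simp only [D_cons, ih]
  | swap u v l => exact D_swap _ _ _ _
  | trans _ _ i1 i2 => rw [i1, i2]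

lemma D_lin (s t : ℝ) (u w : V → ℝ) (vs : List (V → ℝ)) (y : Finset V) :
    D a ((fun e => s * u e + t * w e) :: vs) y = s * D a (u :: vs) y + t * D a (w :: vs) y := by
  simp only [D_cons, Finset.mul_sum, ← Finset.sum_add_distrib]
  exact Finset.sum_congr rfl fun _ _ => by ring

lemma D_quad (s t : ℝ) (u w : V → ℝ) (vs : List (V → ℝ)) (y : Finset V) :
    D a ((fun e => s * u e + t * w e) :: (fun e => s * u e + t * w e) :: vs) y =
      s ^ 2 * D a (u :: u :: vs) y + 2 * s * t * D a (u :: w :: vs) y + t ^ 2 * D a (w :: w :: vs) y := by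
  rw [D_lin, D_swap u, D_swap w, D_lin, D_lin, D_swap w u]; ring

lemma D_mono (ha : ∀ y, 0 ≤ a y) {vs ws : List (V → ℝ)}
    (h : List.Forall₂ (fun v w => ∀ e, 0 ≤ v e ∧ v e ≤ w e) vs ws) (y : Finset V) :
    0 ≤ D a vs y ∧ D a vs y ≤ D a ws y := by
  induction h generalizing y with
  | nil => exact ⟨ha y, le_rfl⟩
  | cons h _ ih => exact ⟨Finset.sum_nonneg fun e _ => mul_nonneg (h e).1 (ih _).1,
      Finset.sum_le_sum fun e _ => mul_le_mul (h e).2 (ih _).2 (ih _).1 ((h e).1.trans (h e).2)⟩

lemma D_nonneg (ha : ∀ y, 0 ≤ a y) {vs : List (V → ℝ)} (h : ∀ v ∈ vs, ∀ e, 0 ≤ v e) (y : Finset V) :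
    0 ≤ D a vs y :=
  (D_mono ha (ws := vs) (List.forall₂_same.2 fun v hv e => ⟨h v hv e, le_rfl⟩) y).1

lemma D_zero {vs : List (V → ℝ)} {y : Finset V} (h : yᶜ.card < vs.length) : D a vs y = 0 := by
  induction vs generalizing y with
  | nil => simp at h
  | cons v vs ih =>
    refine Finset.sum_eq_zero fun e he => ?_
    have := Finset.card_pos.2 ⟨e, he⟩
    rw [ih (by rw [Finset.compl_insert, Finset.card_erase_of_mem he]; simp at h; omega), mul_zero]

lemma D_pos (ha : ∀ y, 0 < a y) {vs : List (V → ℝ)} (h : ∀ v ∈ vs, ∀ e, 0 < v e) {y : Finset V}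
    (hy : vs.length ≤ yᶜ.card) : 0 < D a vs y := by
  induction vs generalizing y with
  | nil => exact ha y
  | cons v vs ih =>
    simp only [List.length_cons] at hy
    exact Finset.sum_pos (fun e he => mul_pos (h v (by simp) e) (ih (fun v hv => h v (by simp [hv]))
      (by rw [Finset.compl_insert, Finset.card_erase_of_mem he]; omega)))
      (Finset.card_pos.1 (by omega))

/-- at most one positive direction -/
def One (a : Finset V → ℝ) (vs : List (V → ℝ)) (y : Finset V) : Prop :=
  ∃ l : V → ℝ, ∀ u : V → ℝ, ∑ e, l e * u e = 0 → D a (u :: u :: vs) y ≤ 0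

lemma One.rcs {vs : List (V → ℝ)} {y : Finset V} (h : One a vs y) (u w : V → ℝ)
    (hw : 0 ≤ D a (w :: w :: vs) y) :
    D a (u :: u :: vs) y * D a (w :: w :: vs) y ≤ D a (u :: w :: vs) y ^ 2 := by
  obtain ⟨l, hl⟩ := h
  rcases hw.eq_or_lt with e | hw
  · rw [← e, mul_zero]; positivity
  have s : ∑ e, l e * w e ≠ 0 := fun e => absurd (hl w e) (not_le.2 hw)
  have := hl (fun e => (∑ e, l e * w e) * u e + (-∑ e, l e * u e) * w e) (by
    simp only [mul_add, Finset.sum_add_distrib, mul_left_comm (l _), ← Finset.mul_sum]; ring)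
  rw [D_quad] at this
  generalize ∑ e, l e * w e = s' at *
  generalize ∑ e, l e * u e = t at *
  have p : 0 < s' ^ 2 := by positivity
  by_contra hc
  nlinarith [mul_pos p (sub_pos.2 (not_le.1 hc)), mul_le_mul_of_nonneg_left this hw.le,
    sq_nonneg (s' * D a (u :: w :: vs) y - t * D a (w :: w :: vs) y)]

lemma one_pos (ha : ∀ y, 0 < a y) (h0 : ∀ y, One a [] y) {vs : List (V → ℝ)}
    (h : ∀ v ∈ vs, ∀ e, 0 < v e) (y : Finset V) : One a vs y := by
  induction vs generalizing y with
  | nil => exact h0 y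
  | cons v vs ih =>
    by_cases hy : yᶜ.card < vs.length + 3
    · exact ⟨0, fun u _ => (D_zero (by simp only [List.length_cons]; omega)).le⟩
    have hv := h v (by simp)
    have hp : ∀ e ∈ yᶜ, 0 < D a (v :: v :: vs) (insert e y) := fun e he =>
      D_pos ha (by simpa using h) (by
        rw [Finset.compl_insert, Finset.card_erase_of_mem he]; simp; omega)
    obtain ⟨K, hK⟩ : ∃ K : V → V → ℝ,
      K = fun e f => D a (v :: vs) (insert f (insert e y)) * (v e * v f) := ⟨_, rfl⟩
    have K1 : ∀ e f, K e f = K f e := fun e f => by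
      simp only [hK]; rw [Finset.insert_comm, mul_comm (v e)]
    have K2 : ∀ e ∈ yᶜ, ∀ f ∈ yᶜ.erase e, 0 < K e f := fun e he f hf => by
      rw [hK]
      exact mul_pos (D_pos ha h (by
        rw [Finset.compl_insert, Finset.compl_insert, Finset.card_erase_of_mem hf,
          Finset.card_erase_of_mem he]; simp; omega)) (mul_pos (hv e) (hv f))
    have K3 : ∀ (g : V → ℝ) e, v e * D a ((fun f => v f * g f) :: v :: vs) (insert e y) =
        ∑ f ∈ yᶜ.erase e, K e f * g f := fun g e => by
      rw [D_cons, Finset.compl_insert, Finset.mul_sum, hK]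
      exact Finset.sum_congr rfl fun _ _ => by ring
    have K4 := K3 fun _ => 1
    simp only [mul_one] at K4
    let N : (V → ℝ) →ₗ[ℝ] (V → ℝ) :=
      { toFun := fun g e => ∑ f ∈ yᶜ.erase e, K e f * (g e - g f)
        map_add' := fun g g' => funext fun e => by
          simp only [Pi.add_apply, ← Finset.sum_add_distrib]
          exact Finset.sum_congr rfl fun _ _ => by ring
        map_smul' := fun c g => funext fun e => by
          simp only [Pi.smul_apply, smul_eq_mul, RingHom.id_apply, Finset.mul_sum]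
          exact Finset.sum_congr rfl fun _ _ => by ring }
    have N1 : ∀ g e, N g e = v e * D a (v :: v :: vs) (insert e y) * g e -
        v e * D a ((fun f => v f * g f) :: v :: vs) (insert e y) := fun g e => by
      rw [K3, K4, Finset.sum_mul, ← Finset.sum_sub_distrib]
      exact Finset.sum_congr rfl fun _ _ => by ring
    have e1 : ∀ g g' : V → ℝ, ∑ x ∈ yᶜ, g' x * N g x =
        (∑ e ∈ yᶜ, ∑ f ∈ yᶜ.erase e, K e f * ((g e - g f) * (g' e - g' f))) / 2 := fun g g' => by
      have := sum_swap yᶜ fun e f => K e f * ((g e - g f) * g' e)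
      simp only [N, LinearMap.coe_mk, AddHom.coe_mk, Finset.mul_sum]
      rw [eq_div_iff two_ne_zero, mul_two]
      nth_rw 2 [sum_swap]
      rw [← Finset.sum_add_distrib]
      refine Finset.sum_congr rfl fun e _ => ?_
      rw [← Finset.sum_add_distrib]
      exact Finset.sum_congr rfl fun f _ => by rw [K1 f e]; ring
    have H : ∀ g : V → ℝ, D a ((fun f => v f * g f) :: (fun f => v f * g f) :: v :: vs) y =
        ∑ x ∈ yᶜ, v x * D a (v :: v :: vs) (insert x y) * g x ^ 2 - ∑ x ∈ yᶜ, g x * N g x := by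
      intro g
      rw [D_cons, ← Finset.sum_sub_distrib]
      exact Finset.sum_congr rfl fun _ _ => by rw [N1]; ring
    refine ⟨fun e => if e ∈ yᶜ then D a (v :: v :: vs) (insert e y) else 0, fun u hu => ?_⟩
    have := boch yᶜ (fun e => v e * D a (v :: v :: vs) (insert e y)) N _
      (fun e he => mul_pos (hv e) (hp e he)) e1 (fun g => ?_) (by simp) (fun g g' => ?_)
      (fun g hg e he f hf => ?_) (fun e => u e / v e) ?_
    · rw [← e1, ← sub_nonpos, ← H] at this
      simpa only [mul_div_cancel₀ _ (hv _).ne'] using this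
    · have b := H g
      rw [D_perm (ws := v :: (fun f => v f * g f) :: (fun f => v f * g f) :: vs)
        ((List.Perm.swap _ _ _).cons _ |>.trans (List.Perm.swap _ _ _)), D_cons] at b
      have d := Finset.sum_le_sum fun e he => show
          v e * D a ((fun f => v f * g f) :: (fun f => v f * g f) :: vs) (insert e y) ≤
          N g e ^ 2 / (v e * D a (v :: v :: vs) (insert e y)) +
          v e * D a (v :: v :: vs) (insert e y) * g e ^ 2 - 2 * (g e * N g e) by
        have r := (ih (fun v hv => h v (by simp [hv])) (insert e y)).rcs (fun f => v f * g f) v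
          (hp e he).le
        have p := hp e he
        have p' := hv e
        rw [← le_div_iff₀ p] at r
        rw [N1, ← sub_nonneg]
        refine (mul_nonneg p'.le (sub_nonneg.2 r)).trans_eq ?_
        field_simp
        ring
      rw [b, Finset.sum_sub_distrib, Finset.sum_add_distrib, ← Finset.mul_sum] at d
      rw [← e1]
      linarith
    · rw [← add_div, mul_div_cancel₀ _ two_ne_zero, le_div_iff₀ two_pos, Finset.sum_mul,
        ← Finset.sum_add_distrib]
      refine Finset.sum_le_sum fun e he => ?_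
      rw [Finset.sum_mul, ← Finset.sum_add_distrib]
      exact Finset.sum_le_sum fun f hf => by
        nlinarith [mul_nonneg (K2 e he f hf).le (sq_nonneg (g e - g f - (g' e - g' f)))]
    · by_contra hc
      have hf' : f ∈ yᶜ.erase e := Finset.mem_erase.2 ⟨fun e => hc (by rw [e]), hf⟩
      have nn : ∀ e ∈ yᶜ, ∀ f ∈ yᶜ.erase e, 0 ≤ K e f * ((g e - g f) * (g e - g f)) :=
        fun e he f hf => mul_nonneg (K2 e he f hf).le (mul_self_nonneg _)
      rw [div_eq_zero_iff, or_iff_left two_ne_zero] at hg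
      have := (Finset.sum_eq_zero_iff_of_nonneg (nn e he)).1 ((Finset.sum_eq_zero_iff_of_nonneg
        fun e he => Finset.sum_nonneg (nn e he)).1 hg e he) f hf'
      simp [(K2 e he f hf').ne', sub_eq_zero, hc] at this
    · simp only [ite_mul, zero_mul, Finset.sum_ite_mem, Finset.univ_inter] at hu
      rw [← hu]
      exact Finset.sum_congr rfl fun e _ => by field_simp [(hv e).ne']

lemma D_cont (vs : List (V → ℝ)) (us : List (V → ℝ)) (y : Finset V) :
    Continuous fun ε : ℝ => D a (us ++ vs.map fun v e => v e + ε) y := by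
  induction us generalizing y with
  | cons u us ih => exact continuous_finsetSum _ fun e _ => continuous_const.mul (ih _)
  | nil =>
    induction vs generalizing y with
    | nil => exact continuous_const
    | cons v vs ih => exact continuous_finsetSum _ fun e _ => Continuous.mul (by fun_prop) (ih _)

theorem af (ha : ∀ y, 0 < a y) (h0 : ∀ y, One a [] y) {vs : List (V → ℝ)}
    (h : ∀ v ∈ vs, ∀ e, 0 ≤ v e) (y : Finset V) (u : V → ℝ) {w : V → ℝ} (hw : ∀ e, 0 ≤ w e) :
    D a (u :: u :: vs) y * D a (w :: w :: vs) y ≤ D a (u :: w :: vs) y ^ 2 := by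
  have c : IsClosed {ε : ℝ | D a (u :: u :: vs.map fun v e => v e + ε) y *
      D a (w :: w :: vs.map fun v e => v e + ε) y ≤ D a (u :: w :: vs.map fun v e => v e + ε) y ^ 2} :=
    isClosed_le ((D_cont (a := a) vs [u, u] y).mul (D_cont (a := a) vs [w, w] y))
      ((D_cont (a := a) vs [u, w] y).pow 2)
  have := (c.closure_subset_iff (s := Set.Ioi 0)).2 fun ε hε => by
    refine (one_pos ha h0 ?_ y).rcs u w (D_nonneg (fun y => (ha y).le) ?_ y)
    · simp only [List.mem_map]
      rintro _ ⟨v, hv, rfl⟩ e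
      exact add_pos_of_nonneg_of_pos (h v hv e) hε
    · simp only [List.mem_cons, List.mem_map]
      rintro _ (rfl | rfl | ⟨v, hv, rfl⟩) e
      exacts [hw e, hw e, add_nonneg (h v hv e) (le_of_lt hε)]
  simpa using this (show (0 : ℝ) ∈ _ by simp)

lemma D_prof {C : Type} [Fintype C] [DecidableEq C] (π : V → C) (w : V → ℝ) (L : List C)
    (y : Finset V) : D a (L.map fun c e => if π e = c then w e else 0) y =
      (∏ c, ((L.count c).factorial : ℝ)) * ∑ T ∈ yᶜ.powerset,
        if ∀ c, (T.filter fun e => π e = c).card = L.count c then a (T ∪ y) * ∏ e ∈ T, w e else 0 := by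
  induction L generalizing y with
  | nil =>
    rw [Finset.sum_eq_single_of_mem ∅ (by simp) fun T _ hT => if_neg fun h => hT ?_]
    · simp [D]
    · refine Finset.eq_empty_of_forall_notMem fun e he => ?_
      have := h (π e)
      simp only [List.count_nil, Finset.card_eq_zero, Finset.filter_eq_empty_iff] at this
      exact this he rfl
  | cons j L ih =>
    have p : (∏ c, (((j :: L).count c).factorial : ℝ)) =
        (∏ c, ((L.count c).factorial : ℝ)) * ((j :: L).count j : ℕ) := by
      rw [← Finset.mul_prod_erase univ _ (mem_univ j), ← Finset.mul_prod_erase univ _ (mem_univ j),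
        Finset.prod_congr rfl fun c hc => by
          rw [List.count_cons_of_ne (Finset.mem_erase.1 hc).1.symm]]
      simp [Nat.factorial_succ]; ring
    rw [List.map_cons, D_cons, p, mul_assoc]
    simp only [ih, mul_left_comm _ (∏ c, ((L.count c).factorial : ℝ)), ← Finset.mul_sum]
    congr 1
    have q : ∀ T ∈ yᶜ.powerset, (((j :: L).count j : ℕ) : ℝ) * (if ∀ c,
        (T.filter fun e => π e = c).card = (j :: L).count c then a (T ∪ y) * ∏ e ∈ T, w e else 0) =
        ∑ e ∈ T, if π e = j ∧ ∀ c, (T.filter fun e => π e = c).card = (j :: L).count c then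
          a (T ∪ y) * ∏ e ∈ T, w e else 0 := fun T _ => by
      split_ifs with h
      · simp only [h, implies_true, and_true]
        rw [← Finset.sum_filter, Finset.sum_const, h, nsmul_eq_mul]
      · simp [h]
    rw [Finset.mul_sum, Finset.sum_congr rfl q]
    simp only [Finset.mul_sum]
    rw [Finset.sum_sigma', Finset.sum_sigma']
    refine Finset.sum_nbij' (fun p => ⟨insert p.1 p.2, p.1⟩) (fun p => ⟨p.2, p.1.erase p.2⟩)
      ?_ ?_ ?_ ?_ ?_
    · rintro ⟨e, T⟩ h
      simp only [Finset.mem_sigma, Finset.mem_powerset, Finset.compl_insert,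
        Finset.subset_erase] at h ⊢
      exact ⟨Finset.insert_subset h.1 h.2.1, Finset.mem_insert_self _ _⟩
    · rintro ⟨T, e⟩ h
      simp only [Finset.mem_sigma, Finset.mem_powerset, Finset.compl_insert] at h ⊢
      exact ⟨h.1 h.2, Finset.erase_subset_erase _ h.1⟩
    · rintro ⟨e, T⟩ h
      simp only [Finset.mem_sigma, Finset.mem_powerset, Finset.compl_insert,
        Finset.subset_erase] at h
      simp [h.2.2]
    · rintro ⟨T, e⟩ h
      simp only [Finset.mem_sigma] at h
      simp [h.2]
    · rintro ⟨e, T⟩ h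
      simp only [Finset.mem_sigma, Finset.mem_powerset, Finset.compl_insert,
        Finset.subset_erase] at h
      simp only
      by_cases he : π e = j
      · have : (∀ c, ((insert e T).filter fun e => π e = c).card = (j :: L).count c) ↔
            ∀ c, (T.filter fun e => π e = c).card = L.count c := forall_congr' fun c => by
          rw [Finset.filter_insert, List.count_cons, he]
          split_ifs with h1 h2 h2
          · rw [Finset.card_insert_of_notMem (by simp [h.2.2])]; omega
          · simp [h1] at h2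
          · simp [h1] at h2
          · rfl
        simp only [he, if_true, true_and, this, Finset.prod_insert h.2.2, Finset.union_insert,
          Finset.insert_union]
        split_ifs <;> ring
      · simp [he]

end Vale.Agent.P317
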