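import Vale.Agent.P317.AF

namespace Vale.Agent.P317

open Finset

variable {V : Type} [Fintype V] [DecidableEq V]

/-- layers -/
def Lay (V : Type) [Fintype V] (k r : ℕ) : Finset (Finset V) := univ.filter fun z => z.card + k = r

omit [DecidableEq V] in
lemma mem_Lay {k r : ℕ} {z : Finset V} : z ∈ Lay V k r ↔ z.card + k = r := by simp [Lay]

lemma updown (k r : ℕ) (φ : Finset V → V → ℝ) :
    ∑ x ∈ Lay V k r, ∑ e ∈ x, φ (x.erase e) e = ∑ z ∈ Lay V (k + 1) r, ∑ e ∈ zᶜ, φ z e := by
  rw [Finset.sum_sigma', Finset.sum_sigma']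
  refine Finset.sum_nbij' (fun p => ⟨p.1.erase p.2, p.2⟩) (fun p => ⟨insert p.2 p.1, p.2⟩)
    ?_ ?_ ?_ ?_ ?_
  · rintro ⟨x, e⟩ h
    simp only [Finset.mem_sigma, mem_Lay] at h ⊢
    have := Finset.card_erase_add_one h.2
    exact ⟨by omega, by simp⟩
  · rintro ⟨x, e⟩ h
    simp only [Finset.mem_sigma, mem_Lay, Finset.mem_compl] at h ⊢
    have := Finset.card_insert_of_notMem h.2
    exact ⟨by omega, by simp⟩
  · rintro ⟨x, e⟩ h
    simp only [Finset.mem_sigma] at h
    simp [h.2]
  · rintro ⟨x, e⟩ h
    simp only [Finset.mem_sigma, Finset.mem_compl] at h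
    simp [h.2]
  · exact fun _ _ => rfl

/-- link average -/
noncomputable def av (a f : Finset V → ℝ) (z : Finset V) : ℝ :=
  (∑ e ∈ zᶜ, a (insert e z) * f (insert e z)) / ∑ e ∈ zᶜ, a (insert e z)

lemma av_zero {a : Finset V → ℝ} (ha : ∀ y, 0 < a y) (f : Finset V → ℝ) (z : Finset V) :
    ∑ e ∈ zᶜ, a (insert e z) * (f (insert e z) - av a f z) = 0 := by
  rcases zᶜ.eq_empty_or_nonempty with h | h
  · simp [h]
  have := Finset.sum_pos (fun e _ => ha (insert e z)) h
  simp only [mul_sub, Finset.sum_sub_distrib, ← Finset.sum_mul, av]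
  field_simp
  ring

lemma link {a : Finset V → ℝ} (ha : ∀ y, 0 < a y) {y : Finset V} (h0 : One a [] y)
    (F : Finset V → ℝ) : 0 ≤ ∑ f ∈ yᶜ, ∑ e ∈ (insert f y)ᶜ, a (insert e (insert f y)) *
      ((F (insert e (insert f y)) - av a F (insert f y)) *
        (F (insert e (insert f y)) - av a F (insert e y))) := by
  obtain ⟨c, hc⟩ : ∃ c, c = (∑ e ∈ yᶜ, av a F (insert e y) * D a [fun _ => 1] (insert e y)) /
    D a [fun _ => 1, fun _ => 1] y := ⟨_, rfl⟩
  have q : D a [fun e => av a F (insert e y) - c, fun e => av a F (insert e y) - c] y ≤ 0 := by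
    by_cases h : yᶜ.card < 2
    · exact (D_zero h).le
    have p := D_pos ha (vs := [fun _ => 1, fun _ => 1]) (by simp) (not_lt.1 h)
    have := h0.rcs (fun e => av a F (insert e y) - c) (fun _ => 1) p.le
    have e : D a [fun e => av a F (insert e y) - c, fun _ => 1] y = 0 := by
      rw [D_cons]
      simp only [sub_mul, Finset.sum_sub_distrib, ← Finset.mul_sum]
      rw [hc, sub_eq_zero, eq_comm]
      refine (congrArg _ ?_).trans (div_mul_cancel₀ _ p.ne')
      rw [D_cons]; simp
    rw [e] at this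
    nlinarith
  rw [D_two] at q
  have z1 : ∑ f ∈ yᶜ, ∑ e ∈ yᶜ.erase f, (av a F (insert f y) - c) * (a (insert e (insert f y)) *
      (F (insert e (insert f y)) - av a F (insert f y))) = 0 :=
    Finset.sum_eq_zero fun f _ => by rw [← Finset.mul_sum, ← Finset.compl_insert, av_zero ha, mul_zero]
  have z2 := (sum_swap _ _).symm.trans z1
  have z3 : 0 ≤ ∑ f ∈ yᶜ, ∑ e ∈ yᶜ.erase f, a (insert e (insert f y)) *
      (F (insert e (insert f y)) - av a F (insert f y) - av a F (insert e y) + c) ^ 2 :=
    Finset.sum_nonneg fun _ _ => Finset.sum_nonneg fun _ _ => mul_nonneg (ha _).le (sq_nonneg _)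
  refine (add_nonneg (add_nonneg (add_nonneg z3 (neg_nonneg.2 q)) z1.ge) z2.ge).trans_eq ?_
  simp only [Finset.compl_insert, ← Finset.sum_neg_distrib, ← Finset.sum_add_distrib, D]
  refine Finset.sum_congr rfl fun f _ => Finset.sum_congr rfl fun e _ => ?_
  rw [Finset.insert_comm f e]
  ring

/-- exchange move -/
def sw (e f : V) (x : Finset V) : Finset V := x.map (Equiv.swap e f).toEmbedding

theorem poin {a b : Finset V → ℝ} (ha : ∀ y, 0 < a y) (hb : ∀ y, 0 < b y) (h0 : ∀ y, One a [] y)
    (hs : ∀ (x : Finset V) (g : V → ℝ), ∑ e ∈ x, ∑ f ∈ x.erase e, b ((x.erase e).erase f) * (g e * g f)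
      + ∑ e ∈ x, b (x.erase e) * g e ^ 2 ≤ (∑ e ∈ x, b (x.erase e) * g e) ^ 2 / b x)
    {Λ : ℝ} (Λ0 : 0 ≤ Λ) (hΛ : ∀ z e, b z ≤ Λ * b (insert e z)) (r : ℕ) (g : Finset V → ℝ) :
    ∃ m, ∑ x ∈ Lay V 0 r, a x * b x * (g x - m) ^ 2 ≤ Λ * ∑ e, ∑ f, ∑ x ∈ Lay V 0 r,
      min (a x * b x) (a (sw e f x) * b (sw e f x)) * (g (sw e f x) - g x) ^ 2 := by
  let N : (Finset V → ℝ) →ₗ[ℝ] (Finset V → ℝ) :=
    { toFun := fun f x => a x * ∑ e ∈ x, b (x.erase e) * (f x - av a f (x.erase e))
      map_add' := fun f f' => funext fun x => by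
        simp only [Pi.add_apply, ← mul_add, ← Finset.sum_add_distrib, av]
        congr 1
        refine Finset.sum_congr rfl fun _ _ => ?_
        simp only [mul_add, Finset.sum_add_distrib]; ring
      map_smul' := fun c f => funext fun x => by
        simp only [Pi.smul_apply, smul_eq_mul, RingHom.id_apply, av, mul_left_comm _ c,
          ← Finset.mul_sum, mul_div_assoc, ← mul_sub] }
  obtain ⟨E, hE⟩ : ∃ E : (Finset V → ℝ) → (Finset V → ℝ) → ℝ, E = fun f g => ∑ z ∈ Lay V 1 r,
    ∑ e ∈ zᶜ, b z * (a (insert e z) * ((f (insert e z) - av a f z) * (g (insert e z) - av a g z))) :=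
    ⟨_, rfl⟩
  have e1 : ∀ f g, ∑ x ∈ Lay V 0 r, g x * N f x = E f g := fun f g => by
    have := updown 0 r fun z e => b z * (g (insert e z) * (a (insert e z) * (f (insert e z) - av a f z)))
    rw [hE]
    refine (Finset.sum_congr rfl fun x _ => ?_).trans (this.trans (Finset.sum_congr rfl fun z _ => ?_))
    · simp only [N, LinearMap.coe_mk, AddHom.coe_mk, Finset.mul_sum]
      exact Finset.sum_congr rfl fun e he => by rw [Finset.insert_erase he]; ring
    · rw [← Finset.mul_sum, ← Finset.mul_sum, ← sub_zero (∑ e ∈ zᶜ, g _ * _),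
        ← mul_zero (av a g z), ← av_zero ha f z, Finset.mul_sum, ← Finset.sum_sub_distrib]
      exact congrArg _ (Finset.sum_congr rfl fun _ _ => by ring)
  obtain ⟨m, hm⟩ : ∃ m, m = (∑ x ∈ Lay V 0 r, a x * b x * g x) / ∑ x ∈ Lay V 0 r, a x * b x := ⟨_, rfl⟩
  refine ⟨m, (boch (Lay V 0 r) (fun x => a x * b x) N E (fun x _ => mul_pos (ha x) (hb x)) e1
    (fun F => ?_) (fun f => ?_) (fun f g => ?_) (fun f hf => ?_) (fun x => g x - m) ?_).trans ?_⟩
  · have s := Finset.sum_le_sum fun x (_ : x ∈ Lay V 0 r) => mul_le_mul_of_nonneg_left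
      (hs x fun e => F x - av a F (x.erase e)) (ha x).le
    simp only [mul_add, Finset.sum_add_distrib] at s
    refine le_trans ?_ (s.trans_eq (Finset.sum_congr rfl fun x _ => ?_))
    swap
    · simp only [N, LinearMap.coe_mk, AddHom.coe_mk]
      field_simp [(ha x).ne', (hb x).ne']
    have u1 := updown 0 r fun z e => b z * (a (insert e z) * ((F (insert e z) - av a F z) *
      (F (insert e z) - av a F z)))
    have u2 := updown 0 r fun z e => ∑ f ∈ z, b (z.erase f) * (a (insert e z) *
      ((F (insert e z) - av a F z) * (F (insert e z) - av a F (insert e (z.erase f)))))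
    have u3 := updown 1 r fun y f => ∑ e ∈ (insert f y)ᶜ, b y * (a (insert e (insert f y)) *
      ((F (insert e (insert f y)) - av a F (insert f y)) *
        (F (insert e (insert f y)) - av a F (insert e y))))
    refine (le_add_of_nonneg_left (a := E F F) (Finset.sum_nonneg fun y (_ : y ∈ Lay V 2 r) =>
      mul_nonneg (hb y).le (link ha (h0 y) F))).trans_eq ?_
    congr 1
    · simp only [Finset.mul_sum]
      rw [← u3]
      refine (Finset.sum_congr rfl fun z _ => ?_).trans (u2.symm.trans
        (Finset.sum_congr rfl fun x _ => Finset.sum_congr rfl fun e he =>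
          Finset.sum_congr rfl fun f hf => ?_))
      · rw [Finset.sum_comm]
        exact Finset.sum_congr rfl fun f hf => by rw [Finset.insert_erase hf]
      · rw [Finset.insert_erase he, Finset.erase_right_comm, Finset.insert_erase
          (Finset.mem_erase.2 ⟨(Finset.mem_erase.1 hf).1.symm, he⟩)]
        ring
    · rw [hE]
      simp only [← u1, Finset.mul_sum]
      exact Finset.sum_congr rfl fun x _ => Finset.sum_congr rfl fun e he => by
        rw [Finset.insert_erase he]; ring
  · rw [hE]
    refine Finset.sum_eq_zero fun z _ => Finset.sum_eq_zero fun e he => ?_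
    have := Finset.sum_pos (fun e _ => ha (insert e z)) ⟨e, he⟩
    simp [av, this.ne']
  · simp only [hE, Finset.mul_sum, ← Finset.sum_add_distrib]
    refine Finset.sum_le_sum fun z _ => Finset.sum_le_sum fun e _ => ?_
    nlinarith [mul_nonneg (mul_pos (hb z) (ha (insert e z))).le
      (sq_nonneg (f (insert e z) - av a f z - (g (insert e z) - av a g z)))]
  · have nn : ∀ z e, 0 ≤ b z * (a (insert e z) * ((f (insert e z) - av a f z) *
        (f (insert e z) - av a f z))) := fun z e =>
      mul_nonneg (hb z).le (mul_nonneg (ha _).le (mul_self_nonneg _))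
    have k : ∀ z ∈ Lay V 1 r, ∀ e ∈ zᶜ, f (insert e z) = av a f z := fun z hz e he => by
      rw [hE] at hf
      simpa [(hb z).ne', (ha _).ne', sub_eq_zero] using (Finset.sum_eq_zero_iff_of_nonneg
        fun e _ => nn z e).1 ((Finset.sum_eq_zero_iff_of_nonneg fun z _ =>
          Finset.sum_nonneg fun e _ => nn z e).1 hf z hz) e he
    intro x hx y hy
    generalize hn : (x \ y).card = n
    induction n generalizing x with
    | zero =>
      rw [mem_Lay] at hx hy
      rw [Finset.eq_of_subset_of_card_le (Finset.sdiff_eq_empty_iff_subset.1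
        (Finset.card_eq_zero.1 hn)) (by omega)]
    | succ n ih =>
      obtain ⟨e, he⟩ := Finset.card_pos.1 (show 0 < (x \ y).card by omega)
      have he' := Finset.mem_sdiff.1 he
      rw [mem_Lay] at hx hy
      obtain ⟨e', h1, h2⟩ := Finset.exists_mem_notMem_of_card_lt_card (s := x.erase e) (t := y)
        (by have := Finset.card_erase_add_one he'.1; omega)
      have c := Finset.card_erase_add_one he'.1
      have hz : x.erase e ∈ Lay V 1 r := mem_Lay.2 (by omega)
      rw [← ih (insert e' (x.erase e)) (mem_Lay.2 (by rw [Finset.card_insert_of_notMem h2]; omega))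
        (by
          rw [Finset.insert_sdiff_of_mem _ h1, Finset.erase_sdiff_comm, Finset.card_erase_of_mem he]
          omega), k _ hz e' (Finset.mem_compl.2 h2), ← k _ hz e (by simp), Finset.insert_erase he'.1]
  · rcases (Lay V 0 r).eq_empty_or_nonempty with h | h
    · simp [h]
    have := Finset.sum_pos (fun x _ => mul_pos (ha x) (hb x)) h
    simp only [mul_sub, Finset.sum_sub_distrib, ← Finset.sum_mul, hm]
    field_simp; ring
  · have u := updown 0 r fun z e => b z * (a (insert e z) * ((g (insert e z) - m -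
      av a (fun x => g x - m) z) * (g (insert e z) - m - av a (fun x => g x - m) z)))
    rw [hE]
    simp only [← u]
    simp_rw [Finset.sum_comm (t := Lay V 0 r)]
    rw [Finset.mul_sum]
    refine Finset.sum_le_sum fun x _ => ?_
    have nn : ∀ e f, 0 ≤ min (a x * b x) (a (sw e f x) * b (sw e f x)) * (g (sw e f x) - g x) ^ 2 :=
      fun e f => mul_nonneg (le_min (mul_pos (ha _) (hb _)).le (mul_pos (ha _) (hb _)).le) (sq_nonneg _)
    refine le_trans ?_ (mul_le_mul_of_nonneg_left (Finset.sum_le_sum_of_subset_of_nonneg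
      (Finset.subset_univ x) fun e _ _ => Finset.sum_nonneg fun f _ => nn e f) Λ0)
    rw [Finset.mul_sum]
    refine Finset.sum_le_sum fun e he => ?_
    refine le_trans ?_ (mul_le_mul_of_nonneg_left (Finset.sum_le_sum_of_subset_of_nonneg
      (Finset.subset_univ (x.erase e)ᶜ) fun f _ _ => nn e f) Λ0)
    have w : ∀ f ∈ (x.erase e)ᶜ, sw e f x = insert f (x.erase e) := fun f hf => by
      ext c
      simp only [Finset.mem_compl, Finset.mem_erase, not_and] at hf
      simp only [sw, Finset.mem_map_equiv, Equiv.symm_swap, Equiv.swap_apply_def, Finset.mem_insert,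
        Finset.mem_erase]
      grind
    rw [Finset.sum_congr rfl fun f hf => by rw [w f hf]]
    have hx : x = insert e (x.erase e) := (Finset.insert_erase he).symm
    have he' : e ∈ (x.erase e)ᶜ := by simp
    generalize x.erase e = z at *
    subst hx
    have d := Finset.sum_pos (fun e _ => ha (insert e z)) ⟨e, he'⟩
    have j := Finset.sum_sq_le_sum_mul_sum_of_sq_le_mul zᶜ
      (r := fun f => a (insert f z) * (g (insert f z) - g (insert e z))) (f := fun f => a (insert f z))
      (g := fun f => a (insert f z) * (g (insert f z) - g (insert e z)) ^ 2) (fun _ _ => (ha _).le)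
      (fun _ _ => mul_nonneg (ha _).le (sq_nonneg _)) fun _ _ => le_of_eq (by ring)
    have i : g (insert e z) - m - av a (fun x => g x - m) z =
        -(∑ f ∈ zᶜ, a (insert f z) * (g (insert f z) - g (insert e z))) / ∑ f ∈ zᶜ, a (insert f z) := by
      simp only [av, mul_sub, Finset.sum_sub_distrib, ← Finset.sum_mul]
      field_simp; ring
    rw [i, ← sq, div_pow, neg_sq]
    refine (mul_le_mul_of_nonneg_left (mul_le_mul_of_nonneg_left (div_le_div_of_nonneg_right j
      (sq_nonneg _)) (ha _).le) (hb z).le).trans ?_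
    rw [sq, mul_div_mul_left _ _ d.ne', Finset.sum_div, Finset.mul_sum, Finset.mul_sum, Finset.mul_sum]
    refine Finset.sum_le_sum fun f hf => ?_
    rw [mul_div_right_comm, ← mul_assoc, ← mul_assoc, ← mul_assoc, mul_min_of_nonneg _ _ Λ0]
    refine mul_le_mul_of_nonneg_right (le_min ?_ ?_) (sq_nonneg _)
    · have := (div_le_one d).2 (Finset.single_le_sum (fun e _ => (ha (insert e z)).le) hf)
      refine (mul_le_of_le_one_right (mul_pos (hb _) (ha _)).le this).trans ?_
      nlinarith [mul_le_mul_of_nonneg_right (hΛ z e) (ha (insert e z)).le]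
    · have := (div_le_one d).2 (Finset.single_le_sum (fun e _ => (ha (insert e z)).le) he')
      rw [mul_assoc, mul_div_left_comm, ← mul_assoc]
      refine (mul_le_of_le_one_right (mul_pos (hb _) (ha _)).le this).trans ?_
      nlinarith [mul_le_mul_of_nonneg_right (hΛ z f) (ha (insert f z)).le]

end Vale.Agent.P317
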