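import Vale.Agent.P328.Trial

namespace Vale.Agent.P317

open Finset Real
open Vale.Agent.P328 (split Av Av_abs Av_sub eat eat_sum decay)

variable {G : Type}

/-- Metropolis step driven by one random digit -/
def mstep (E : G → ℕ) (W K : ℕ) (τ : ℕ → G → G) (y : G) (ω : ℕ) : G :=
  if ω % 2 = 0 ∧ ω / 2 / K < 2 ^ (W - (E (τ (ω / 2 % K) y) - E y)) then τ (ω / 2 % K) y else y

lemma mstep_Av {E : G → ℕ} {W K : ℕ} (hK : 0 < K) (τ : ℕ → G → G) (f : G → ℝ) {y : G}
    (h : ∀ a, E (τ a y) ≤ W) : (1 / 2) ^ E y * Av (2 * (K * 2 ^ W)) (mstep E W K τ) f y =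
      (1 / 2) ^ E y * f y + 1 / (2 * K) * ∑ a ∈ range K,
        min ((1 / 2 : ℝ) ^ E y) ((1 / 2) ^ E (τ a y)) * (f (τ a y) - f y) := by
  have k : (K : ℝ) ≠ 0 := by positivity
  have mv : ∀ y', E y' ≤ W → (1 / 2 : ℝ) ^ E y * ∑ v ∈ range (2 ^ W),
      f (if v < 2 ^ (W - (E y' - E y)) then y' else y) =
      2 ^ W * ((1 / 2) ^ E y * f y + min ((1 / 2 : ℝ) ^ E y) ((1 / 2) ^ E y') * (f y' - f y)) := by
    intro y' a
    have b : (1 / 2 : ℝ) ^ E y * 2 ^ (W - (E y' - E y)) =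
        2 ^ W * min ((1 / 2 : ℝ) ^ E y) ((1 / 2) ^ E y') := by
      rcases le_total (E y') (E y) with d | d
      · rw [min_eq_left (pow_le_pow_of_le_one (by norm_num) (by norm_num) d),
          Nat.sub_eq_zero_of_le d, Nat.sub_zero, mul_comm]
      · rw [min_eq_right (pow_le_pow_of_le_one (by norm_num) (by norm_num) d)]
        obtain ⟨k, hk⟩ := Nat.exists_eq_add_of_le d
        obtain ⟨l, hl⟩ := Nat.exists_eq_add_of_le (show k ≤ W by omega)
        rw [hk, hl, Nat.add_sub_cancel_left, Nat.add_sub_cancel_left, pow_add, pow_add, one_div,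
          inv_pow, inv_pow]
        field_simp
    have d : ∀ v, f (if v < 2 ^ (W - (E y' - E y)) then y' else y) =
        f y + if v < 2 ^ (W - (E y' - E y)) then f y' - f y else 0 := fun v => by
      split_ifs <;> simp
    have g : (range (2 ^ W)).filter (fun v => v < 2 ^ (W - (E y' - E y))) =
        range (2 ^ (W - (E y' - E y))) := by
      have := Nat.pow_le_pow_right two_pos (Nat.sub_le W (E y' - E y))
      ext v; simp only [Finset.mem_filter, Finset.mem_range]; omega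
    simp only [d, Finset.sum_add_distrib, ← Finset.sum_filter, g, Finset.sum_const,
      Finset.card_range, nsmul_eq_mul]
    push_cast
    linear_combination (f y' - f y) * b
  unfold Av mstep
  rw [split 2 _ fun s b => f (if s = 0 ∧ b / K < 2 ^ (W - (E (τ (b % K) y) - E y)) then τ (b % K) y
    else y), Finset.sum_range_succ, Finset.sum_range_one]
  simp only [true_and, one_ne_zero, false_and, if_false]
  rw [split K _ fun a v => f (if v < 2 ^ (W - (E (τ a y) - E y)) then τ a y else y), ← mul_div_assoc,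
    mul_add, Finset.mul_sum, Finset.sum_congr rfl fun a _ => mv _ (h a), ← Finset.mul_sum,
    Finset.sum_add_distrib]
  simp only [Finset.sum_const, Finset.card_range, nsmul_eq_mul]
  push_cast
  field_simp
  ring

theorem mix {Y : Finset G} {E : G → ℕ} {W K M c j t : ℕ} (hK : 0 < K) (hM : 0 < M) {τ : ℕ → G → G}
    (h1 : ∀ a, ∀ y ∈ Y, τ a y ∈ Y) (h2 : ∀ a y, τ a (τ a y) = y) (hW : ∀ y ∈ Y, E y ≤ W)
    (hP : ∀ g : G → ℝ, ∃ m, ∑ y ∈ Y, (1 / 2) ^ E y * (g y - m) ^ 2 ≤ M * ∑ a ∈ range K, ∑ y ∈ Y,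
      min ((1 / 2 : ℝ) ^ E y) ((1 / 2) ^ E (τ a y)) * (g (τ a y) - g y) ^ 2)
    (hc : Y.card ≤ 2 ^ c) (ht : 4 * K * M * (W + c + 2 * j) ≤ t) {φ : G → ℝ}
    (hφ : ∀ y, 0 ≤ φ y ∧ φ y ≤ 1) {y0 : G} (h0 : y0 ∈ Y) :
    |(Av (2 * (K * 2 ^ W)) (mstep E W K τ))^[t] φ y0 -
      (∑ y ∈ Y, (1 / 2) ^ E y * φ y) / ∑ y ∈ Y, (1 / 2) ^ E y| ≤ (1 / 2) ^ j := by
  have k : (0 : ℝ) < K := by positivity
  have m : (0 : ℝ) < M := by positivity
  have hB : 0 < 2 * (K * 2 ^ W) := by positivity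
  obtain ⟨ν, hν⟩ : ∃ ν : G → ℝ, ν = fun y => (1 / 2) ^ E y := ⟨_, rfl⟩
  have n0 : ∀ y, 0 < ν y := fun y => by rw [hν]; positivity
  have n1 : ∀ y, ν y ≤ 1 := fun y => by rw [hν]; exact pow_le_one₀ (by norm_num) (by norm_num)
  have f3 : (1 / 2) ^ W ≤ ν y0 := hν ▸ pow_le_pow_of_le_one (by norm_num) (by norm_num) (hW _ h0)
  have A := fun f y hy => mstep_Av hK τ f (y := y) fun a => hW _ (h1 a y hy)
  simp only [show ∀ y, (1 / 2 : ℝ) ^ E y = ν y from fun y => by rw [hν]] at *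
  generalize hA : Av (2 * (K * 2 ^ W)) (mstep E W K τ) = A' at *
  have sym : ∀ (a : ℕ) (ψ : G → G → ℝ), ∑ y ∈ Y, min (ν y) (ν (τ a y)) * ψ y (τ a y) =
      (∑ y ∈ Y, min (ν y) (ν (τ a y)) * (ψ y (τ a y) + ψ (τ a y) y)) / 2 := fun a ψ => by
    have : ∑ y ∈ Y, min (ν y) (ν (τ a y)) * ψ (τ a y) y = ∑ y ∈ Y, min (ν y) (ν (τ a y)) * ψ y (τ a y) :=
      Finset.sum_nbij' (τ a) (τ a) (h1 a) (h1 a) (fun y _ => h2 a y) (fun y _ => h2 a y)
        fun y _ => by rw [h2, min_comm]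
    simp only [mul_add, Finset.sum_add_distrib, this]; ring
  have mean : ∀ f, ∑ y ∈ Y, ν y * A' f y = ∑ y ∈ Y, ν y * f y := fun f => by
    rw [Finset.sum_congr rfl (A f), Finset.sum_add_distrib, ← Finset.mul_sum, Finset.sum_comm,
      Finset.sum_eq_zero (s := range K) fun a _ => by
        rw [sym a fun y y' => f y' - f y]; simp, mul_zero, add_zero]
  have norm : ∀ f, ∑ y ∈ Y, ν y * A' f y ^ 2 ≤ ∑ y ∈ Y, ν y * f y ^ 2 - 1 / (4 * K) *
      ∑ a ∈ range K, ∑ y ∈ Y, min (ν y) (ν (τ a y)) * (f (τ a y) - f y) ^ 2 := fun f => by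
    have a : ∀ y ∈ Y, ν y * A' f y ^ 2 ≤ ν y * f y ^ 2 + 1 / (4 * K) * ∑ a ∈ range K,
        min (ν y) (ν (τ a y)) * (4 * f y * (f (τ a y) - f y) + (f (τ a y) - f y) ^ 2) := by
      intro y hy
      have b := Finset.sum_sq_le_sum_mul_sum_of_sq_le_mul (range K)
        (r := fun a => min (ν y) (ν (τ a y)) * (f (τ a y) - f y)) (f := fun _ => ν y)
        (g := fun a => min (ν y) (ν (τ a y)) * (f (τ a y) - f y) ^ 2) (fun _ _ => (n0 _).le)
        (fun _ _ => mul_nonneg (le_min (n0 _).le (n0 _).le) (sq_nonneg _)) fun a _ => by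
          rw [mul_pow, sq, mul_assoc]
          exact mul_le_mul_of_nonneg_right (min_le_left _ _)
            (mul_nonneg (le_min (n0 _).le (n0 _).le) (sq_nonneg _))
      simp only [mul_add, Finset.sum_add_distrib, mul_left_comm _ (4 * f y), ← Finset.mul_sum,
        Finset.sum_const, Finset.card_range, nsmul_eq_mul] at b ⊢
      refine le_of_mul_le_mul_left ?_ (n0 y)
      rw [← mul_assoc, ← sq, ← mul_pow, A f y hy]
      have := mul_le_mul_of_nonneg_left b (sq_nonneg (1 / (2 * K : ℝ)))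
      refine (le_of_eq ?_).trans ((add_le_add_right this ((ν y * f y) ^ 2 + ν y * f y / K *
        ∑ a ∈ range K, min (ν y) (ν (τ a y)) * (f (τ a y) - f y))).trans_eq ?_) <;> field_simp <;> ring
    refine (Finset.sum_le_sum a).trans_eq ?_
    rw [Finset.sum_add_distrib, ← Finset.mul_sum, Finset.sum_comm, sub_eq_add_neg, ← mul_neg,
      ← Finset.sum_neg_distrib]
    congr 2
    refine Finset.sum_congr rfl fun a _ => ?_
    rw [sym a fun y y' => 4 * f y * (f y' - f y) + (f y' - f y) ^ 2, Finset.sum_div,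
      ← Finset.sum_neg_distrib]
    exact Finset.sum_congr rfl fun y _ => by ring
  obtain ⟨Z, hZ⟩ : ∃ Z, Z = ∑ y ∈ Y, ν y := ⟨_, rfl⟩
  have z : 0 < Z := hZ ▸ Finset.sum_pos (fun y _ => n0 y) ⟨_, h0⟩
  obtain ⟨a, ha⟩ : ∃ a, a = (∑ y ∈ Y, ν y * φ y) / Z := ⟨_, rfl⟩
  have a0 : 0 ≤ a := ha ▸ div_nonneg (Finset.sum_nonneg fun y _ =>
    mul_nonneg (n0 y).le (hφ y).1) z.le
  have a1 : a ≤ 1 := ha ▸ (div_le_one z).2 (hZ ▸ Finset.sum_le_sum fun y _ =>
    mul_le_of_le_one_right (n0 y).le (hφ y).2)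
  rw [← hZ, ← ha]
  have m1 : 1 ≤ 4 * K * M := Nat.succ_le_of_lt (by positivity)
  have l : (0 : ℝ) ≤ 1 - 1 / (4 * K * M : ℕ) :=
    sub_nonneg.2 ((div_le_one (by positivity)).2 (by exact_mod_cast m1))
  have key : ∀ t, ∑ y ∈ Y, ν y * A'^[t] (fun y => φ y - a) y = 0 ∧
      ∑ y ∈ Y, ν y * A'^[t] (fun y => φ y - a) y ^ 2 ≤ Z * (1 - 1 / (4 * K * M : ℕ)) ^ t := by
    intro t
    induction t with
    | zero =>
      constructor
      · simp only [Function.iterate_zero, id, mul_sub, Finset.sum_sub_distrib, ← Finset.sum_mul,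
          ← hZ, ha]
        field_simp; simp
      · rw [pow_zero, mul_one, hZ]
        refine Finset.sum_le_sum fun y _ => mul_le_of_le_one_right (n0 y).le
          ((sq_le_one_iff_abs_le_one _).2 (abs_le.2 ⟨?_, ?_⟩)) <;> simp <;> linarith [hφ y]
    | succ t ih =>
      rw [Function.iterate_succ_apply']
      generalize A'^[t] (fun y => φ y - a) = f at *
      refine ⟨(mean f).trans ih.1, (norm f).trans ?_⟩
      obtain ⟨b, hb⟩ := hP f
      have e : ∑ y ∈ Y, ν y * (f y - b) ^ 2 = ∑ y ∈ Y, ν y * f y ^ 2 -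
          2 * b * ∑ y ∈ Y, ν y * f y + b ^ 2 * Z := by
        rw [hZ, Finset.mul_sum, Finset.mul_sum, ← Finset.sum_sub_distrib, ← Finset.sum_add_distrib]
        exact Finset.sum_congr rfl fun _ _ => by ring
      rw [e, ih.1] at hb
      have l0 : (0 : ℝ) ≤ 1 / (4 * K * M : ℕ) := by positivity
      have e2 : 1 / (4 * K : ℝ) = 1 / (4 * K * M : ℕ) * M := by push_cast; field_simp
      rw [e2, pow_succ]
      generalize (1 / (4 * K * M : ℕ) : ℝ) = l1 at *
      have g1 := mul_le_mul_of_nonneg_left hb l0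
      have g2 := mul_le_mul_of_nonneg_left ih.2 l
      nlinarith [mul_nonneg l0 (mul_nonneg (sq_nonneg b) z.le)]
  have f1 := (Finset.single_le_sum (fun y _ => mul_nonneg (n0 y).le (sq_nonneg _)) h0).trans
    (key t).2
  rw [← hA, Av_sub hB, hA] at f1
  have f2 : Z ≤ 2 ^ c := by
    rw [hZ]
    exact (Finset.sum_le_card_nsmul _ _ 1 fun y _ => n1 y).trans (by simpa using by exact_mod_cast hc)
  refine abs_le_of_sq_le_sq ?_ (by positivity)
  refine le_of_mul_le_mul_left ((mul_le_mul_of_nonneg_right f3 (sq_nonneg _)).trans (f1.trans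
    ((mul_le_mul f2 (decay m1 ht l le_rfl) (pow_nonneg l _) (by positivity)).trans_eq ?_)))
    (by positivity)
  simp only [one_div_pow]
  field_simp
  ring

/-- number of digits with a property -/
def cnt (C : ℕ) (X : ℕ → Prop) [DecidablePred X] (s R : ℕ) : ℕ :=
  ∑ i ∈ range s, if X (R / C ^ i % C) then 1 else 0

lemma mgf {C : ℕ} (hC : 0 < C) (X : ℕ → Prop) [DecidablePred X] {θ p : ℝ} (hθ : |θ| ≤ 1)
    (hp : p = (∑ a ∈ range C, if X a then 1 else 0) / C) (s : ℕ) :
    ∑ R ∈ range (C ^ s), exp (θ * (cnt C X s R - s * p)) ≤ C ^ s * exp (s * θ ^ 2) := by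
  have c : (0 : ℝ) < C := by positivity
  have p0 : 0 ≤ p := hp ▸ div_nonneg (Finset.sum_nonneg fun _ _ => by positivity) c.le
  have p1 : p ≤ 1 := hp ▸ (div_le_one c).2 ((Finset.sum_le_card_nsmul _ _ 1
    fun _ _ => by split_ifs <;> norm_num).trans (by simp))
  have one : ∑ a ∈ range C, exp (θ * ((if X a then 1 else 0) - p)) ≤ C * exp (θ ^ 2) := by
    refine (Finset.sum_le_sum (g := fun a => 1 + θ * ((if X a then 1 else 0) - p) + θ ^ 2)
      fun a _ => ?_).trans ?_
    · have b : |(if X a then 1 else 0) - p| ≤ 1 := by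
        rw [abs_le]; split_ifs <;> constructor <;> linarith
      have d := (abs_le.1 (abs_exp_sub_one_sub_id_le (x := θ * ((if X a then 1 else 0) - p)) (by
        rw [abs_mul]; exact mul_le_one₀ hθ (abs_nonneg _) b))).2
      have e := mul_le_of_le_one_right (sq_nonneg θ) ((sq_le_one_iff_abs_le_one _).2 b)
      rw [mul_pow] at d
      linarith
    · simp only [Finset.sum_add_distrib, ← Finset.mul_sum, Finset.sum_sub_distrib, Finset.sum_const,
        Finset.card_range, nsmul_eq_mul]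
      rw [hp, mul_div_cancel₀ _ c.ne']
      nlinarith [add_one_le_exp (θ ^ 2)]
  induction s with
  | zero => simp [cnt]
  | succ s ih =>
    have e : ∀ R, exp (θ * (cnt C X (s + 1) R - (s + 1 : ℕ) * p)) =
        exp (θ * ((if X (R % C) then 1 else 0) - p)) * exp (θ * (cnt C X s (R / C) - s * p)) := by
      intro R
      rw [← exp_add, cnt, cnt, Finset.sum_range_succ']
      simp only [pow_succ', ← Nat.div_div_eq_div_mul, pow_zero, Nat.div_one]
      push_cast
      congr 1; ring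
    simp only [e]
    rw [pow_succ', split C _ fun a b => exp (θ * ((if X a then 1 else 0) - p)) *
      exp (θ * (cnt C X s b - s * p)), ← Finset.sum_mul_sum]
    refine (mul_le_mul one ih (by positivity) (by positivity)).trans_eq ?_
    push_cast
    rw [add_mul, exp_add]; ring

lemma conc {C : ℕ} (hC : 0 < C) (X : ℕ → Prop) [DecidablePred X] {p : ℝ} {h s j : ℕ} (hh : 0 < h)
    (hp : |(∑ a ∈ range C, if X a then 1 else 0) / C - p| ≤ 1 / h) (hs : 4 * h ^ 2 * j ≤ s) :
    ∑ R ∈ range (C ^ s), (if |cnt C X s R - s * p| ≤ 2 * s / h then 0 else 1 : ℝ) ≤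
      C ^ s * (2 * (1 / 2) ^ j) := by
  have h1 : (1 : ℝ) ≤ h := by exact_mod_cast hh
  have a : |1 / (2 * h : ℝ)| ≤ 1 := by
    rw [abs_of_nonneg (by positivity), div_le_one (by positivity)]; linarith
  have b1 := mgf hC X a rfl s
  have b2 := mgf hC X (θ := -(1 / (2 * h))) (by rwa [abs_neg]) rfl s
  generalize (∑ a ∈ range C, if X a then 1 else 0) / (C : ℝ) = p' at *
  have d : exp (s * (1 / (2 * h : ℝ)) ^ 2) * exp (-(s / (2 * h ^ 2))) ≤ (1 / 2) ^ j := by
    have : ((4 * h ^ 2 * j : ℕ) : ℝ) ≤ s := by exact_mod_cast hs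
    rw [← exp_add]
    refine (exp_le_exp.2 (show _ ≤ j * (-1 : ℝ) from ?_)).trans ?_
    · rw [show s * (1 / (2 * h : ℝ)) ^ 2 + -(s / (2 * h ^ 2)) = -(s / (4 * h ^ 2)) by field_simp; ring,
        mul_neg_one, neg_le_neg_iff, le_div_iff₀ (by positivity)]
      push_cast at this; linarith
    · rw [exp_nat_mul]
      refine pow_le_pow_left₀ (exp_pos _).le ?_ _
      rw [exp_neg, one_div]
      exact inv_anti₀ two_pos (by linarith [add_one_le_exp (1 : ℝ)])
  rw [neg_sq] at b2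
  refine (Finset.sum_le_sum (g := fun R => (exp (1 / (2 * h) * (cnt C X s R - s * p')) +
    exp (-(1 / (2 * h)) * (cnt C X s R - s * p'))) * exp (-(s / (2 * h ^ 2)))) fun R _ => ?_).trans ?_
  · split_ifs with e
    · positivity
    have f := mul_le_mul_of_nonneg_left (abs_le.1 hp).1 (Nat.cast_nonneg s)
    have f' := mul_le_mul_of_nonneg_left (abs_le.1 hp).2 (Nat.cast_nonneg s)
    have u : (s / (2 * h ^ 2) : ℝ) = 1 / (2 * h) * (s * (1 / h)) := by field_simp
    have v : (2 * s / h : ℝ) = 2 * (s * (1 / h)) := by ring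
    have w : (0 : ℝ) ≤ 1 / (2 * h) := by positivity
    rw [add_mul, ← exp_add, ← exp_add, u]
    rw [v, abs_le, not_and_or, not_le, not_le] at e
    rcases e with e | e
    · exact le_add_of_nonneg_of_le (exp_pos _).le (one_le_exp (by nlinarith))
    · exact le_add_of_le_of_nonneg (one_le_exp (by nlinarith)) (exp_pos _).le
  · rw [← Finset.sum_mul, Finset.sum_add_distrib]
    have := mul_le_mul_of_nonneg_right (add_le_add b1 b2) (exp_pos (-(s / (2 * h ^ 2)))).le
    have g := mul_le_mul_of_nonneg_left d (show (0 : ℝ) ≤ C ^ s by positivity)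
    linarith

lemma good_chain {C T : ℕ} (hC : 0 < C) (st : G → ℕ → G) (Gd : ℕ → G → Prop)
    [∀ t, DecidablePred (Gd t)] {ζ : ℝ} (hζ : 0 ≤ ζ) (h : ∀ t < T, ∀ y, Gd t y →
      ∑ ω ∈ range C, (if Gd (t + 1) (st y ω) then 0 else 1 : ℝ) ≤ C * ζ) (u : ℕ) :
    ∀ t y, u + t = T → (Av C st)^[u] (fun y => if Gd T y then 0 else 1) y ≤
      u * ζ + if Gd t y then 0 else 1 := by
  have c : (0 : ℝ) < C := by positivity
  induction u with
  | zero => intro t y e; simp [← e]
  | succ u ih =>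
    intro t y e
    rw [Function.iterate_succ_apply', Av, div_le_iff₀ c]
    refine (Finset.sum_le_sum fun ω _ => ih (t + 1) (st y ω) (by omega)).trans ?_
    rw [Finset.sum_add_distrib, Finset.sum_const, Finset.card_range, nsmul_eq_mul]
    push_cast
    split_ifs with g
    · linarith [h t (by omega) y g]
    · have := Finset.sum_le_card_nsmul (range C) (fun ω => (if Gd (t + 1) (st y ω) then 0 else 1 : ℝ))
        1 fun _ _ => by split_ifs <;> norm_num
      simp only [Finset.card_range, nsmul_eq_mul] at this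
      nlinarith

end Vale.Agent.P317
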