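import Vale.Agent.P317.OT
import Vale.Agent.P317.Metro

namespace Vale.Agent.P317

open Vale.Agent.P328 Enc Oc

/-- oracles together with the three unary numbers -/
structure Inq where
  O : Bool → Val → Bool
  d : List ℕ × List ℕ × List ℕ

instance : Enc Inq := ⟨fun x => enc x.d⟩
instance : Oc Inq := ⟨Inq.O⟩

namespace Inq

variable (x : Inq)

def n : ℕ := x.d.1.length
def e : ℕ := x.d.2.1.length
def k : ℕ := x.d.2.2.length
def a : ℕ := Nat.size (2 * x.n)
def Q : ℕ := 2 ^ x.a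
def l : ℕ := Nat.size (2048 * x.n ^ 2)
def L : ℕ := 2 ^ x.l
def T : ℕ := (x.n + 1) * (x.n + x.e + 3)
def h : ℕ := 64 * (x.n + 1) * x.L + 192 * x.T * x.e
def g : ℕ := Nat.size x.h
def j : ℕ := x.k + x.T * ((x.n ^ 2 + 2) * 2)
def s : ℕ := 4 * x.h ^ 2 * x.j + 1
def W : ℕ := x.T + x.n * (x.T * x.l) + x.l * x.n
def tm : ℕ := 4 * (x.Q * x.Q) * (2 * x.L) * (x.W + 2 * x.n + 2 * x.g)
def B : ℕ := 2 * (x.Q * x.Q * 2 ^ x.W)
def C : ℕ := x.B ^ x.tm
def bits : ℕ := (1 + (x.a + x.a + x.W)) * x.tm * x.s * x.T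
def ask (b : Bool) (I : List ℕ) : ℕ := if x.O b (enc I) then 1 else 0
def put (I : List ℕ) (i : ℕ) : List ℕ := mapR x.n fun c => if c = i then 1 else min (I.getD c 0) 1
def grd (b : Bool) (A : List ℕ) : List ℕ :=
  rep x.n (fun i I => if 0 < A.getD i 0 ∧ 0 < x.ask b (x.put I i) then x.put I i else I) []
def cd (I : List ℕ) : ℕ := sumR x.n fun c => min (I.getD c 0) 1
def rk (b : Bool) (A : List ℕ) : ℕ := x.cd (x.grd b A)
def nu (y : List ℕ) : ℕ :=
  (x.cd (mapR x.n fun i => y.getD (2 * i) 0) - x.rk false (mapR x.n fun i => y.getD (2 * i) 0)) +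
    (x.rk true (mapR x.n fun _ => 1) - x.rk true (mapR x.n fun i => 1 - y.getD (2 * i + 1) 0))
def pf (y : List ℕ) (i : ℕ) : ℕ := min (y.getD (2 * i) 0) 1 + min (y.getD (2 * i + 1) 0) 1
def F (t : ℕ) (y : List ℕ) : ℕ := t * x.nu y / (x.n + 1)
def En (t : ℕ) (k y : List ℕ) : ℕ := x.F t y + sumR x.n (fun i => k.getD i 0 * pf y i) +
  x.l * sumR x.n fun i => pf y i - 1
def tau (a : ℕ) (y : List ℕ) : List ℕ :=
  if a % x.Q < 2 * x.n ∧ a / x.Q < 2 * x.n then mapR (2 * x.n) fun c =>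
    min (y.getD (if c = a % x.Q then a / x.Q else if c = a / x.Q then a % x.Q else c) 0) 1
  else y
def mst (t : ℕ) (k y : List ℕ) (ω : ℕ) : List ℕ := mstep (x.En t k) x.W (x.Q * x.Q) x.tau y ω
def y0 : List ℕ := mapR (2 * x.n) fun c => 1 - c % 2
def smp (t : ℕ) (k : List ℕ) (ω : ℕ) : List ℕ := ((eat x.B (x.mst t k))^[x.tm] (x.y0, ω)).1
def ev (t i j u : ℕ) (y : List ℕ) : Prop :=
  (allR x.n fun c => pf y c = (if c = j then 0 else 1) + if c = i then 1 else 0) ∧
    x.F (t + u) y = x.F t y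
instance (t i j u : ℕ) (y : List ℕ) : Decidable (x.ev t i j u y) := by unfold ev; infer_instance
def ct (t : ℕ) (k : List ℕ) (i j u R : ℕ) : ℕ :=
  sumR x.s fun r => if x.ev t i j u (x.smp t k (R / x.C ^ min r x.s % x.C)) then 1 else 0
def dl (t : ℕ) (k : List ℕ) (i R : ℕ) : ℕ :=
  Nat.size (sumR x.n (fun j => (if i = j then 1 else x.L) * x.ct t k i j 0 R) / x.ct t k x.n x.n 0 R) - 1
def upd (y : ℕ × List ℕ × ℕ × ℕ) (R : ℕ) : ℕ × List ℕ × ℕ × ℕ :=
  (y.1 + 1, mapR x.n fun i => y.2.1.getD i 0 + x.dl y.1 y.2.1 i R,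
    y.2.2.1 * (x.ct y.1 y.2.1 x.n x.n 0 R + x.ct y.1 y.2.1 x.n x.n 1 R),
    y.2.2.2 * (2 * x.ct y.1 y.2.1 x.n x.n 0 R))
def fin (R : ℕ) : ℕ × List ℕ × ℕ × ℕ := ((eat (x.C ^ x.s) x.upd)^[x.T] ((0, [], 1, 1), R)).1
def out (y : ℕ × List ℕ × ℕ × ℕ) : ℕ := (2 * (2 ^ x.n * y.2.2.1) + y.2.2.2) / (2 * y.2.2.2)

end Inq

open Inq

variable {α : Type} [Enc α] [Oc α] {x : α → Inq} {i j t u r : α → ℕ} {y w : α → List ℕ}

@[fun_prop] lemma ot_d (hx : OT x) : OT fun a => (x a).d := hx.of_enc fun _ => rfl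
@[fun_prop] lemma ot_n (hx : OT x) : OT fun a => (x a).n := by unfold n; fun_prop
@[fun_prop] lemma ob_n (hx : OT x) : OB fun a => (x a).n := by unfold n; fun_prop
@[fun_prop] lemma ot_e (hx : OT x) : OT fun a => (x a).e := by unfold e; fun_prop
@[fun_prop] lemma ob_e (hx : OT x) : OB fun a => (x a).e := by unfold e; fun_prop
@[fun_prop] lemma ot_k (hx : OT x) : OT fun a => (x a).k := by unfold k; fun_prop
@[fun_prop] lemma ob_k (hx : OT x) : OB fun a => (x a).k := by unfold k; fun_prop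
@[fun_prop] lemma ot_a (hx : OT x) : OT fun a => (x a).a := by unfold Inq.a; fun_prop
@[fun_prop] lemma ob_a (hx : OT x) : OB fun a => (x a).a := by unfold Inq.a; fun_prop
@[fun_prop] lemma ot_Q (hx : OT x) : OT fun a => (x a).Q := by unfold Q; fun_prop
@[fun_prop] lemma ob_Q (hx : OT x) : OB fun a => (x a).Q :=
  OB.mono (t := fun a => 2 * (2 * (x a).n) + 1) (by fun_prop) fun _ => two_pow_size _
@[fun_prop] lemma ot_l (hx : OT x) : OT fun a => (x a).l := by unfold l; fun_prop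
@[fun_prop] lemma ob_l (hx : OT x) : OB fun a => (x a).l := by unfold l; fun_prop
@[fun_prop] lemma ot_L (hx : OT x) : OT fun a => (x a).L := by unfold L; fun_prop
@[fun_prop] lemma ob_L (hx : OT x) : OB fun a => (x a).L :=
  OB.mono (t := fun a => 2 * (2048 * (x a).n ^ 2) + 1) (by fun_prop) fun _ => two_pow_size _
@[fun_prop] lemma ot_T (hx : OT x) : OT fun a => (x a).T := by unfold T; fun_prop
@[fun_prop] lemma ob_T (hx : OT x) : OB fun a => (x a).T := by unfold T; fun_prop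
@[fun_prop] lemma ot_h (hx : OT x) : OT fun a => (x a).h := by unfold h; fun_prop
@[fun_prop] lemma ob_h (hx : OT x) : OB fun a => (x a).h := by unfold h; fun_prop
@[fun_prop] lemma ot_g (hx : OT x) : OT fun a => (x a).g := by unfold g; fun_prop
@[fun_prop] lemma ob_g (hx : OT x) : OB fun a => (x a).g := by unfold g; fun_prop
@[fun_prop] lemma ot_j (hx : OT x) : OT fun a => (x a).j := by unfold Inq.j; fun_prop
@[fun_prop] lemma ob_j (hx : OT x) : OB fun a => (x a).j := by unfold Inq.j; fun_prop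
@[fun_prop] lemma ot_s (hx : OT x) : OT fun a => (x a).s := by unfold s; fun_prop
@[fun_prop] lemma ob_s (hx : OT x) : OB fun a => (x a).s := by unfold s; fun_prop
@[fun_prop] lemma ot_W (hx : OT x) : OT fun a => (x a).W := by unfold W; fun_prop
@[fun_prop] lemma ob_W (hx : OT x) : OB fun a => (x a).W := by unfold W; fun_prop
@[fun_prop] lemma ot_tm (hx : OT x) : OT fun a => (x a).tm := by unfold tm; fun_prop
@[fun_prop] lemma ob_tm (hx : OT x) : OB fun a => (x a).tm := by unfold tm; fun_prop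
@[fun_prop] lemma ot_B (hx : OT x) : OT fun a => (x a).B := by unfold B; fun_prop
@[fun_prop] lemma ot_C (hx : OT x) : OT fun a => (x a).C := by unfold C; fun_prop
lemma ob_bits : OB bits := by unfold bits; fun_prop
@[fun_prop] lemma ot_ask (b : Bool) (hx : PF x) (hy : OT y) : OT fun a => (x a).ask b (y a) :=
  (hy.ask b).of_enc fun a => by rw [← hx a]; rfl
@[fun_prop] lemma ot_put (hx : OT x) (hy : OT y) (hi : OT i) : OT fun a => (x a).put (y a) (i a) := by
  unfold put; fun_prop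

lemma sz_bits (n : ℕ) {f : ℕ → ℕ} (h : ∀ c, f c ≤ 1) : sz (mapR n f) ≤ 3 * n + 1 := by
  rw [sz_mapR]
  refine Nat.succ_le_succ ((Finset.sum_le_card_nsmul _ _ 3 fun c _ =>
    Nat.succ_le_succ (sz_mono (h c))).trans (by simp [mul_comm]))

@[fun_prop] lemma ot_grd (b : Bool) (hx : OT x) (hx' : PF x) (hy : OT y) :
    OT fun a => (x a).grd b (y a) :=
  OT.rep (f := fun a i I => if 0 < (y a).getD i 0 ∧ 0 < (x a).ask b ((x a).put I i) then (x a).put I i
    else I) (by fun_prop) (by fun_prop) (by fun_prop) (by fun_prop)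
    (t := fun p => 3 * (x p.1).n + 1) (by fun_prop) fun a i I => by
      split_ifs
      · exact (sz_bits _ fun c => by split_ifs <;> omega).trans (Nat.le_add_left _ _)
      · omega
@[fun_prop] lemma ot_cd (hx : OT x) (hy : OT y) : OT fun a => (x a).cd (y a) := by
  unfold cd; fun_prop
@[fun_prop] lemma ot_rk (b : Bool) (hx : OT x) (hx' : PF x) (hy : OT y) :
    OT fun a => (x a).rk b (y a) := by unfold rk; fun_prop
@[fun_prop] lemma ot_nu (hx : OT x) (hx' : PF x) (hy : OT y) : OT fun a => (x a).nu (y a) := by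
  unfold nu; fun_prop
@[fun_prop] lemma ot_pf (hy : OT y) (hi : OT i) : OT fun a => pf (y a) (i a) := by unfold pf; fun_prop
@[fun_prop] lemma ot_F (hx : OT x) (hx' : PF x) (ht : OT t) (hy : OT y) :
    OT fun a => (x a).F (t a) (y a) := by unfold F; fun_prop
@[fun_prop] lemma ot_En (hx : OT x) (hx' : PF x) (ht : OT t) (hw : OT w) (hy : OT y) :
    OT fun a => (x a).En (t a) (w a) (y a) := by unfold En; fun_prop
@[fun_prop] lemma ot_tau (hx : OT x) (hi : OT i) (hy : OT y) : OT fun a => (x a).tau (i a) (y a) := by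
  unfold tau; fun_prop
@[fun_prop] lemma ot_mst (hx : OT x) (hx' : PF x) (ht : OT t) (hw : OT w) (hy : OT y) (hi : OT i) :
    OT fun a => (x a).mst (t a) (w a) (y a) (i a) := by unfold mst mstep; fun_prop
@[fun_prop] lemma ot_y0 (hx : OT x) : OT fun a => (x a).y0 := by unfold y0; fun_prop
@[fun_prop] lemma ot_smp (hx : OT x) (hx' : PF x) (ht : OT t) (hw : OT w) (hi : OT i) :
    OT fun a => (x a).smp (t a) (w a) (i a) :=
  (OT.eat (st := fun a => (x a).mst (t a) (w a)) (by fun_prop) (by fun_prop) (by fun_prop)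
    (by fun_prop) (by fun_prop) (t := fun a => 3 * (2 * (x a).n) + 1) (by fun_prop) fun a y ω => by
      simp only [mst, mstep, tau]
      split_ifs
      · exact (sz_bits _ fun c => Nat.min_le_right _ _).trans (Nat.le_add_left _ _)
      all_goals omega).fst
@[fun_prop] lemma od_ev (hx : OT x) (hx' : PF x) (ht : OT t) (hi : OT i) (hj : OT j) (hu : OT u)
    (hy : OT y) : OD fun a => (x a).ev (t a) (i a) (j a) (u a) (y a) := by unfold ev; fun_prop
@[fun_prop] lemma ot_ct (hx : OT x) (hx' : PF x) (ht : OT t) (hw : OT w) (hi : OT i) (hj : OT j)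
    (hu : OT u) (hr : OT r) : OT fun a => (x a).ct (t a) (w a) (i a) (j a) (u a) (r a) := by
  unfold ct; fun_prop
@[fun_prop] lemma ot_dl (hx : OT x) (hx' : PF x) (ht : OT t) (hw : OT w) (hi : OT i) (hr : OT r) :
    OT fun a => (x a).dl (t a) (w a) (i a) (r a) := by unfold dl; fun_prop
@[fun_prop] lemma ot_upd {z : α → ℕ × List ℕ × ℕ × ℕ} (hx : OT x) (hx' : PF x) (hz : OT z) (hr : OT r) :
    OT fun a => (x a).upd (z a) (r a) := by unfold upd; fun_prop

lemma ct_le (x : Inq) (t : ℕ) (k : List ℕ) (i j u R : ℕ) : x.ct t k i j u R ≤ x.s := by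
  unfold ct sumR
  refine (Finset.sum_le_card_nsmul _ _ 1 fun c _ => ?_).trans (by simp)
  simp only; split_ifs <;> omega

lemma dl_le (x : Inq) (t : ℕ) (k : List ℕ) (i R : ℕ) : x.dl t k i R ≤ x.n * (x.L * x.s) :=
  (Nat.sub_le _ _).trans ((nsize_le_self _).trans ((Nat.div_le_self _ _).trans
    ((Finset.sum_le_card_nsmul _ _ (x.L * x.s) fun c _ => Nat.mul_le_mul (by
      split_ifs
      exacts [Nat.one_le_two_pow, le_rfl]) (ct_le ..)).trans (by simp))))

lemma ot_fin (hx : OT x) (hx' : PF x) (hr : OT r) : OT fun a => (x a).fin (r a) :=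
  (OT.eat (st := fun a => (x a).upd) (by fun_prop) (by fun_prop) (by fun_prop) (by fun_prop)
    (by fun_prop) (t := fun a => (x a).n * (sz ((x a).n * ((x a).L * (x a).s)) + 2) + 2 +
      2 * sz (2 * (x a).s)) (by fun_prop) fun a y ω => by
      obtain ⟨t, k, N, D⟩ := y
      have a1 := sz_succ t
      have a2 := sz_getD k 0 (x a).n
      have a3 := Finset.sum_le_sum fun i (_ : i ∈ Finset.range (x a).n) => Nat.succ_le_succ
        ((sz_add (k.getD i 0) _).trans (Nat.add_le_add_left (sz_mono (dl_le (x a) t k i ω)) _))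
      have b0 := ct_le (x a) t k (x a).n (x a).n 0 ω
      have b1 := ct_le (x a) t k (x a).n (x a).n 1 ω
      have a4 := (sz_mul N _).trans (Nat.add_le_add_left (sz_mono (show (x a).ct t k (x a).n (x a).n 0 ω +
        (x a).ct t k (x a).n (x a).n 1 ω ≤ 2 * (x a).s by omega)) _)
      have a5 := (sz_mul D _).trans (Nat.add_le_add_left (sz_mono (Nat.mul_le_mul_left 2 b0)) _)
      simp only [upd, sz_pair, sz_mapR, Nat.succ_eq_add_one, Finset.sum_add_distrib, Finset.sum_const,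
        Finset.card_range, smul_eq_mul, show sz 0 = 1 from rfl, mul_add] at *
      omega).fst

lemma ot_all : OT fun a : Inq × List ℕ => a.1.out (a.1.fin (toNum a.2)) := by
  have := ot_fin (x := fun a : Inq × List ℕ => a.1) (r := fun a => toNum a.2) (by fun_prop)
    (by fun_prop) (by unfold toNum; fun_prop)
  unfold out; fun_prop

end Vale.Agent.P317
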