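import Vale.Agent.P317.Rank
import Vale.Agent.P317.Impl
import Vale.Agent.P328.Final

namespace Vale.Agent.P317

open Finset
open Vale.Agent.P328 (mapR sumR allR rep rep_succ eat eat_map Val Enc)

lemma getD_mapR (n : ℕ) (f : ℕ → ℕ) (i : ℕ) : (mapR n f).getD i 0 = if i < n then f i else 0 := by
  unfold mapR
  split_ifs with h <;> simp [List.getD_eq_getElem?_getD, h]

lemma nth_enc (I : List ℕ) (i : ℕ) : (Val.snd^[i] (Enc.enc I)).fst.toNat = I.getD i 0 := by
  induction i generalizing I with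
  | zero => cases I <;> rfl
  | succ i ih =>
    rw [Function.iterate_succ_apply]
    cases I with
    | nil => exact ih []
    | cons a I => exact ih I

lemma mstep_map {G H : Type} (φ : G → H) {E : G → ℕ} {E' : H → ℕ} {τ : ℕ → G → G} {τ' : ℕ → H → H}
    (hE : ∀ y, E y = E' (φ y)) (hτ : ∀ a y, φ (τ a y) = τ' a (φ y)) (W K : ℕ) (y : G) (ω : ℕ) :
    φ (mstep E W K τ y ω) = mstep E' W K τ' (φ y) ω := by
  simp only [mstep, hE, hτ, apply_ite φ]

namespace Inq

variable (x : Inq)

/-- subset of a list -/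
def sb (I : List ℕ) : Finset (Fin x.n) := univ.filter fun i => I.getD i 0 ≠ 0
/-- state of a list -/
def st (y : List ℕ) : Finset (Fin x.n × Bool) :=
  univ.filter fun e => y.getD (2 * e.1 + e.2.toNat) 0 ≠ 0
/-- weights of a list -/
def kf (k : List ℕ) (i : Fin x.n) : ℕ := k.getD i 0

lemma cd_eq (I : List ℕ) : x.cd I = (x.sb I).card := by
  rw [cd, sumR, Finset.sum_range, sb, Finset.card_filter]
  exact Finset.sum_congr rfl fun i _ => by split_ifs <;> omega

lemma sb_put (I : List ℕ) (i : Fin x.n) : x.sb (x.put I i) = insert i (x.sb I) := by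
  ext c
  simp only [sb, put, getD_mapR, Finset.mem_filter, mem_univ, true_and, c.2, if_true,
    Finset.mem_insert, Fin.ext_iff]
  split_ifs <;> omega

lemma pf_eq (y : List ℕ) (i : Fin x.n) : pf y i = prof (x.st y) i := by
  simp only [pf, prof_eq, st, Finset.mem_filter, mem_univ, true_and, Bool.toNat_false, Bool.toNat_true,
    add_zero]
  split_ifs <;> omega

variable (M₁ M₂ : Matroid (Fin x.n))

/-- the parameters -/
noncomputable def par : Par (Fin x.n) where
  ν := nul M₁ M₂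
  nul := isNul M₁ M₂
  Q := x.Q
  m := x.n + 1
  l := x.l
  T := x.T
  h := x.h
  s := x.s
  j := x.j
  g := x.g
  tm := x.tm
  ix e := 2 * e.1 + e.2.toNat
  dec a := if h : a < 2 * x.n then some (⟨a / 2, by omega⟩, decide (a % 2 = 1)) else none
  y0 := x.st x.y0
  hy0 := by
    rw [card_prof, Fintype.card_fin, Finset.sum_congr rfl (g := fun _ => 1) fun i _ => by
      have := i.2
      simp only [← pf_eq, pf, y0, getD_mapR]
      split_ifs <;> omega]
    simp
  hix e := by
    have := e.1.2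
    have := e.2.toNat_le
    exact lt_trans (by omega) (Nat.lt_size_self (2 * x.n))
  hdec := by
    rintro ⟨i, b⟩
    have := i.2
    have := b.toNat_le
    rw [dif_pos (by simp only; omega)]
    cases b <;> simp [Fin.ext_iff]
    omega
  hQ := Nat.two_pow_pos _
  hm := by simp
  hl := by rw [Fintype.card_fin]; exact (Nat.lt_size_self _).le
  hh := by rw [Fintype.card_fin]; exact Nat.le_add_right _ _
  hg := (Nat.lt_size_self _).le
  hs := Nat.le_succ _
  hs' := Nat.succ_pos _
  htm := by rw [Fintype.card_fin]; rfl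

lemma W_eq : (x.par M₁ M₂).W = x.W := by simp [Par.W, par, W]

lemma B_eq : (x.par M₁ M₂).B = x.B := by rw [Par.B, W_eq]; rfl

lemma tau_eq (a : ℕ) (y : List ℕ) : x.st (x.tau a y) = (x.par M₁ M₂).τ a (x.st y) := by
  simp only [tau, Par.τ, par]
  generalize a % x.Q = p, a / x.Q = q
  by_cases h1 : p < 2 * x.n
  swap
  · simp [h1]
  by_cases h2 : q < 2 * x.n
  swap
  · simp [h1, h2]
  simp only [h1, h2, and_self, if_true, dif_pos]
  ext ⟨i, b⟩
  have := i.2
  have hb := b.toNat_le
  simp only [st, sw, getD_mapR, Finset.mem_map_equiv, Equiv.symm_swap, Finset.mem_filter, mem_univ,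
    true_and, Equiv.swap_apply_def, if_pos (show 2 * i + b.toNat < 2 * x.n by omega)]
  have e : ∀ (p : ℕ) h, (i, b) = (⟨p / 2, h⟩, decide (p % 2 = 1)) ↔ 2 * i + b.toNat = p := fun p h => by
    cases b <;> simp [Fin.ext_iff] <;> omega
  have e' : ∀ p : ℕ, 2 * (p / 2) + (decide (p % 2 = 1)).toNat = p := fun p => by
    by_cases h : p % 2 = 1 <;> simp [h] <;> omega
  simp only [e]
  split_ifs <;> simp only [e'] <;> omega

variable {x M₁ M₂} (hO : x.O = oracle M₁ M₂)
include hO

lemma rk_eq (b : Bool) (A : List ℕ) : x.rk b A = rank (if b then M₂ else M₁) (x.sb A) := by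
  obtain ⟨M, hM⟩ : ∃ M, M = if b then M₂ else M₁ := ⟨_, rfl⟩
  have ha : ∀ I, 0 < x.ask b I ↔ rank M (x.sb I) = (x.sb I).card := fun I => by
    rw [← indep_iff, ask, hO, oracle, ← hM, show subset x.n (Enc.enc I) = x.sb I by
      ext; simp [subset, sb, nth_enc]]
    split_ifs <;> simp_all
  have : ∀ i ≤ x.n, ∀ I, I = rep i (fun i I => if 0 < A.getD i 0 ∧ 0 < x.ask b (x.put I i) then
      x.put I i else I) [] → x.sb I ⊆ (x.sb A).filter (·.1 < i) ∧ rank M (x.sb I) = (x.sb I).card ∧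
      rank M ((x.sb A).filter (·.1 < i)) = (x.sb I).card := by
    intro i
    induction i with
    | zero =>
      rintro - _ rfl
      have := rank_le M ∅
      simp_all [rep, sb]
    | succ i ih =>
      intro hi J hJ
      rw [rep_succ] at hJ
      obtain ⟨a1, a2, a3⟩ := ih (by omega) _ rfl
      generalize rep i _ _ = I at *
      have p := x.sb_put I ⟨i, hi⟩
      simp only at p
      by_cases c : 0 < A.getD i 0
      · have e : (x.sb A).filter (·.1 < i + 1) = insert ⟨i, hi⟩ ((x.sb A).filter (·.1 < i)) := by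
          ext c
          simp only [sb, Finset.mem_filter, mem_univ, true_and, Finset.mem_insert, Fin.ext_iff]
          grind
        have n : ⟨i, hi⟩ ∉ x.sb I := fun h => by simpa using a1 h
        have b1 := rank_insert M ⟨i, hi⟩ ((x.sb A).filter (·.1 < i))
        have b2 := rank_mono M (Finset.insert_subset_insert ⟨i, hi⟩ a1)
        have b3 := rank_le M (insert ⟨i, hi⟩ (x.sb I))
        have b4 := rank_mono M (Finset.subset_insert ⟨i, hi⟩ ((x.sb A).filter (·.1 < i)))
        have b5 := rank_sub M (A := (x.sb A).filter (·.1 < i)) (B := insert ⟨i, hi⟩ (x.sb I))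
          (C := x.sb I) (D := insert ⟨i, hi⟩ ((x.sb A).filter (·.1 < i))) (by grind) (by grind)
        have b6 := Finset.card_insert_of_notMem n
        simp only [c, true_and, ha, p] at hJ
        rw [e]
        split_ifs at hJ with d
        · rw [hJ, p]
          exact ⟨Finset.insert_subset_insert _ a1, d, by omega⟩
        · rw [hJ]
          exact ⟨a1.trans (Finset.subset_insert _ _), a2, by omega⟩
      · rw [hJ, if_neg (by tauto), show (x.sb A).filter (·.1 < i + 1) = (x.sb A).filter (·.1 < i) by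
          ext c
          simp only [sb, Finset.mem_filter, mem_univ, true_and]
          grind]
        exact ⟨a1, a2, a3⟩
  rw [rk, cd_eq, ← hM, grd, ← (this _ le_rfl _ rfl).2.2, Finset.filter_true_of_mem fun i _ => i.2]

lemma F_eq (t : ℕ) (y : List ℕ) : x.F t y = (x.par M₁ M₂).F t (x.st y) := by
  have a1 : x.sb (mapR x.n fun i => y.getD (2 * i) 0) = fa (x.st y) := by
    ext; simp [sb, getD_mapR, fa, st, -List.getD_eq_getElem?_getD]
  have a2 : x.sb (mapR x.n fun _ => 1) = univ := by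
    ext; simp [sb, getD_mapR, -List.getD_eq_getElem?_getD]
  have a3 : x.sb (mapR x.n fun i => 1 - y.getD (2 * i + 1) 0) = tb (x.st y) := by
    ext; simp [sb, getD_mapR, tb, st, -List.getD_eq_getElem?_getD]; omega
  simp only [F, nu, rk_eq hO, cd_eq, a1, a2, a3]
  rfl

lemma En_eq (t : ℕ) (k y : List ℕ) : x.En t k y = (x.par M₁ M₂).En t (x.kf k) (x.st y) := by
  simp only [En, Par.En, F_eq hO, sumR, Finset.sum_range, pf_eq, dbl_prof]
  congr 3
  funext i
  rw [prof_eq]; grind

lemma smp_eq (t : ℕ) (k : List ℕ) (ω : ℕ) : x.st (x.smp t k ω) = (x.par M₁ M₂).smp t (x.kf k) ω := by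
  rw [Par.smp, B_eq, W_eq]
  exact (congrArg Prod.fst (eat_map x.st (st := x.mst t k)
    (mstep_map x.st (En_eq hO t k) (x.tau_eq M₁ M₂) _ _) _ _ _ _)).symm

lemma ct_eq (t : ℕ) (k : List ℕ) (i j u R : ℕ) (X : Finset (Fin x.n × Bool) → Prop) [DecidablePred X]
    (h : ∀ y, x.ev t i j u y ↔ X (x.st y)) : x.ct t k i j u R = (x.par M₁ M₂).ct t (x.kf k) X R := by
  rw [Par.ct, cnt, B_eq, ct, sumR]
  refine Finset.sum_congr rfl fun r hr => ?_
  simp only [h, smp_eq hO, min_eq_left (show r ≤ x.s from (Finset.mem_range.1 hr).le)]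
  rfl

/-- states -/
def ps (x : Inq) (y : ℕ × List ℕ × ℕ × ℕ) : ℕ × (Fin x.n → ℕ) × ℕ × ℕ := (y.1, x.kf y.2.1, y.2.2)

lemma upd_eq (y : ℕ × List ℕ × ℕ × ℕ) (R : ℕ) : x.ps (x.upd y R) = (x.par M₁ M₂).upd (x.ps y) R := by
  have a : ∀ z, (allR x.n fun c => pf z c = (if c = x.n then 0 else 1) + if c = x.n then 1 else 0) ↔
      prof (x.st z) = 1 := fun z => by
    simp only [allR, funext_iff, Fin.forall_iff, ← pf_eq, Pi.one_apply]
    grind
  have c0 := ct_eq hO y.1 y.2.1 x.n x.n 0 R (prof · = 1) fun z => by simp [ev, a]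
  have c1 := ct_eq hO y.1 y.2.1 x.n x.n 1 R (fun S => prof S = 1 ∧
    (x.par M₁ M₂).F (y.1 + 1) S = (x.par M₁ M₂).F y.1 S) fun z => by simp only [ev, a, F_eq hO]
  have c2 := fun i j : Fin x.n => ct_eq hO y.1 y.2.1 i j 0 R (prof · = pr i j) fun z => by
    simp [ev, allR, funext_iff, Fin.forall_iff, ← pf_eq, pr, Fin.ext_iff]
  simp only [ps, upd, Par.upd, c0, c1, Prod.mk.injEq, true_and, and_true]
  refine ⟨funext fun i => ?_, rfl⟩
  simp only [kf, getD_mapR, i.2, if_true, dl, sumR, Finset.sum_range, c0, c2, Fin.ext_iff]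
  rfl

theorem law (hr : M₁.eRank = M₂.eRank) (he : 1 ≤ x.e) {l : ℕ} (hl : x.bits ≤ l) :
    1 - (1 / 2 : ℝ) ^ x.k ≤ ({ω : Fin l → Fin 2 |
      |(x.out (x.fin (finFunctionFinEquiv ω)) : ℝ) - {B | M₁.IsBase B ∧ M₂.IsBase B}.ncard| ≤
        {B | M₁.IsBase B ∧ M₂.IsBase B}.ncard / x.e}.ncard : ℝ) / 2 ^ l := by
  classical
  obtain ⟨P, hP⟩ : ∃ P, P = x.par M₁ M₂ := ⟨_, rfl⟩
  have e1 : ((P.B ^ P.tm) ^ P.s) ^ P.T * 2 ^ (l - x.bits) = 2 ^ l := by
    rw [hP, B_eq, ← Nat.add_sub_cancel' hl, Nat.add_sub_cancel_left, pow_add, bits, pow_mul, pow_mul,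
      pow_mul, pow_add, pow_add, pow_add, pow_one]
    rfl
  have e2 : {B | M₁.IsBase B ∧ M₂.IsBase B}.ncard = (univ.filter fun A => P.ν (tv A) = 0).card := by
    rw [← Set.ncard_coe_finset, ← Set.ncard_image_of_injective _ Finset.coe_injective]
    congr 1
    ext B
    lift B to Finset (Fin x.n) using B.toFinite
    simp [hP, par, nul_tv hr]
  have e3 : ∀ R, ((eat ((P.B ^ P.tm) ^ P.s) P.upd)^[P.T] ((0, 0, 1, 1), R)).1 = x.ps (x.fin R) :=
    fun R => by
      rw [hP, B_eq]
      exact congrArg Prod.fst (eat_map x.ps (upd_eq hO) _ _ (0, [], 1, 1) R)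
  have r := P.run (X := 2 ^ (l - x.bits)) (by positivity)
  have f : (P.T * ((Fintype.card (Fin x.n) ^ 2 + 2) * (2 * (1 / 2) ^ P.j)) : ℝ) ≤ (1 / 2) ^ x.k := by
    have : ((x.T * ((x.n ^ 2 + 2) * 2) : ℕ) : ℝ) ≤ 2 ^ (x.T * ((x.n ^ 2 + 2) * 2)) := by
      exact_mod_cast Nat.lt_two_pow_self.le
    rw [hP, Fintype.card_fin]
    change (x.T * ((x.n ^ 2 + 2) * (2 * (1 / 2) ^ (x.k + _))) : ℝ) ≤ _
    rw [pow_add, one_div_pow (n := x.T * _)]
    refine le_trans (le_of_eq ?_) (mul_le_of_le_one_right (by positivity)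
      ((div_le_one (by positivity)).2 this))
    push_cast; ring
  replace r := r.trans f
  simp only [e1, e3] at r
  rw [Finset.sum_range, ← Equiv.sum_comp finFunctionFinEquiv, div_le_iff₀ (by positivity)] at r
  rw [le_div_iff₀ (by positivity), Set.ncard_eq_toFinset_card', Set.toFinset_ofPred,
    Finset.natCast_card_filter, sub_mul, one_mul, sub_le_iff_le_add]
  refine le_trans ?_ (add_le_add le_rfl (r.trans_eq (by simp)))
  rw [← Finset.sum_add_distrib]
  refine le_of_eq_of_le (by simp) (Finset.sum_le_sum (f := fun _ => (1 : ℝ)) fun ω _ => ?_)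
  by_cases g : P.Good P.T (x.ps (x.fin (finFunctionFinEquiv ω)))
  · have := P.round (e0 := x.e) (k := (x.ps (x.fin (finFunctionFinEquiv ω))).2.1)
      (N := (x.fin (finFunctionFinEquiv ω)).2.2.1) (D := (x.fin (finFunctionFinEquiv ω)).2.2.2) he
      (by rw [hP, Fintype.card_fin]; rfl) (by rw [hP]; exact Nat.le_add_left _ _) ⟨rfl, g.2⟩
    rw [Fintype.card_fin, ← e2] at this
    rw [if_pos g, if_pos (by exact this), add_zero]
  · rw [if_neg g]
    exact le_add_of_nonneg_left (by positivity)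

end Inq

end Vale.Agent.P317
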