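import Vale.Agent.P328.Model

namespace Vale.Agent.P317

open Vale.Agent.P328

/-- Oracle programs: oracle-free programs, queries to one of two oracles, pairing, composition
and counted loops. -/
inductive OProg where
  | base : Prog → OProg
  | ask : Bool → OProg
  | pair : OProg → OProg → OProg
  | comp : OProg → OProg → OProg
  | loop : OProg → OProg

/-- Output and running time of an oracle program. A query `ask b` hands the current value to
oracle `b`, returns its answer as `1` or `0`, and costs the size of the query plus one. -/
def OProg.run (O : Bool → Val → Bool) : OProg → Val → Val × ℕ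
  | .base p, v => p.run v
  | .ask b, v => (.num (if O b v then 1 else 0), v.size + 1)
  | .pair p q, v => (.pair (p.run O v).1 (q.run O v).1, (p.run O v).2 + (q.run O v).2 + 1)
  | .comp p q, v => ((p.run O (q.run O v).1).1, (p.run O (q.run O v).1).2 + (q.run O v).2 + 1)
  | .loop p, v => (fun s : Val × ℕ => ((p.run O s.1).1, s.2 + (p.run O s.1).2 + 1))^[v.fst.toNat]
      (v.snd, v.size)

/-- The subset of `Fin n` described by a list: `i` belongs to it when entry `i` is not zero. -/
def subset (n : ℕ) (v : Val) : Set (Fin n) := {i | (Val.snd^[i] v).fst.toNat ≠ 0}

open Classical in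
/-- The two independence oracles: `false` asks `M₁`, `true` asks `M₂`. -/
noncomputable def oracle {n : ℕ} (M₁ M₂ : Matroid (Fin n)) (b : Bool) (v : Val) : Bool :=
  decide ((if b then M₂ else M₁).Indep (subset n v))

/-- What the program is given: `n`, `e`, `k` in unary (lists of zeros) and the random bits. -/
def input {l : ℕ} (n e k : ℕ) (ω : Fin l → Fin 2) : Val :=
  .pair (.pair (Val.ofNats (List.replicate n 0))
      (.pair (Val.ofNats (List.replicate e 0)) (Val.ofNats (List.replicate k 0))))
    (Val.ofNats (List.ofFn fun i => (ω i : ℕ)))

end Vale.Agent.P317
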