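import Vale.Agent.P317.Model
import Vale.Agent.P328.Impl

namespace Vale.Agent.P317

open Vale.Agent.P328 Enc

/-- types that carry oracles -/
class Oc (α : Type) where
  orc : α → Bool → Val → Bool

open Oc

instance {α β : Type} [Oc α] : Oc (α × β) := ⟨fun p => orc p.1⟩

/-- oracle preserving -/
@[fun_prop] def PF {α β : Type} [Oc α] [Oc β] (f : α → β) : Prop := ∀ a, orc (f a) = orc a

/-- polynomially bounded -/
@[fun_prop] def OB {α : Type} [Enc α] (t : α → ℕ) : Prop := PB t

/-- polynomial time with oracles -/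
@[fun_prop] def OT {α β : Type} [Enc α] [Oc α] [Enc β] (f : α → β) : Prop :=
  ∃ p : OProg, (∀ a, (p.run (orc a) (enc a)).1 = enc (f a)) ∧ OB fun a : α => (p.run (orc a) (enc a)).2

section
variable {α β γ : Type} [Oc α] [Oc β]

@[fun_prop] lemma PF.id : PF fun a : α => a := fun _ => rfl
@[fun_prop] lemma PF.comp [Oc γ] {g : β → γ} {f : α → β} (hg : PF g) (hf : PF f) :
    PF fun a => g (f a) := fun a => (hg _).trans (hf a)
@[fun_prop] lemma PF.pair {f : α → β} {g : α → γ} (hf : PF f) : PF fun a => (f a, g a) := hf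
@[fun_prop] lemma PF.fst {f : α → β × γ} (hf : PF f) : PF fun a => (f a).1 := hf

end

lemma orun_size (O : Bool → Val → Bool) (p : OProg) (v : Val) : (p.run O v).1.size ≤ (p.run O v).2 := by
  induction p generalizing v with
  | base p => exact run_size p v
  | ask b =>
    have := v.size_pos
    simp only [OProg.run, Val.size]; split_ifs <;> simp; omega
  | pair p q hp hq =>
    have := hp v
    have := hq v
    simp only [OProg.run, Val.size]; omega
  | comp p q hp hq =>
    have := hp (q.run O v).1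
    simp only [OProg.run]; omega
  | loop p hp =>
    simp only [OProg.run]
    induction v.fst.toNat with
    | zero => exact size_snd v
    | succ n _ =>
      rw [Function.iterate_succ_apply']
      have := hp ((fun s : Val × ℕ => ((p.run O s.1).1, s.2 + (p.run O s.1).2 + 1))^[n]
        (v.snd, v.size)).1
      simp only; omega

variable {α β γ : Type} [Enc α] [Enc β] [Enc γ]

lemma OB.mono {s t : α → ℕ} (h : OB t) (hst : ∀ a, s a ≤ t a) : OB s := PB.mono h hst
@[fun_prop] lemma OB.const (c : ℕ) : OB fun _ : α => c := PB.const c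
@[fun_prop] lemma OB.add {s t : α → ℕ} (hs : OB s) (ht : OB t) : OB fun a => s a + t a := PB.add hs ht
@[fun_prop] lemma OB.mul {s t : α → ℕ} (hs : OB s) (ht : OB t) : OB fun a => s a * t a := PB.mul hs ht
@[fun_prop] lemma OB.pow {s : α → ℕ} (hs : OB s) (k : ℕ) : OB fun a => s a ^ k := PB.pow hs k
@[fun_prop] lemma OB.sub {s t : α → ℕ} (hs : OB s) : OB fun a => s a - t a := PB.sub hs
@[fun_prop] lemma OB.min {s t : α → ℕ} (ht : OB t) : OB fun a => min (s a) (t a) := PB.min ht

variable [Oc α]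

@[fun_prop] lemma OB.sz {f : α → β} (hf : OT f) : OB fun a => sz (f a) := by
  obtain ⟨p, h1, h2⟩ := hf
  exact h2.mono fun a => by unfold P328.sz; rw [← h1]; exact orun_size _ _ _

@[fun_prop] lemma OB.comp {t : β → ℕ} {f : α → β} (ht : OB t) (hf : OT f) : OB fun a => t (f a) := by
  obtain ⟨p, hp⟩ := ht
  obtain ⟨q, hq⟩ := OB.sz hf
  exact ⟨p.comp q, fun a => by
    rw [Polynomial.eval_comp]; exact (hp _).trans (eval_mono p (hq a))⟩

@[fun_prop] lemma OB.size {f : α → ℕ} (hf : OT f) : OB fun a => Nat.size (f a) :=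
  (OB.sz hf).mono fun a => by rw [sz_nat]; omega

@[fun_prop] lemma OB.length {f : α → List β} (hf : OT f) : OB fun a => (f a).length :=
  (OB.sz hf).mono fun _ => length_le_sz _

lemma OT.base {f : α → β} (hf : PT f) : OT f := let ⟨p, h1, h2⟩ := hf; ⟨.base p, h1, h2⟩

@[fun_prop] lemma OT.id : OT fun a : α => a := .base PT.id

@[fun_prop] lemma OT.const (b : β) : OT fun _ : α => b := .base (PT.const b)

@[fun_prop] lemma OT.comp [Oc β] {g : β → γ} {f : α → β} (hg : OT g) (hf : OT f) (h : PF f) :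
    OT fun a => g (f a) := by
  obtain ⟨p, h1, h2⟩ := hg
  have hf' := hf
  obtain ⟨q, h3, h4⟩ := hf
  refine ⟨.comp p q, fun a => by simp only [OProg.run, h3]; rw [← h a, h1], ?_⟩
  simp only [OProg.run, h3]
  exact (((h2.comp hf').add h4).add (OB.const 1)).mono fun a => by rw [h a]

lemma OT.comp0 {g : β → γ} {f : α → β} (hg : PT g) (hf : OT f) : OT fun a => g (f a) := by
  obtain ⟨p, h1, h2⟩ := hg
  have hf' := hf
  obtain ⟨q, h3, h4⟩ := hf
  refine ⟨.comp (.base p) q, fun a => by simp only [OProg.run, h3, h1], ?_⟩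
  simp only [OProg.run, h3]
  exact ((OB.comp h2 hf').add h4).add (OB.const 1)

@[fun_prop] lemma OT.pair {f : α → β} {g : α → γ} (hf : OT f) (hg : OT g) :
    OT fun a => (f a, g a) := by
  obtain ⟨p, h1, h2⟩ := hf
  obtain ⟨q, h3, h4⟩ := hg
  exact ⟨.pair p q, fun a => by simp only [OProg.run, h3, h1, enc_pair], (h2.add h4).add (OB.const 1)⟩

lemma OT.of_enc {f : α → β} {g : α → γ} (hf : OT f) (h : ∀ a, enc (f a) = enc (g a)) : OT g := by
  obtain ⟨p, h1, h2⟩ := hf
  exact ⟨p, fun a => (h1 a).trans (h a), h2⟩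

lemma OT.ask (b : Bool) {f : α → β} (hf : OT f) : OT fun a => if orc a b (enc (f a)) then 1 else 0 := by
  have hf' := hf
  obtain ⟨q, h3, h4⟩ := hf
  refine ⟨.comp (.ask b) q, fun a => by simp only [OProg.run, h3, enc_nat], ?_⟩
  simp only [OProg.run, h3]
  exact (((OB.sz hf').add (OB.const 1)).add h4).add (OB.const 1)

@[fun_prop] lemma OT.fst {f : α → β × γ} (hf : OT f) : OT fun a => (f a).1 :=
  hf.comp0 (g := Prod.fst) (by fun_prop)

@[fun_prop] lemma OT.snd {f : α → β × γ} (hf : OT f) : OT fun a => (f a).2 :=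
  hf.comp0 (g := Prod.snd) (by fun_prop)

@[fun_prop] lemma OT.add {f g : α → ℕ} (hf : OT f) (hg : OT g) : OT fun a => f a + g a :=
  (hf.pair hg).comp0 (g := fun p => p.1 + p.2) (by fun_prop)

@[fun_prop] lemma OT.sub {f g : α → ℕ} (hf : OT f) (hg : OT g) : OT fun a => f a - g a :=
  (hf.pair hg).comp0 (g := fun p => p.1 - p.2) (by fun_prop)

@[fun_prop] lemma OT.mul {f g : α → ℕ} (hf : OT f) (hg : OT g) : OT fun a => f a * g a :=
  (hf.pair hg).comp0 (g := fun p => p.1 * p.2) (by fun_prop)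

@[fun_prop] lemma OT.div {f g : α → ℕ} (hf : OT f) (hg : OT g) : OT fun a => f a / g a :=
  (hf.pair hg).comp0 (g := fun p => p.1 / p.2) (by fun_prop)

@[fun_prop] lemma OT.mod {f g : α → ℕ} (hf : OT f) (hg : OT g) : OT fun a => f a % g a :=
  (hf.pair hg).comp0 (g := fun p => p.1 % p.2) (by fun_prop)

@[fun_prop] lemma OT.min {f g : α → ℕ} (hf : OT f) (hg : OT g) : OT fun a => min (f a) (g a) :=
  (hf.pair hg).comp0 (g := fun p => Min.min p.1 p.2) (by fun_prop)

@[fun_prop] lemma OT.size {f : α → ℕ} (hf : OT f) : OT fun a => Nat.size (f a) :=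
  hf.comp0 (g := fun p => Nat.size p) (by fun_prop)

@[fun_prop] lemma OT.pow {f : α → ℕ} (hf : OT f) (k : ℕ) : OT fun a => f a ^ k :=
  hf.comp0 (g := fun p => p ^ k) (by fun_prop)

@[fun_prop] lemma OT.cons {f : α → β} {g : α → List β} (hf : OT f) (hg : OT g) :
    OT fun a => f a :: g a := (hf.pair hg).of_enc fun _ => rfl

@[fun_prop] lemma OT.length {g : α → List β} (hg : OT g) : OT fun a => (g a).length :=
  hg.comp0 (g := fun p => p.length) (by fun_prop)

@[fun_prop] lemma OT.getD {g : α → List β} {i : α → ℕ} {d : α → β} (hg : OT g) (hi : OT i)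
    (hd : OT d) : OT fun a => (g a).getD (i a) (d a) :=
  (hg.pair (hi.pair hd)).comp0 (g := fun p => p.1.getD p.2.1 p.2.2) (by fun_prop)

lemma OT.iter0 [Oc β] {n : α → ℕ} {s : α → β} {f : β → β} (hn : OT n) (hn' : OB n) (hs : OT s)
    (hs' : PF s) (hf : OT f) (hf' : PF f) {t : α → ℕ} (ht : OB t)
    (h : ∀ a, ∀ i ≤ n a, sz (f^[i] (s a)) ≤ t a) : OT fun a => f^[n a] (s a) := by
  obtain ⟨p, h1, q, h2⟩ := hf
  have key : ∀ (b : β) (c B k : ℕ), (∀ i ≤ k, sz (f^[i] b) ≤ B) → orc (f^[k] b) = orc b ∧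
      ((fun s : Val × ℕ => ((p.run (orc b) s.1).1, s.2 + (p.run (orc b) s.1).2 + 1))^[k]
        (enc b, c)).1 = enc (f^[k] b) ∧
      ((fun s : Val × ℕ => ((p.run (orc b) s.1).1, s.2 + (p.run (orc b) s.1).2 + 1))^[k]
        (enc b, c)).2 ≤ c + k * (q.eval B + 1) := by
    intro b c B k hk
    induction k with
    | zero => simp
    | succ k ih =>
      obtain ⟨a0, a1, a2⟩ := ih fun i hi => hk i (by omega)
      rw [Function.iterate_succ_apply', Function.iterate_succ_apply', hf', a0]
      have a3 := h1 (f^[k] b)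
      have : (p.run (orc (f^[k] b)) (enc (f^[k] b))).2 ≤ _ :=
        (h2 (f^[k] b)).trans (eval_mono q (hk k (by omega)))
      rw [a0] at a3 this
      simp only [a1, a3, true_and]
      rw [Nat.succ_mul]; omega
  obtain ⟨r, h3, h4⟩ := hn.pair hs
  obtain ⟨q', hq'⟩ := ht
  have hB : OB fun a => q.eval (t a) := ⟨q.comp q', fun a => by
    rw [Polynomial.eval_comp]; exact eval_mono q (hq' a)⟩
  refine ⟨.comp (.loop p) r, fun a => ?_, ((((OB.sz (hn.pair hs)).add
    (hn'.mul (hB.add (OB.const 1)))).add h4).add (OB.const 1)).mono fun a => ?_⟩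
  · simp only [OProg.run, h3]
    rw [← hs' a]
    exact (key (s a) _ (t a) (n a) (h a)).2.1
  · simp only [OProg.run, h3]
    have := (key (s a) (sz (n a, s a)) (t a) (n a) (h a)).2.2
    rw [hs' a] at this
    exact Nat.add_le_add_right (Nat.add_le_add_right this _) _

lemma OT.iter {n : α → ℕ} {s : α → β} {f : α → β → β} (hn : OT n) (hn' : OB n) (hs : OT s)
    (hf : OT fun p : α × β => f p.1 p.2) {t : α → ℕ} (ht : OB t)
    (h : ∀ a b, sz (f a b) ≤ sz b + t a) : OT fun a => (f a)^[n a] (s a) := by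
  have e : ∀ a i b, (fun p : α × β => (p.1, f p.1 p.2))^[i] (a, b) = (a, (f a)^[i] b) := by
    intro a i b
    induction i with
    | zero => rfl
    | succ i ih => rw [Function.iterate_succ_apply', Function.iterate_succ_apply', ih]
  have := OT.iter0 (s := fun a => (a, s a)) (f := fun p : α × β => (p.1, f p.1 p.2)) hn hn'
    (by fun_prop) (by fun_prop) (by fun_prop) (by fun_prop)
    (t := fun a => sz a + sz (s a) + n a * t a + 1) (by fun_prop) (fun a i hi => by
      rw [e, sz_pair]
      have : ∀ i, sz ((f a)^[i] (s a)) ≤ sz (s a) + i * t a := by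
        intro i
        induction i with
        | zero => simp
        | succ i ih =>
          rw [Function.iterate_succ_apply', Nat.succ_mul]
          have := h a ((f a)^[i] (s a))
          omega
      have h1 := this i
      have h2 := Nat.mul_le_mul_right (t a) hi
      omega)
  simpa only [e] using this.snd

@[fun_prop] lemma OT.npow {b e : α → ℕ} (hb : OT b) (he : OT e) (he' : OB e) :
    OT fun a => b a ^ e a := by
  have := OT.iter (s := fun _ => (1 : ℕ)) (f := fun a x => x * b a) he he' (by fun_prop)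
    (by fun_prop) (OB.sz hb) (fun a x => sz_mul _ _)
  refine this.of_enc fun a => ?_
  congr 1
  induction e a with
  | zero => simp
  | succ k ih => rw [Function.iterate_succ_apply', ih, pow_succ]

lemma OT.rep {n : α → ℕ} {s : α → β} {f : α → ℕ → β → β} (hn : OT n) (hn' : OB n) (hs : OT s)
    (hf : OT fun p : α × ℕ × β => f p.1 p.2.1 p.2.2) {t : α × ℕ → ℕ} (ht : OB t)
    (h : ∀ a i b, sz (f a i b) ≤ sz b + t (a, i)) : OT fun a => rep (n a) (f a) (s a) := by
  obtain ⟨q, hq⟩ := ht
  have hB : OB fun a => q.eval (sz (a, n a)) + 1 :=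
    (OB.comp (t := fun p : α × ℕ => q.eval (sz p)) ⟨q, fun _ => le_rfl⟩
      (OT.id.pair hn)).add (OB.const 1)
  have h1 : OT fun p : α × ℕ × β => f p.1 (Min.min p.2.1 (n p.1)) p.2.2 :=
    OT.comp (f := fun p : α × ℕ × β => (p.1, Min.min p.2.1 (n p.1), p.2.2)) hf (by fun_prop)
      (by fun_prop)
  have := OT.iter (s := fun a => ((0 : ℕ), s a))
    (f := fun a p => (p.1 + 1, f a (Min.min p.1 (n a)) p.2)) hn hn' (by fun_prop)
    (OT.pair (by fun_prop) h1) hB (fun a b => by
      obtain ⟨i, b⟩ := b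
      have h2 := h a (Min.min i (n a)) b
      have h3 := (hq (a, Min.min i (n a))).trans (eval_mono q (show _ ≤ sz (a, n a) by
        have := sz_mono (Nat.min_le_right i (n a))
        simp only [sz_pair]; omega))
      have := sz_succ i
      simp only [sz_pair] at *; omega)
  refine this.snd.of_enc fun a => ?_
  congr 1
  have : ∀ i ≤ n a, (fun p : ℕ × β => (p.1 + 1, f a (Min.min p.1 (n a)) p.2))^[i] (0, s a) =
      (i, P328.rep i (f a) (s a)) := by
    intro i hi
    induction i with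
    | zero => rfl
    | succ i ih =>
      rw [Function.iterate_succ_apply', ih (by omega), rep_succ, Nat.min_eq_left (by omega)]
  rw [this _ le_rfl]

@[fun_prop] lemma OT.sumR {n : α → ℕ} {f : α → ℕ → ℕ} (hn : OT n) (hn' : OB n)
    (hf : OT fun p : α × ℕ => f p.1 p.2) : OT fun a => sumR (n a) (f a) := by
  have := OT.rep (s := fun _ => (0 : ℕ)) (f := fun a i x => x + f a i) hn hn' (by fun_prop)
    (OT.add (by fun_prop) (OT.comp (f := fun p : α × ℕ × ℕ => (p.1, p.2.1)) hf (by fun_prop)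
      (by fun_prop))) (OB.sz hf) (fun a i x => sz_add _ _)
  refine this.of_enc fun a => ?_
  congr 1
  induction n a with
  | zero => rfl
  | succ k ih => rw [rep_succ, ih, P328.sumR, P328.sumR, Finset.sum_range_succ]

@[fun_prop] lemma OT.mapR {n : α → ℕ} {f : α → ℕ → β} (hn : OT n) (hn' : OB n)
    (hf : OT fun p : α × ℕ => f p.1 p.2) : OT fun a => mapR (n a) (f a) := by
  have h1 : OT fun p : α × ℕ => f p.1 (n p.1 - 1 - p.2) :=
    OT.comp (f := fun p : α × ℕ => (p.1, n p.1 - 1 - p.2)) hf (by fun_prop) (by fun_prop)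
  have := OT.rep (s := fun _ => ([] : List β)) (f := fun a i l => f a (n a - 1 - i) :: l) hn hn'
    (by fun_prop) (OT.cons (OT.comp (f := fun p : α × ℕ × List β => (p.1, p.2.1)) h1 (by fun_prop)
      (by fun_prop)) (by fun_prop)) ((OB.sz h1).add (OB.const 1))
    (fun a i l => by rw [sz_cons]; simp only; omega)
  refine this.of_enc fun a => ?_
  congr 1
  have : ∀ i ≤ n a, P328.rep i (fun i l => f a (n a - 1 - i) :: l) [] =
      (List.range' (n a - i) i).map (f a) := by
    intro i hi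
    induction i with
    | zero => rfl
    | succ i ih =>
      rw [rep_succ, ih (by omega), List.range'_succ, List.map_cons,
        show n a - 1 - i = n a - (i + 1) by omega, show n a - (i + 1) + 1 = n a - i by omega]
  rw [this _ le_rfl, P328.mapR, List.range_eq_range', Nat.sub_self]

lemma OT.eat {B n : α → ℕ} {st : α → β → ℕ → β} {s : α → β × ℕ} (hB : OT B)
    (hn : OT n) (hn' : OB n) (hs : OT s) (hst : OT fun p : α × β × ℕ => st p.1 p.2.1 p.2.2)
    {t : α → ℕ} (ht : OB t) (h : ∀ a y ω, sz (st a y ω) ≤ sz y + t a) :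
    OT fun a => (eat (B a) (st a))^[n a] (s a) := by
  have h1 : OT fun p : α × β × ℕ => st p.1 p.2.1 (p.2.2 % B p.1) :=
    OT.comp (f := fun p : α × β × ℕ => (p.1, p.2.1, p.2.2 % B p.1)) hst (by fun_prop) (by fun_prop)
  refine OT.iter hn hn' hs (OT.pair h1 (by fun_prop)) ht fun a b => ?_
  obtain ⟨y, R⟩ := b
  have h2 := h a y (R % B a)
  have := sz_mono (Nat.div_le_self R (B a))
  simp only [sz_pair, P328.eat] at *; omega

/-- decidable in polynomial time with oracles -/
@[fun_prop] def OD {α : Type} [Enc α] [Oc α] (p : α → Prop) : Prop :=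
  ∃ f : α → ℕ, OT f ∧ ∀ a, f a = 0 ↔ p a

@[fun_prop] lemma OT.ite {p : α → Prop} [∀ a, Decidable (p a)] {u v : α → β} (hp : OD p)
    (hu : OT u) (hv : OT v) : OT fun a => if p a then u a else v a := by
  obtain ⟨f, h1, h2⟩ := hp
  exact ((h1.pair (hu.pair hv)).comp0 (g := fun p => cnd p.1 p.2.1 p.2.2) (by fun_prop)).of_enc
    fun a => by simp only [P328.cnd, h2]

@[fun_prop] lemma OD.comp [Oc β] {p : β → Prop} {f : α → β} (hp : OD p) (hf : OT f) (h : PF f) :
    OD fun a => p (f a) :=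
  let ⟨_, h1, h2⟩ := hp; ⟨_, h1.comp hf h, fun _ => h2 _⟩

@[fun_prop] lemma OD.lt {f g : α → ℕ} (hf : OT f) (hg : OT g) : OD fun a => f a < g a :=
  ⟨_, (hf.add (OT.const 1)).sub hg, fun _ => by omega⟩

@[fun_prop] lemma OD.eq {f g : α → ℕ} (hf : OT f) (hg : OT g) : OD fun a => f a = g a :=
  ⟨_, (hf.sub hg).add (hg.sub hf), fun _ => by omega⟩

@[fun_prop] lemma OD.and {p q : α → Prop} (hp : OD p) (hq : OD q) : OD fun a => p a ∧ q a :=
  let ⟨_, h1, h2⟩ := hp; let ⟨_, h3, h4⟩ := hq
  ⟨_, h1.add h3, fun a => by simp only [← h2, ← h4]; omega⟩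

@[fun_prop] lemma OD.allR {n : α → ℕ} {p : α → ℕ → Prop} (hn : OT n) (hn' : OB n)
    (hp : OD fun q : α × ℕ => p q.1 q.2) : OD fun a => allR (n a) (p a) :=
  let ⟨f, h1, h2⟩ := hp
  ⟨_, OT.sumR (f := fun a i => f (a, i)) hn hn' h1, fun a => by
    simp only [sumR, Finset.sum_eq_zero_iff, Finset.mem_range, h2, P328.allR]⟩

end Vale.Agent.P317
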