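import Vale.Agent.P317.Prof
import Vale.Agent.P317.Metro
import Vale.Agent.P328.Switch

namespace Vale.Agent.P317

open Finset Real
open Vale.Agent.P328 (split Av Av_abs Av_sub eat eat_sum decay sum_le_inj)

/-- parameters -/
structure Par (ι : Type) [Fintype ι] [DecidableEq ι] where
  ν : Finset (ι × Bool) → ℕ
  nul : IsNul ν
  (Q m l T h s j g tm : ℕ)
  ix : ι × Bool → ℕ
  dec : ℕ → Option (ι × Bool)
  y0 : Finset (ι × Bool)
  hy0 : y0.card = Fintype.card ι
  hix : ∀ e, ix e < Q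
  hdec : ∀ e, dec (ix e) = some e
  hQ : 0 < Q
  hm : Fintype.card ι < m
  hl : 2048 * Fintype.card ι ^ 2 ≤ 2 ^ l
  hh : 64 * (Fintype.card ι + 1) * 2 ^ l ≤ h
  hg : h ≤ 2 ^ g
  hs : 4 * h ^ 2 * j ≤ s
  hs' : 0 < s
  htm : 4 * (Q * Q) * (2 * 2 ^ l) * (T + Fintype.card ι * (T * l) + l * Fintype.card ι +
    2 * Fintype.card ι + 2 * g) ≤ tm

variable {ι : Type} [Fintype ι] [DecidableEq ι]

lemma sw_sw {V : Type} [DecidableEq V] (e f : V) (x : Finset V) : sw e f (sw e f x) = x := by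
  ext c; simp [sw]

lemma cs_mono {a b : Finset (ι × Bool) → ℝ} {α : ι → ℕ} {c : ℝ} (h : ∀ S, prof S = α → a S ≤ c * b S) :
    cs a α ≤ c * cs b α := by
  unfold cs
  rw [Finset.mul_sum]
  refine Finset.sum_le_sum fun S _ => ?_
  split_ifs with e
  exacts [h S e, by simp]

lemma sum_pr (i j : ι) (d : ι → ℕ) : ∑ c, d c * pr i j c + d j = ∑ c, d c + d i := by
  simp only [pr, mul_add, Finset.sum_add_distrib, mul_ite, mul_one, mul_zero, Finset.sum_ite_eq',
    mem_univ, if_true]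
  rw [add_right_comm, ← Finset.add_sum_erase _ d (mem_univ j), ← Finset.add_sum_erase _ _ (mem_univ j),
    Finset.sum_congr rfl fun c hc => if_neg (Finset.mem_erase.1 hc).1]
  simp [add_comm]

lemma dbl_pr (i j : ι) : (∑ c, if pr i j c = 2 then 1 else 0) = if i = j then 0 else 1 := by
  rw [Finset.sum_eq_single i (fun c _ hc => by unfold pr; grind) (by simp)]
  unfold pr; grind

/-- transversal of a subset -/
def tv (A : Finset ι) : Finset (ι × Bool) := univ.filter fun e => if e.2 then e.1 ∉ A else e.1 ∈ A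

lemma cs_one (a : Finset (ι × Bool) → ℝ) : cs a 1 = ∑ A, a (tv A) := by
  rw [cs, ← Finset.sum_filter]
  refine (Finset.sum_nbij' tv (fun S => univ.filter fun i => (i, false) ∈ S) (fun A _ => ?_)
    (by simp) (fun A _ => by ext; simp [tv]) (fun S hS => ?_) fun _ _ => rfl).symm
  · simp only [Finset.mem_filter, mem_univ, true_and, funext_iff, prof_eq, tv, Pi.one_apply]
    grind
  · ext ⟨i, b⟩
    have := congrFun (Finset.mem_filter.1 hS).2 i
    simp only [prof_eq, Pi.one_apply] at this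
    cases b <;> simp [tv]
    grind

namespace Par

variable (P : Par ι)

/-- energy bound -/
def W : ℕ := P.T + Fintype.card ι * (P.T * P.l) + P.l * Fintype.card ι
/-- rounded penalty -/
def F (t : ℕ) (S : Finset (ι × Bool)) : ℕ := t * P.ν S / P.m
/-- energy -/
def En (t : ℕ) (k : ι → ℕ) (S : Finset (ι × Bool)) : ℕ := P.F t S + ∑ i, k i * prof S i + P.l * dbl S
/-- moves -/
def τ (a : ℕ) (S : Finset (ι × Bool)) : Finset (ι × Bool) :=
  match P.dec (a % P.Q), P.dec (a / P.Q) with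
  | some e, some f => sw e f S
  | _, _ => S
/-- digit range -/
def B : ℕ := 2 * (P.Q * P.Q * 2 ^ P.W)
/-- one sample -/
def smp (t : ℕ) (k : ι → ℕ) (ω : ℕ) : Finset (ι × Bool) :=
  ((eat P.B (mstep (P.En t k) P.W (P.Q * P.Q) P.τ))^[P.tm] (P.y0, ω)).1
/-- counts -/
def ct (t : ℕ) (k : ι → ℕ) (X : Finset (ι × Bool) → Prop) [DecidablePred X] (R : ℕ) : ℕ :=
  cnt (P.B ^ P.tm) (fun ω => X (P.smp t k ω)) P.s R
/-- one phase -/
def upd (y : ℕ × (ι → ℕ) × ℕ × ℕ) (R : ℕ) : ℕ × (ι → ℕ) × ℕ × ℕ :=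
  (y.1 + 1, fun i => y.2.1 i + (Nat.size ((∑ j, (if i = j then 1 else 2 ^ P.l) *
      P.ct y.1 y.2.1 (prof · = pr i j) R) / P.ct y.1 y.2.1 (prof · = 1) R) - 1),
    y.2.2.1 * (P.ct y.1 y.2.1 (prof · = 1) R +
      P.ct y.1 y.2.1 (fun S => prof S = 1 ∧ P.F (y.1 + 1) S = P.F y.1 S) R),
    y.2.2.2 * (2 * P.ct y.1 y.2.1 (prof · = 1) R))
/-- rounded weight -/
noncomputable def om (t : ℕ) (k : ι → ℕ) (S : Finset (ι × Bool)) : ℝ :=
  (1 / 2) ^ (P.F t S + ∑ i, k i * prof S i)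
/-- exact weight -/
noncomputable def wa (t : ℕ) (k : ι → ℕ) (S : Finset (ι × Bool)) : ℝ :=
  exp (-(log 2 * t / P.m)) ^ P.ν S * ∏ e ∈ S, (1 / 2) ^ k e.1
/-- partition function -/
noncomputable def Z (t : ℕ) : ℝ := cs (fun S => (1 / 2) ^ P.F t S) 1
/-- good states -/
def Good (t : ℕ) (y : ℕ × (ι → ℕ) × ℕ × ℕ) : Prop :=
  y.1 = t ∧ (∀ i j, cs (P.om t y.2.1) (pr i j) ≤ 256 * cs (P.om t y.2.1) 1) ∧
    (∀ i, y.2.1 i ≤ t * P.l) ∧ 0 < y.2.2.2 ∧
    (1 - 24 / P.h) ^ t * (P.Z t * y.2.2.2) ≤ P.Z 0 * y.2.2.1 ∧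
    (1 - 24 / P.h) ^ t * (P.Z 0 * y.2.2.1) ≤ P.Z t * y.2.2.2

lemma om_pos (t : ℕ) (k : ι → ℕ) (S : Finset (ι × Bool)) : 0 < P.om t k S := by
  unfold om; positivity

lemma wa_pos (t : ℕ) (k : ι → ℕ) (S : Finset (ι × Bool)) : 0 < P.wa t k S :=
  mul_pos (by positivity) (Finset.prod_pos fun _ _ => by positivity)

lemma wa_one (t : ℕ) (k : ι → ℕ) (y : Finset (ι × Bool)) : One (P.wa t k) [] y :=
  one_wa P.nul (exp_pos _) (exp_le_one_iff.2 (neg_nonpos.2 (by positivity)))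
    (x := fun e => (1 / 2) ^ k e.1) (fun _ => by positivity) y

lemma sand (t : ℕ) (k : ι → ℕ) (S : Finset (ι × Bool)) :
    P.wa t k S ≤ 1 * P.om t k S ∧ P.om t k S ≤ 2 * P.wa t k S := by
  have m0 : 0 < P.m := Nat.zero_lt_of_lt P.hm
  have m : (0 : ℝ) < P.m := by exact_mod_cast m0
  have e : ∏ e ∈ S, (1 / 2 : ℝ) ^ k e.1 = (1 / 2) ^ ∑ i, k i * prof S i := by
    rw [Finset.prod_pow_eq_pow_sum, ← Finset.sum_fiberwise S Prod.fst]
    congr 1
    refine Finset.sum_congr rfl fun i _ => ?_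
    rw [Finset.sum_congr rfl fun e he => by rw [(Finset.mem_filter.1 he).2], Finset.sum_const, prof,
      smul_eq_mul, mul_comm]
  have a : (1 / 2 : ℝ) ^ P.F t S = exp (-(log 2 * P.F t S)) := by
    rw [one_div, inv_pow, exp_neg, mul_comm, exp_nat_mul, exp_log two_pos]
  have b1 : (P.F t S : ℝ) ≤ (t * P.ν S : ℕ) / P.m := Nat.cast_div_le
  have b2 : ((t * P.ν S : ℕ) : ℝ) / P.m < P.F t S + 1 := by
    rw [div_lt_iff₀ m]
    exact_mod_cast (Nat.lt_mul_div_succ _ m0).trans_eq (mul_comm _ _)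
  have l := log_pos (one_lt_two (α := ℝ))
  rw [wa, om, e, pow_add, one_mul, ← mul_assoc, a, ← exp_nat_mul,
    show P.ν S * -(log 2 * t / P.m) = -(log 2 * ((t * P.ν S : ℕ) / P.m)) by push_cast; ring]
  constructor <;> refine mul_le_mul_of_nonneg_right ?_ (by positivity)
  · rw [exp_le_exp]; nlinarith
  · rw [← exp_log two_pos, ← exp_add, exp_log two_pos, exp_le_exp]; nlinarith

lemma tri_om (t : ℕ) (k : ι → ℕ) (i j c : ι) : cs (P.om t k) (pr i j) * cs (P.om t k) (pr j c) ≤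
    16 * (cs (P.om t k) (pr i c) * cs (P.om t k) 1) := by
  have a := fun α => cs_mono (α := α) fun S _ => (P.sand t k S).1
  have b := fun α => cs_mono (α := α) fun S _ => (P.sand t k S).2
  have n := cs_nonneg fun S => (P.wa_pos t k S).le
  have n' := cs_nonneg fun S => (P.om_pos t k S).le
  have c1 := mul_le_mul (b (pr i j)) (b (pr j c)) (n' _) (by linarith [n (pr i j)])
  have c2 := mul_le_mul (a (pr i c)) (a 1) (n _) (by linarith [n' (pr i c)])
  linarith [tri (P.wa_pos t k) (P.wa_one t k) i j c]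

lemma En_eq (t : ℕ) (k : ι → ℕ) (S : Finset (ι × Bool)) :
    (1 / 2 : ℝ) ^ P.En t k S = P.om t k S * ((1 / 2) ^ P.l) ^ dbl S := by
  rw [En, om, ← pow_mul, ← pow_add]

lemma tot_om {t : ℕ} {k : ι → ℕ} (h : ∀ i j, cs (P.om t k) (pr i j) ≤ 256 * cs (P.om t k) 1) :
    ∑ S ∈ Lay (ι × Bool) 0 (Fintype.card ι), (1 / 2 : ℝ) ^ P.En t k S ≤ 4 * cs (P.om t k) 1 := by
  have a := fun α => cs_mono (α := α) fun S _ => (P.sand t k S).1
  have b := fun α => cs_mono (α := α) fun S _ => (P.sand t k S).2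
  have n := cs_nonneg fun S => (P.wa_pos t k S).le
  have c := total (P.wa_pos t k) (P.wa_one t k) (lam := (1 / 2) ^ P.l) (C := 512) (by positivity)
    (by norm_num) fun i j => by linarith [a (pr i j), b 1, h i j]
  have d : (1 + 2 * (1 / 2 : ℝ) ^ P.l * Fintype.card ι * 512) ^ Fintype.card ι ≤ 2 := by
    have l : (2048 * Fintype.card ι ^ 2 : ℝ) ≤ 2 ^ P.l := by exact_mod_cast P.hl
    refine (pow_le_pow_left₀ (by positivity) ((add_comm _ _).trans_le (add_one_le_exp _)) _).trans ?_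
    rw [← exp_nat_mul, ← exp_log two_pos, exp_le_exp, exp_log two_pos, one_div_pow]
    refine le_trans ?_ (show 1 / 2 ≤ log 2 by linarith [log_two_gt_d9])
    rw [← sub_nonneg]
    refine (div_nonneg (sub_nonneg.2 l) (show (0 : ℝ) ≤ 2 * 2 ^ P.l by positivity)).trans_eq ?_
    field_simp; ring
  refine (Finset.sum_le_sum (g := fun S => 2 * (P.wa t k S * ((1 / 2) ^ P.l) ^ dbl S))
    fun S _ => ?_).trans ?_
  · rw [En_eq, ← mul_assoc]
    exact mul_le_mul_of_nonneg_right (P.sand t k S).2 (by positivity)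
  · rw [← Finset.mul_sum]
    nlinarith [mul_le_mul_of_nonneg_left d (n 1), a 1]

lemma τ_card (a : ℕ) (S : Finset (ι × Bool)) : (P.τ a S).card = S.card := by
  unfold τ; split <;> simp [sw]

lemma τ_τ (a : ℕ) (S : Finset (ι × Bool)) : P.τ a (P.τ a S) = S := by
  unfold τ; split <;> simp [sw_sw]

lemma smp_prob {t : ℕ} {k : ι → ℕ} (ht : t ≤ P.T) (hk : ∀ i, k i ≤ t * P.l)
    (X : Finset (ι × Bool) → Prop) [DecidablePred X] :
    |(∑ ω ∈ range (P.B ^ P.tm), if X (P.smp t k ω) then 1 else 0) / ((P.B ^ P.tm : ℕ) : ℝ) -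
      (∑ S ∈ Lay (ι × Bool) 0 (Fintype.card ι), (1 / 2) ^ P.En t k S * if X S then 1 else 0) /
      ∑ S ∈ Lay (ι × Bool) 0 (Fintype.card ι), (1 / 2) ^ P.En t k S| ≤ 1 / P.h := by
  have q := P.hQ
  have hB : 0 < P.B := by unfold B; positivity
  have a := eat_sum hB (mstep (P.En t k) P.W (P.Q * P.Q) P.τ) Nat.one_pos
    (fun p => if X p.1 then 1 else 0) P.tm P.y0
  simp only [mul_one, Finset.sum_range_one, Nat.cast_one, div_one] at a
  have h0 : 0 < P.h := lt_of_lt_of_le (by positivity) P.hh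
  refine (congrArg (|· - _|) a).trans_le ((mix (M := 2 * 2 ^ P.l) (c := 2 * Fintype.card ι)
    (j := P.g) (by positivity) (by positivity)
    (fun a y hy => mem_Lay.2 (by rw [τ_card]; exact mem_Lay.1 hy)) P.τ_τ (fun S hS => ?_)
    (fun g => ?_) ?_ P.htm (fun y => by split_ifs <;> norm_num) (mem_Lay.2 P.hy0)).trans ?_)
  · have c : S.card = Fintype.card ι := mem_Lay.1 hS
    have a1 : P.F t S ≤ P.T := Nat.div_le_of_le_mul (by
      rw [mul_comm P.m]; exact Nat.mul_le_mul ht ((P.nul.le S).trans (c ▸ P.hm.le)))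
    have a2 : ∑ i, k i * prof S i ≤ Fintype.card ι * (P.T * P.l) := by
      rw [← c, card_prof, Finset.sum_mul]
      exact Finset.sum_le_sum fun i _ => (mul_comm _ _).trans_le
        (Nat.mul_le_mul_left _ ((hk i).trans (Nat.mul_le_mul_right _ ht)))
    have a3 : dbl S ≤ Fintype.card ι := (Finset.sum_le_card_nsmul _ _ 1 fun i _ => by
      split_ifs <;> omega).trans (by simp)
    exact add_le_add (add_le_add a1 a2) (Nat.mul_le_mul_left _ a3)
  · obtain ⟨m, hm⟩ := poin (b := fun S => ((1 / 2 : ℝ) ^ P.l) ^ dbl S) (P.wa_pos t k)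
      (fun _ => by positivity) (P.wa_one t k)
      (soft (by positivity) (pow_le_one₀ (by norm_num) (by norm_num))) (Λ := 2 ^ P.l) (by positivity)
      (fun z e => by
        refine le_trans (le_of_eq ?_) (mul_le_mul_of_nonneg_left (pow_le_pow_of_le_one (by positivity)
          (pow_le_one₀ (by norm_num) (by norm_num)) (dbl_insert z e)) (by positivity))
        rw [pow_succ, one_div_pow]; field_simp) (Fintype.card ι) g
    refine ⟨m, (Finset.sum_le_sum (g := fun S => 2 * (P.wa t k S * ((1 / 2) ^ P.l) ^ dbl S *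
      (g S - m) ^ 2)) fun S _ => ?_).trans ?_⟩
    · rw [En_eq, ← mul_assoc, ← mul_assoc]
      exact mul_le_mul_of_nonneg_right (mul_le_mul_of_nonneg_right (P.sand t k S).2 (by positivity))
        (sq_nonneg _)
    rw [← Finset.mul_sum]
    push_cast
    rw [mul_assoc]
    refine mul_le_mul_of_nonneg_left (hm.trans (mul_le_mul_of_nonneg_left ?_ (by positivity))) two_pos.le
    rw [← Finset.sum_product']
    refine sum_le_inj (fun p => P.ix p.1 + P.Q * P.ix p.2) (fun p _ => Finset.mem_range.2 (by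
      have := P.hix p.1
      have := Nat.mul_le_mul_left P.Q (P.hix p.2)
      simp only [Nat.mul_succ] at *; omega)) (fun p _ p' _ e => ?_)
      (fun a _ => Finset.sum_nonneg fun _ _ => by positivity) fun p _ => Finset.sum_le_sum fun S _ => ?_
    · have e1 := congrArg (P.dec <| · % P.Q) e
      have e2 := congrArg (P.dec <| · / P.Q) e
      simp only [Nat.add_mul_mod_self_left, Nat.mod_eq_of_lt (P.hix _), P.hdec, Nat.add_mul_div_left _ _ q,
        Nat.div_eq_of_lt (P.hix _), zero_add, Option.some.injEq] at e1 e2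
      exact Prod.ext e1 e2
    · have : P.τ (P.ix p.1 + P.Q * P.ix p.2) S = sw p.1 p.2 S := by
        simp only [τ, Nat.add_mul_mod_self_left, Nat.mod_eq_of_lt (P.hix _), P.hdec,
          Nat.add_mul_div_left _ _ q, Nat.div_eq_of_lt (P.hix _), zero_add]
      simp only [this, En_eq]
      refine mul_le_mul_of_nonneg_right (min_le_min ?_ ?_) (sq_nonneg _) <;>
        exact mul_le_mul_of_nonneg_right (by simpa using (P.sand t k _).1) (by positivity)
  · exact (Finset.card_le_univ _).trans (by simp [mul_comm])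
  · rw [one_div_pow]
    exact one_div_le_one_div_of_le (by positivity) (by exact_mod_cast P.hg)

lemma ev_eq (t : ℕ) (k : ι → ℕ) {α : ι → ℕ} (hα : ∑ i, α i = Fintype.card ι)
    (Y : Finset (ι × Bool) → Prop) [DecidablePred Y] :
    (∑ S ∈ Lay (ι × Bool) 0 (Fintype.card ι), (1 / 2 : ℝ) ^ P.En t k S *
      if prof S = α ∧ Y S then 1 else 0) = ((1 / 2) ^ P.l) ^ (∑ i, if α i = 2 then 1 else 0) *
      cs (fun S => if Y S then P.om t k S else 0) α := by
  rw [cs, Finset.mul_sum, Finset.sum_subset (Finset.subset_univ _) fun S _ hS => by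
    rw [if_neg fun h => hS (mem_Lay.2 (by rw [card_prof, h.1, hα, add_zero])), mul_zero]]
  refine Finset.sum_congr rfl fun S _ => ?_
  by_cases h : prof S = α
  · rw [En_eq, dbl_prof, h]; by_cases Y S <;> simp [*, mul_comm]
  · simp [h]

lemma F_succ (t : ℕ) {S : Finset (ι × Bool)} (h : S.card = Fintype.card ι) :
    P.F t S ≤ P.F (t + 1) S ∧ P.F (t + 1) S ≤ P.F t S + 1 := by
  have := (P.nul.le S).trans (h ▸ P.hm.le)
  unfold F
  refine ⟨Nat.div_le_div_right (by rw [Nat.succ_mul]; omega), ?_⟩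
  rw [← Nat.add_div_right _ (Nat.zero_lt_of_lt P.hm)]
  exact Nat.div_le_div_right (by rw [Nat.succ_mul]; omega)

lemma Z_pos (t : ℕ) : 0 < P.Z t := by
  rw [Z, cs_one]; exact Finset.sum_pos (fun _ _ => by positivity) univ_nonempty

lemma om_one (t : ℕ) (k : ι → ℕ) : cs (P.om t k) 1 = (1 / 2) ^ (∑ i, k i) * P.Z t := by
  rw [Z, cs, cs, Finset.mul_sum]
  refine Finset.sum_congr rfl fun S _ => ?_
  split_ifs with h
  · simp [om, h, pow_add, mul_comm]
  · simp

lemma Z_succ (t : ℕ) (k : ι → ℕ) : 2 * ((1 / 2) ^ (∑ i, k i) * P.Z (t + 1)) = cs (P.om t k) 1 +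
    cs (fun S => if P.F (t + 1) S = P.F t S then P.om t k S else 0) 1 := by
  rw [← om_one, cs, cs, cs, Finset.mul_sum, ← Finset.sum_add_distrib]
  refine Finset.sum_congr rfl fun S _ => ?_
  split_ifs with h h'
  · rw [om, om, h']; ring
  · have := P.F_succ t (S := S) (by simp [card_prof, h])
    rw [om, om, show P.F (t + 1) S = P.F t S + 1 by omega]; ring
  · simp

end Par

end Vale.Agent.P317
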