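import Vale.Agent.P317.Chain

namespace Vale.Agent.P317

open Finset

/-- nullity functions -/
structure IsNul {V : Type} [DecidableEq V] (ν : Finset V → ℕ) : Prop where
  emp : ν ∅ = 0
  mono : ∀ e y, ν y ≤ ν (insert e y)
  step : ∀ e y, ν (insert e y) ≤ ν y + 1
  sup : ∀ e f y, e ∉ y → f ∉ y → e ≠ f → ν (insert e y) + ν (insert f y) ≤ ν (insert f (insert e y)) + ν y

lemma IsNul.le {V : Type} [DecidableEq V] {ν : Finset V → ℕ} (h : IsNul ν) (S : Finset V) :
    ν S ≤ S.card := by
  induction S using Finset.induction_on with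
  | empty => exact h.emp.le
  | insert e S he ih => rw [Finset.card_insert_of_notMem he]; have := h.step e S; omega

lemma one_wa {V : Type} [Fintype V] [DecidableEq V] {ν : Finset V → ℕ} (h : IsNul ν) {β : ℝ}
    (b0 : 0 < β) (b1 : β ≤ 1) {x : V → ℝ} (hx : ∀ e, 0 < x e) (y : Finset V) :
    One (fun S => β ^ ν S * ∏ e ∈ S, x e) [] y := by
  obtain ⟨r, hr⟩ : ∃ r : V → V → Prop, r = fun e f => f = e ∨ (ν (insert e y) = ν y ∧
    ν (insert f y) = ν y ∧ ν (insert f (insert e y)) = ν y + 1) := ⟨_, rfl⟩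
  have r2 : ∀ e f, r e f → r f e := fun e f => by
    simp only [hr]; rw [Finset.insert_comm]; tauto
  have r3 : ∀ e ∉ y, ∀ f ∉ y, ∀ g ∉ y, r e f → r f g → r e g := by
    intro e he f hf g hg
    simp only [hr]
    rintro (rfl | a) (rfl | b)
    · exact Or.inl rfl
    · exact Or.inr b
    · exact Or.inr a
    by_cases c : g = e
    · exact Or.inl c
    refine Or.inr ⟨a.1, b.2.1, ?_⟩
    have c1 : e ≠ f := fun d => by rw [d, Finset.insert_idem] at a; omega
    have c2 : g ≠ f := fun d => by rw [d, Finset.insert_idem] at b; omega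
    have d1 := h.sup e g (insert f y) (by simp [c1, he]) (by simp [c2, hg]) (Ne.symm c)
    have d2 := h.step f (insert g (insert e y))
    have d3 := h.step g (insert e y)
    rw [Finset.insert_comm e f] at d1
    rw [Finset.insert_comm f g] at d2
    omega
  classical
  have rp : ∀ e ∈ yᶜ, ∀ f ∈ yᶜ, yᶜ.filter (r e) = yᶜ.filter (r f) ↔ r e f := fun e he f hf =>
    ⟨fun p => (Finset.mem_filter.1 (p.symm.subset (Finset.mem_filter.2 ⟨hf, by simp [hr]⟩))).2,
      fun p => Finset.filter_congr fun g hg => by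
        rw [Finset.mem_compl] at *
        exact ⟨r3 f hf e he g hg (r2 _ _ p), r3 e he f hf g hg p⟩⟩
  refine ⟨fun e => if e ∈ yᶜ then (if ν (insert e y) = ν y then 1 / β else 1) * x e else 0,
    fun u hu => ?_⟩
  have := block yᶜ (fun e => yᶜ.filter (r e)) (fun e => ν (insert e y) = ν y) (one_le_one_div b0 b1)
    (fun e f => (1 / β) ^ (ν y + 2 - ν (insert f (insert e y)))) (fun e => x e * u e)
    (fun e he f hf n p => by
      have := (rp e he f hf).1 p
      simp only [hr] at this
      exact (this.resolve_left n.symm).1) (fun e he f hf n => by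
      have a1 := h.sup e f y (Finset.mem_compl.1 he) (Finset.mem_compl.1 hf) n
      have a2 := h.step f (insert e y)
      have a3 := h.step e (insert f y)
      have a4 := h.mono f (insert e y)
      have a5 := h.mono e y
      have a6 := h.mono f y
      have a7 := h.step e y
      have a8 := h.step f y
      rw [Finset.insert_comm] at a3
      simp only [rp e he f hf]
      simp only [hr, n.symm, false_or]
      split_ifs with c1 c2 c3 c3
      · rw [show ν y + 2 - ν (insert f (insert e y)) = 1 by omega, pow_one]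
      · rw [show ν y + 2 - ν (insert f (insert e y)) = 2 by omega, sq]
      · rw [show ν y + 2 - ν (insert f (insert e y)) = 1 by omega, pow_one, mul_one]
      · rw [show ν y + 2 - ν (insert f (insert e y)) = 1 by omega, pow_one, one_mul]
      · rw [show ν y + 2 - ν (insert f (insert e y)) = 0 by omega, pow_zero, one_mul])
  simp only [ite_mul, zero_mul, Finset.sum_ite_mem, Finset.univ_inter, mul_assoc] at hu
  simp only [ite_mul] at this
  rw [hu] at this
  have n : 0 ≤ ∑ e ∈ yᶜ, if ν (insert e y) = ν y then 1 / β * (x e * u e) ^ 2 else 1 * (x e * u e) ^ 2 :=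
    Finset.sum_nonneg fun _ _ => by split_ifs <;> positivity
  have q := mul_nonpos_of_nonneg_of_nonpos (show 0 ≤ β ^ (ν y + 2) * ∏ e ∈ y, x e from mul_nonneg
    (by positivity) (Finset.prod_nonneg fun e _ => (hx e).le)) (show ∑ e ∈ yᶜ, ∑ f ∈ yᶜ.erase e,
      (1 / β) ^ (ν y + 2 - ν (insert f (insert e y))) * (x e * u e * (x f * u f)) ≤ 0 by linarith)
  refine le_of_eq_of_le ?_ q
  rw [D_two, Finset.mul_sum]
  refine Finset.sum_congr rfl fun e he => ?_
  rw [Finset.mul_sum]
  refine Finset.sum_congr rfl fun f hf => ?_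
  have a2 := h.step f (insert e y)
  have a7 := h.step e y
  obtain ⟨k, hk⟩ := Nat.exists_eq_add_of_le (show ν (insert f (insert e y)) ≤ ν y + 2 by omega)
  rw [D, Finset.prod_insert (by simpa using hf), Finset.prod_insert (by simpa using he), hk,
    Nat.add_sub_cancel_left, pow_add, one_div, inv_pow]
  field_simp

variable {ι : Type} [Fintype ι] [DecidableEq ι]

/-- number of doubled parts -/
def dbl (S : Finset (ι × Bool)) : ℕ := ∑ i, if (i, false) ∈ S ∧ (i, true) ∈ S then 1 else 0

lemma dbl_erase {x : Finset (ι × Bool)} {e : ι × Bool} (he : e ∈ x) :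
    dbl x = dbl (x.erase e) + if (e.1, !e.2) ∈ x then 1 else 0 := by
  unfold dbl
  rw [← Finset.add_sum_erase _ _ (mem_univ e.1), ← Finset.add_sum_erase _ _ (mem_univ e.1),
    add_right_comm]
  obtain ⟨i, b⟩ := e
  congr 1
  · cases b <;> simp [he]
  · exact Finset.sum_congr rfl fun j hj => by simp [(Finset.mem_erase.1 hj).1]

lemma soft {lam : ℝ} (l0 : 0 < lam) (l1 : lam ≤ 1) (x : Finset (ι × Bool)) (g : ι × Bool → ℝ) :
    ∑ e ∈ x, ∑ f ∈ x.erase e, lam ^ dbl ((x.erase e).erase f) * (g e * g f)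
      + ∑ e ∈ x, lam ^ dbl (x.erase e) * g e ^ 2 ≤
      (∑ e ∈ x, lam ^ dbl (x.erase e) * g e) ^ 2 / lam ^ dbl x := by
  have a : ∀ x : Finset (ι × Bool), ∀ e ∈ x, lam ^ dbl (x.erase e) =
      lam ^ dbl x * if (e.1, !e.2) ∈ x then 1 / lam else 1 := fun x e he => by
    rw [dbl_erase he, pow_add]; split_ifs <;> field_simp
  have := block x Prod.fst (fun e => (e.1, !e.2) ∈ x) (one_le_one_div l0 l1)
    (fun e f => lam ^ dbl ((x.erase e).erase f) / lam ^ dbl x) g (fun e _ f hf n p => by
      obtain ⟨i, b⟩ := e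
      obtain ⟨j, c⟩ := f
      cases p
      cases b <;> cases c <;> simp_all) fun e he f hf n => by
      rw [a _ f (Finset.mem_erase.2 ⟨n.symm, hf⟩), a x e he, mul_assoc,
        mul_div_cancel_left₀ _ (by positivity)]
      obtain ⟨i, b⟩ := e
      obtain ⟨j, c⟩ := f
      by_cases p : i = j
      · cases p
        cases b <;> cases c <;> simp_all
      · simp [p, Ne.symm p]
  rw [le_div_iff₀ (by positivity)]
  refine le_of_eq_of_le ?_ ((mul_le_mul_of_nonneg_left this (sq_nonneg (lam ^ dbl x))).trans_eq ?_)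
  · simp only [mul_add, add_mul, Finset.mul_sum, Finset.sum_mul]
    congr 1
    · exact Finset.sum_congr rfl fun e _ => Finset.sum_congr rfl fun f _ => by field_simp
    · exact Finset.sum_congr rfl fun e he => by rw [a x e he]; ring
  · rw [← mul_pow, Finset.mul_sum]
    exact congrArg (· ^ 2) (Finset.sum_congr rfl fun e he => by rw [a x e he]; ring)

lemma dbl_insert (z : Finset (ι × Bool)) (e : ι × Bool) : dbl (insert e z) ≤ dbl z + 1 := by
  by_cases h : e ∈ z
  · rw [Finset.insert_eq_of_mem h]; omega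
  · rw [dbl_erase (Finset.mem_insert_self e z), Finset.erase_insert h]; split_ifs <;> omega

/-- profile -/
def prof (S : Finset (ι × Bool)) (i : ι) : ℕ := (S.filter fun e => e.1 = i).card

omit [Fintype ι] in
lemma prof_eq (S : Finset (ι × Bool)) (i : ι) :
    prof S i = (if (i, false) ∈ S then 1 else 0) + if (i, true) ∈ S then 1 else 0 := by
  have : (S.filter fun e => e.1 = i) = ({(i, false), (i, true)} : Finset _).filter (· ∈ S) := by
    ext ⟨j, b⟩; cases b <;> simp +contextual [and_comm]
  rw [prof, this, Finset.card_filter, Finset.sum_pair (by simp)]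

lemma card_prof (S : Finset (ι × Bool)) : S.card = ∑ i, prof S i :=
  Finset.card_eq_sum_card_fiberwise fun _ _ => mem_univ _

lemma dbl_prof (S : Finset (ι × Bool)) : dbl S = ∑ i, if prof S i = 2 then 1 else 0 :=
  Finset.sum_congr rfl fun i _ => by rw [prof_eq]; grind

/-- weight of a profile -/
def cs (a : Finset (ι × Bool) → ℝ) (α : ι → ℕ) : ℝ := ∑ S, if prof S = α then a S else 0

/-- normalized weight -/
def ch (a : Finset (ι × Bool) → ℝ) (α : ι → ℕ) : ℝ := (∏ i, ((α i).factorial : ℝ)) * cs a α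

/-- indicator of a part -/
def pt (i : ι) (e : ι × Bool) : ℝ := if e.1 = i then 1 else 0

/-- one defect -/
def pr (i j c : ι) : ℕ := (if c = j then 0 else 1) + if c = i then 1 else 0

variable {a : Finset (ι × Bool) → ℝ}

lemma D_pt (L : List ι) : D a (L.map pt) ∅ = ch a fun c => L.count c := by
  refine (D_prof Prod.fst (fun _ => 1) L ∅).trans ?_
  simp [ch, cs, funext_iff, prof]

lemma cs_nonneg (ha : ∀ y, 0 ≤ a y) (α : ι → ℕ) : 0 ≤ cs a α :=
  Finset.sum_nonneg fun S _ => by have := ha S; positivity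

lemma cs_le (ha : ∀ y, 0 ≤ a y) (α : ι → ℕ) : cs a α ≤ ch a α :=
  le_mul_of_one_le_left (cs_nonneg ha α) (Finset.one_le_prod fun i _ => by
    exact_mod_cast (α i).factorial_pos)

lemma le_cs (ha : ∀ y, 0 ≤ a y) (S : Finset (ι × Bool)) : a S ≤ cs a (prof S) :=
  le_of_eq_of_le (by simp) (Finset.single_le_sum (f := fun T => if prof T = prof S then a T else 0)
    (fun T _ => by have := ha T; positivity) (mem_univ S))

lemma ch_one : ch a 1 = cs a 1 := by simp [ch]

lemma ch_pr (ha : ∀ y, 0 ≤ a y) (i j : ι) : ch a (pr i j) ≤ 2 * cs a (pr i j) := by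
  refine mul_le_mul_of_nonneg_right ?_ (cs_nonneg ha _)
  rw [Finset.prod_eq_single i (fun c _ hc => by unfold pr; split_ifs <;> simp) (by simp)]
  unfold pr; split_ifs <;> simp_all [Nat.factorial]

omit [Fintype ι] in
lemma pr_self (i : ι) : pr i i = 1 := funext fun c => by unfold pr; split_ifs <;> simp

omit [Fintype ι] in
lemma pt_nonneg (L : List ι) : ∀ v ∈ L.map pt, ∀ e, 0 ≤ v e := by
  simp only [List.mem_map]
  rintro _ ⟨i, -, rfl⟩ e
  unfold pt; positivity

theorem tri (ha : ∀ y, 0 < a y) (h0 : ∀ y, One a [] y) (i j k : ι) :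
    cs a (pr i j) * cs a (pr j k) ≤ 4 * (cs a (pr i k) * cs a 1) := by
  have ha' := fun y => (ha y).le
  by_cases e : j = k
  · rw [e, pr_self]
    linarith [mul_nonneg (cs_nonneg ha' (pr i k)) (cs_nonneg ha' 1)]
  obtain ⟨L, hL⟩ : ∃ L, L = ((univ.erase j).erase k).toList := ⟨_, rfl⟩
  have c : ∀ c, L.count c = if c ≠ k ∧ c ≠ j then 1 else 0 := fun c => by
    rw [hL, (Finset.nodup_toList _).count]; simp
  have H : ∀ u v α, (∀ c, L.count c + (if v = c then 1 else 0) + (if u = c then 1 else 0) = α c) →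
      D a (pt u :: pt v :: L.map pt) ∅ = ch a α := fun u v α h =>
    (D_pt (u :: v :: L)).trans (congrArg _ (funext fun c => by simpa [List.count_cons] using h c))
  have n : ∀ u v, 0 ≤ D a (pt u :: pt v :: L.map pt) ∅ := fun u v =>
    D_nonneg ha' (pt_nonneg (u :: v :: L)) _
  have key : ∀ s t : ℝ, 2 * s * t * (ch a (pr i j) * ch a (pr j k)) ≤
      (s * ch a (pr i k) + t * ch a 1) ^ 2 := fun s t => by
    have := af ha h0 (pt_nonneg L) ∅ (fun e => s * pt i e + t * pt k e) (w := pt j)
      (pt_nonneg [j] _ (by simp))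
    rw [D_quad, D_lin, H i k (pr i j) (fun c' => by rw [c]; unfold pr; grind),
      H i j (pr i k) (fun c' => by rw [c]; unfold pr; grind),
      H k j 1 (fun c' => by rw [c, Pi.one_apply]; grind)] at this
    have b := n j j
    rw [H j j (pr j k) (fun c' => by rw [c]; unfold pr; grind)] at this b
    nlinarith [mul_nonneg (mul_nonneg (sq_nonneg s) (n i i)) b,
      mul_nonneg (mul_nonneg (sq_nonneg t) (n k k)) b]
  have b1 := mul_le_mul (cs_le ha' (pr i j)) (cs_le ha' (pr j k)) (cs_nonneg ha' _)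
    ((cs_nonneg ha' _).trans (cs_le ha' _))
  have b2 := ch_pr ha' i k
  have b3 := (cs_nonneg ha' (pr i k)).trans (cs_le ha' _)
  have b4 := cs_nonneg ha' (1 : ι → ℕ)
  rw [ch_one] at key
  generalize ch a (pr i j) * ch a (pr j k) = X at *
  refine b1.trans (le_trans ?_ (show 2 * (ch a (pr i k) * cs a 1) ≤ _ by nlinarith))
  generalize ch a (pr i k) = A at *
  generalize cs a 1 = B at *
  refine le_of_forall_pos_le_add fun ε hε => ?_
  have p : 0 < A + B + 1 := by linarith
  have q : 0 < min 1 (ε / (2 * (A + B + 1))) := by positivity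
  have q1 := min_le_left 1 (ε / (2 * (A + B + 1)))
  have q2 := (le_div_iff₀ (by positivity)).1 (min_le_right 1 (ε / (2 * (A + B + 1))))
  generalize min 1 (ε / (2 * (A + B + 1))) = δ at *
  have k1 := key (B + δ) (A + δ)
  have k2 : ((B + δ) * A + (A + δ) * B) ^ 2 ≤ (2 * ((B + δ) * (A + δ))) ^ 2 :=
    pow_le_pow_left₀ (by positivity) (by nlinarith) 2
  have k3 : 0 < (B + δ) * (A + δ) := by positivity
  have k4 : X ≤ 2 * ((B + δ) * (A + δ)) := by
    by_contra hc
    nlinarith [mul_pos k3 (sub_pos.2 (not_le.1 hc))]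
  nlinarith

lemma D_rep {V : Type} [Fintype V] [DecidableEq V] {a : Finset V → ℝ} (w : V → ℝ) (k : ℕ)
    (y : Finset V) : D a (List.replicate k w) y = k.factorial * ∑ T ∈ yᶜ.powerset,
      if T.card = k then a (T ∪ y) * ∏ e ∈ T, w e else 0 := by
  simpa using D_prof (a := a) (fun _ => ()) w (List.replicate k ()) y

lemma one_ch (ha : ∀ y, 0 < a y) (h0 : ∀ y, One a [] y) (y : Finset (ι × Bool)) :
    One (fun T => ch a (prof T)) [] y := by
  have ha' := fun y => (ha y).le
  by_cases hy : yᶜ.card < 2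
  · exact ⟨0, fun u _ => (D_zero hy).le⟩
  obtain ⟨L, hL⟩ : ∃ L, L = y.toList.map Prod.fst := ⟨_, rfl⟩
  have H : ∀ e ∈ yᶜ, ∀ f ∈ yᶜ.erase e, D a (pt e.1 :: pt f.1 :: L.map pt) ∅ =
      ch a (prof (insert f (insert e y))) := fun e he f hf =>
    (D_pt (e.1 :: f.1 :: L)).trans (congrArg _ (funext fun c => by
      have : L.count c = prof y c := by
        rw [hL, List.count, List.countP_map, List.countP_eq_length_filter, prof,
          ← List.toFinset_card_of_nodup ((Finset.nodup_toList _).filter _)]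
        congr 1; ext; simp
      have h1 : e ∉ y := by simpa using he
      have h2 : f ∉ insert e y := by simpa using hf
      simp only [List.count_cons, this, prof, Finset.card_filter, Finset.sum_insert h1,
        Finset.sum_insert h2, beq_iff_eq]
      omega))
  have S : ∀ (u : ι × Bool → ℝ) vs, D a ((fun v => ∑ e ∈ yᶜ, u e * pt e.1 v) :: vs) ∅ =
      ∑ e ∈ yᶜ, u e * D a (pt e.1 :: vs) ∅ := fun u vs => by
    simp only [D_cons, Finset.sum_mul, Finset.mul_sum, mul_assoc]
    exact Finset.sum_comm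
  refine ⟨fun e => if e ∈ yᶜ then D a (pt e.1 :: (fun _ => 1) :: L.map pt) ∅ else 0, fun u hu => ?_⟩
  have := af ha h0 (pt_nonneg L) ∅ (fun v => ∑ e ∈ yᶜ, u e * pt e.1 v) (w := fun _ => 1) (by simp)
  simp only [ite_mul, zero_mul, Finset.sum_ite_mem, Finset.univ_inter] at hu
  simp only [mul_comm _ (u _)] at hu
  rw [S u ((fun _ => 1) :: _), hu, S] at this
  simp only [D_swap (pt _) (fun v => ∑ e ∈ yᶜ, u e * pt e.1 v), S] at this
  obtain ⟨e, he⟩ := Finset.card_pos.1 (show 0 < yᶜ.card by omega)
  obtain ⟨f, hf⟩ := Finset.card_pos.1 (show 0 < (yᶜ.erase e).card by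
    rw [Finset.card_erase_of_mem he]; omega)
  have p : 0 < D a ((fun _ => 1) :: (fun _ => 1) :: L.map pt) ∅ := by
    have b : ∀ (i : ι) e, 0 ≤ pt i e ∧ pt i e ≤ 1 := fun i e => by unfold pt; split_ifs <;> simp
    refine lt_of_lt_of_le ?_ (D_mono ha' (.cons (b e.1) (.cons (b f.1)
      (List.forall₂_same.2 fun v hv e => ⟨pt_nonneg L v hv e, le_rfl⟩))) ∅).2
    rw [H e he f hf]
    exact (ha _).trans_le ((le_cs ha' _).trans (cs_le ha' _))
  have q := nonpos_of_mul_nonpos_left (this.trans_eq (by simp)) p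
  refine le_trans ?_ q
  rw [D_two]
  refine Finset.sum_le_sum fun e he => ?_
  rw [← Finset.add_sum_erase _ _ he, mul_add, Finset.mul_sum, ← mul_assoc]
  refine le_add_of_nonneg_of_le (mul_nonneg (mul_self_nonneg _)
    (D_nonneg ha' (pt_nonneg (e.1 :: e.1 :: L)) _)) (Finset.sum_le_sum fun f hf => le_of_eq ?_)
  rw [D_swap, H e he f hf, D]; ring

theorem total (ha : ∀ y, 0 < a y) (h0 : ∀ y, One a [] y) {lam C : ℝ} (l0 : 0 ≤ lam) (C0 : 0 ≤ C)
    (hC : ∀ i j, cs a (pr i j) ≤ C * cs a 1) :
    ∑ S ∈ Lay (ι × Bool) 0 (Fintype.card ι), a S * lam ^ dbl S ≤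
      cs a 1 * (1 + 2 * lam * Fintype.card ι * C) ^ Fintype.card ι := by
  have ha' := fun y => (ha y).le
  have hb : ∀ T, 0 < ch a (prof T) := fun T => (ha _).trans_le ((le_cs ha' _).trans (cs_le ha' _))
  have hb' := fun T => (hb T).le
  obtain ⟨n, hn⟩ : ∃ n, n = Fintype.card ι := ⟨_, rfl⟩
  obtain ⟨t, ht⟩ : ∃ t : ι × Bool → ℝ, t = fun e => if e.2 then 0 else 1 := ⟨_, rfl⟩
  obtain ⟨s, hs⟩ : ∃ s : ι × Bool → ℝ, s = fun e => if e.2 then 1 else 0 := ⟨_, rfl⟩
  obtain ⟨w, hw⟩ : ∃ w : ι × Bool → ℝ, w = fun e => 1 * t e + lam * s e := ⟨_, rfl⟩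
  obtain ⟨F, hF⟩ : ∃ F : Finset (ι × Bool), F = univ ×ˢ {false} := ⟨_, rfl⟩
  have t0 : ∀ e, 0 ≤ t e := fun e => by rw [ht]; positivity
  have tw : ∀ e, 0 ≤ t e ∧ t e ≤ w e := fun e => ⟨t0 e, by
    simp only [hw, hs]; split_ifs <;> linarith⟩
  have tF : ∀ T : Finset (ι × Bool), ∏ e ∈ T, t e = if T ⊆ F then 1 else 0 := fun T => by
    simp only [ht, hF, ← ite_not (p := _ = true), Finset.prod_boole, Finset.subset_iff]
    simp
  have cF : F.card = n := by simp [hF, hn]
  obtain ⟨X, hX⟩ : ∃ X : ℕ → ℕ → ℝ, X = fun k m => D (fun T => ch a (prof T))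
    (List.replicate k w ++ List.replicate m t) ∅ := ⟨_, rfl⟩
  have X0 : X 0 n = n.factorial * cs a 1 := by
    simp only [hX, List.replicate_zero, List.nil_append, D_rep, tF]
    rw [Finset.sum_eq_single_of_mem F (by simp) fun T _ hT => by
      split_ifs with h1 h2
      exacts [absurd (Finset.eq_of_subset_of_card_le h2 (by omega)) hT, mul_zero _, rfl]]
    simp [cF, show prof F = 1 from funext fun i => by simp [prof_eq, hF], ch_one]
  have c0 : 0 < cs a 1 := by
    have := (ha F).trans_le (le_cs ha' F)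
    rwa [show prof F = 1 from funext fun i => by simp [prof_eq, hF]] at this
  have Xp : ∀ k m, k + m = n → 0 < X k m := fun k m h => by
    refine lt_of_lt_of_le (show 0 < X 0 n by rw [X0]; positivity) ?_
    simp only [hX, ← h, List.replicate_add, List.replicate_zero, List.nil_append]
    exact (D_mono hb' (List.rel_append (List.forall₂_iff_get.2 ⟨by simp, fun _ _ _ => by simpa using tw⟩)
      (List.forall₂_same.2 fun v hv e => by
        rw [List.eq_of_mem_replicate hv]; exact ⟨t0 e, le_rfl⟩)) _).2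
  have X1 : ∀ m, m + 1 = n → X 1 m ≤ (1 + 2 * lam * n * C) * X 0 (m + 1) := fun m h => by
    have : D (fun T => ch a (prof T)) (s :: List.replicate m t) ∅ ≤
        n * (m.factorial * (n * (2 * C * cs a 1))) := by
      rw [D_cons, Finset.compl_empty, Fintype.sum_prod_type, hn, ← nsmul_eq_mul, ← hn]
      refine (Finset.sum_le_card_nsmul _ _ _ fun i _ => ?_).trans_eq (by rw [hn]; rfl)
      simp only [hs, Fintype.sum_bool, if_true, one_mul, Bool.false_eq_true, if_false, zero_mul,
        add_zero, D_rep, tF]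
      gcongr
      refine (Finset.sum_le_sum_of_subset_of_nonneg (Finset.subset_univ _) fun T _ _ => by
        have := hb' (T ∪ insert (i, true) ∅); positivity).trans ?_
      rw [← Finset.sum_subset (Finset.subset_univ (F.powersetCard m)) fun T _ hT => by
        rw [Finset.mem_powersetCard] at hT
        split_ifs <;> simp_all]
      refine (Finset.sum_le_card_nsmul _ _ (2 * C * cs a 1) fun T hT => ?_).trans_eq (by
        rw [Finset.card_powersetCard, cF, ← h, Nat.choose_succ_self_right, nsmul_eq_mul, h, hn])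
      rw [Finset.mem_powersetCard] at hT
      obtain ⟨⟨j, b⟩, hj⟩ := Finset.card_eq_one.1 (show (F \ T).card = 1 by
        rw [Finset.card_sdiff_of_subset hT.1]; omega)
      have : prof (T ∪ insert (i, true) ∅) = pr i j := funext fun c => by
        have a1 := Finset.ext_iff.1 hj (c, false)
        have a2 := Finset.ext_iff.1 hj (j, b)
        have a3 := @hT.1 (c, true)
        simp only [hF, prof_eq, pr] at *
        simp at *
        grind
      rw [if_pos hT.2, if_pos hT.1, mul_one, this]
      linarith [ch_pr ha' i j, hC i j]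
    have e := h ▸ X0
    simp only [hX, List.singleton_append, List.replicate_zero, List.nil_append,
      List.replicate_succ] at e ⊢
    rw [hw, D_lin, e, h, ← h, Nat.factorial_succ, h]
    push_cast
    nlinarith [mul_le_mul_of_nonneg_left this l0]
  have q0 : 0 ≤ 1 + 2 * lam * n * C := by positivity
  rw [← hn]
  generalize 1 + 2 * lam * n * C = q at *
  have X2 : ∀ k m, k + m + 1 = n → X (k + 1) m ≤ q * X k (m + 1) := by
    intro k
    induction k with
    | zero => exact fun m h => X1 m (by omega)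
    | succ k ih =>
      intro m h
      have p := Xp k (m + 2) (by omega)
      have p' := Xp (k + 1) (m + 1) (by omega)
      have := af hb (one_ch ha h0) (vs := List.replicate k w ++ List.replicate m t) (by
        simp only [List.mem_append, List.mem_replicate]
        rintro v (⟨-, rfl⟩ | ⟨-, rfl⟩) e
        exacts [(tw e).1.trans (tw e).2, t0 e]) ∅ w t0
      rw [D_perm (vs := t :: t :: _) (ws := List.replicate k w ++ List.replicate (m + 2) t)
        ((List.perm_middle.symm.cons _).trans List.perm_middle.symm), D_perm (vs := w :: t :: _)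
        (ws := List.replicate (k + 1) w ++ List.replicate (m + 1) t)
        (List.perm_middle.symm.cons _)] at this
      change X (k + 1 + 1) m ≤ _
      replace this : X (k + 1 + 1) m * X k (m + 2) ≤ X (k + 1) (m + 1) ^ 2 := by rw [hX]; exact this
      refine le_of_mul_le_mul_right (this.trans ?_) p
      nlinarith [mul_le_mul_of_nonneg_left (ih (m + 1) (by omega)) p'.le]
  have X3 : ∀ k m, k + m = n → X k m ≤ q ^ k * X 0 n := by
    intro k
    induction k with
    | zero => intro m h; simp [← h]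
    | succ k ih =>
      intro m h
      refine (X2 k m (by omega)).trans ((mul_le_mul_of_nonneg_left (ih (m + 1) (by omega)) q0).trans_eq ?_)
      ring
  have X4 := X3 n 0 rfl
  rw [X0] at X4
  simp only [hX, List.replicate_zero, List.append_nil, D_rep, Finset.union_empty] at X4
  rw [mul_left_comm] at X4
  replace X4 := le_of_mul_le_mul_left X4 (by positivity)
  rw [mul_comm]
  refine le_trans ?_ X4
  have w0 : ∀ T : Finset (ι × Bool), 0 ≤ ∏ e ∈ T, w e := fun T =>
    Finset.prod_nonneg fun e _ => (tw e).1.trans (tw e).2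
  refine le_trans ?_ (Finset.sum_le_sum (f := fun T => ∑ S, if T.card = n ∧ prof S = prof T then
    a S * ∏ e ∈ T, w e else 0) fun T _ => ?_)
  · rw [Finset.sum_comm]
    refine (Finset.sum_le_sum fun S hS => ?_).trans (Finset.sum_le_sum_of_subset_of_nonneg
      (Finset.subset_univ _) fun S _ _ => Finset.sum_nonneg fun T _ => by
        have := mul_nonneg (ha' S) (w0 T); positivity)
    obtain ⟨T, hT⟩ : ∃ T, T = univ.filter fun e : ι × Bool =>
      if e.2 then prof S e.1 = 2 else 1 ≤ prof S e.1 := ⟨_, rfl⟩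
    have e1 : prof S = prof T := funext fun i => by
      rw [prof_eq T]; simp only [hT]; simp; rw [prof_eq]; grind
    refine le_of_eq_of_le ?_ (Finset.single_le_sum (fun T _ => by
      have := mul_nonneg (ha' S) (w0 T); positivity) (show T ∈ _ by simp))
    rw [if_pos ⟨by rw [card_prof, ← e1, ← card_prof]; exact mem_Lay.1 hS, e1⟩, dbl_prof,
      ← Finset.prod_pow_eq_pow_sum, hT, Finset.prod_filter, Fintype.prod_prod_type]
    congr 1
    exact Finset.prod_congr rfl fun i _ => by simp [hw, ht, hs]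
  · split_ifs with h
    · simp only [h, true_and]
      refine le_trans (le_of_eq ?_) (mul_le_mul_of_nonneg_right (cs_le ha' _) (w0 T))
      simp [cs, Finset.sum_mul]
    · simp [h]

end Vale.Agent.P317
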