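import Vale.Agent.P317.Step

namespace Vale.Agent.P317

open Finset

variable {ι : Type}

/-- rank as a natural number -/
noncomputable def rank (M : Matroid ι) (A : Finset ι) : ℕ := (M.eRk A).toNat

variable (M : Matroid ι)

lemma rank_coe (A : Finset ι) : (rank M A : ℕ∞) = M.eRk A :=
  ENat.natCast_toNat (ne_top_of_le_ne_top (by simp) (M.eRk_le_encard _))

lemma rank_le (A : Finset ι) : rank M A ≤ A.card := by
  have := M.eRk_le_encard A
  rw [← rank_coe, Set.encard_coe_eq_coe_finsetCard] at this
  exact_mod_cast this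

lemma rank_mono {A B : Finset ι} (h : A ⊆ B) : rank M A ≤ rank M B := by
  have := M.eRk_mono (Finset.coe_subset.2 h)
  rw [← rank_coe, ← rank_coe] at this
  exact_mod_cast this

lemma indep_iff (A : Finset ι) : M.Indep A ↔ rank M A = A.card := by
  rw [Matroid.indep_iff_eRk_eq_encard_of_finite A.finite_toSet, ← rank_coe,
    Set.encard_coe_eq_coe_finsetCard, Nat.cast_inj]

variable [DecidableEq ι]

lemma rank_insert (i : ι) (A : Finset ι) : rank M (insert i A) ≤ rank M A + 1 := by
  have := M.eRk_insert_le_add_one i A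
  rw [← Finset.coe_insert, ← rank_coe, ← rank_coe] at this
  exact_mod_cast this

lemma rank_sub {A B C D : Finset ι} (h : C ⊆ A ∩ B) (h' : D ⊆ A ∪ B) :
    rank M C + rank M D ≤ rank M A + rank M B := by
  have := M.eRk_inter_add_eRk_union_le A B
  rw [← Finset.coe_inter, ← Finset.coe_union, ← rank_coe, ← rank_coe, ← rank_coe, ← rank_coe] at this
  exact (add_le_add (rank_mono M h) (rank_mono M h')).trans (by exact_mod_cast this)

variable [Fintype ι]

omit [DecidableEq ι] in
lemma base_iff (A : Finset ι) : M.IsBase A ↔ rank M A = A.card ∧ rank M A = rank M univ := by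
  have e : (rank M univ : ℕ∞) = M.eRank := by rw [rank_coe, Finset.coe_univ, M.eRk_univ_eq]
  refine ⟨fun h => ⟨(indep_iff M A).1 h.indep, ?_⟩, fun h => ((indep_iff M A).2 h.1).isBase_of_eRk_ge
    A.finite_toSet (by rw [← e, ← rank_coe, h.2])⟩
  have := h.encard_eq_eRank
  rw [← e, ← h.indep.eRk_eq_encard, ← rank_coe] at this
  exact_mod_cast this

/-- first half -/
def fa (S : Finset (ι × Bool)) : Finset ι := univ.filter fun i => (i, false) ∈ S
/-- complement of the second half -/
def tb (S : Finset (ι × Bool)) : Finset ι := univ.filter fun i => (i, true) ∉ S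

/-- nullity in the sum of the first matroid and the dual of the second -/
noncomputable def nul (M₁ M₂ : Matroid ι) (S : Finset (ι × Bool)) : ℕ :=
  ((fa S).card - rank M₁ (fa S)) + (rank M₂ univ - rank M₂ (tb S))

lemma isNul (M₁ M₂ : Matroid ι) : IsNul (nul M₁ M₂) := by
  have a1 : ∀ i (y : Finset (ι × Bool)), fa (insert (i, false) y) = insert i (fa y) := fun i y => by
    ext; simp [fa]
  have a2 : ∀ i (y : Finset (ι × Bool)), fa (insert (i, true) y) = fa y := fun i y => by
    ext; simp [fa]
  have a3 : ∀ i (y : Finset (ι × Bool)), tb (insert (i, false) y) = tb y := fun i y => by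
    ext; simp [tb]
  have a4 : ∀ i (y : Finset (ι × Bool)), tb (insert (i, true) y) = (tb y).erase i := fun i y => by
    ext; simp [tb]
  have b : ∀ e y, nul M₁ M₂ y ≤ nul M₁ M₂ (insert e y) ∧ nul M₁ M₂ (insert e y) ≤ nul M₁ M₂ y + 1 := by
    rintro ⟨i, _ | _⟩ y
    · simp only [nul, a1, a3]
      by_cases h : i ∈ fa y
      · rw [Finset.insert_eq_of_mem h]; omega
      have := rank_insert M₁ i (fa y)
      have := rank_mono M₁ (Finset.subset_insert i (fa y))
      rw [Finset.card_insert_of_notMem h]; omega
    · simp only [nul, a2, a4]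
      have := (rank_mono M₂ (Finset.insert_erase_subset i (tb y))).trans (rank_insert M₂ _ _)
      have := rank_mono M₂ (Finset.erase_subset i (tb y))
      omega
  refine ⟨by simp [nul, fa, tb], fun e y => (b e y).1, fun e y => (b e y).2, ?_⟩
  rintro ⟨i, _ | _⟩ ⟨j, _ | _⟩ y h1 h2 h3 <;> simp only [nul, a1, a2, a3, a4]
  · have c1 : i ∉ fa y := by simpa [fa] using h1
    have c2 : j ∉ fa y := by simpa [fa] using h2
    have c3 : j ∉ insert i (fa y) := by simpa [c2] using fun e => h3 (by rw [e])
    have := rank_sub M₁ (A := insert i (fa y)) (B := insert j (fa y)) (C := fa y)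
      (D := insert j (insert i (fa y))) (by grind) (by grind)
    have := rank_le M₁ (insert i (fa y))
    have := rank_le M₁ (insert j (fa y))
    have := rank_le M₁ (fa y)
    simp only [Finset.card_insert_of_notMem, c1, c2, c3, not_false_eq_true] at *
    omega
  · omega
  · omega
  · have := rank_sub M₂ (A := (tb y).erase i) (B := (tb y).erase j) (C := ((tb y).erase i).erase j)
      (D := tb y) (by grind) (by grind)
    have := rank_mono M₂ (Finset.subset_univ ((tb y).erase i))
    have := rank_mono M₂ (Finset.subset_univ ((tb y).erase j))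
    omega

lemma nul_tv {M₁ M₂ : Matroid ι} (h : M₁.eRank = M₂.eRank) (A : Finset ι) :
    nul M₁ M₂ (tv A) = 0 ↔ M₁.IsBase A ∧ M₂.IsBase A := by
  have e : rank M₁ univ = rank M₂ univ := by simp [rank, h]
  have := rank_le M₁ A
  have := rank_le M₂ A
  have := rank_mono M₁ (Finset.subset_univ A)
  have := rank_mono M₂ (Finset.subset_univ A)
  rw [base_iff, base_iff, nul, show fa (tv A) = A by ext; simp [fa, tv],
    show tb (tv A) = A by ext; simp [tb, tv]]
  omega

end Vale.Agent.P317
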