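import Vale.Agent.P317.Phase

namespace Vale.Agent.P317

open Finset Real
open Vale.Agent.P328 (split Av Av_abs Av_sub eat eat_sum decay sum_le_inj)

lemma dexp {a b : ℕ} {u G M : ℝ} (hu : 0 < u) (hG : 0 < G) (hM : G ≤ M) (ha : |a - u * M| ≤ u * M / 8)
    (hb : |b - u * G| ≤ u * G / 8) :
    2 ^ (Nat.size (a / b) - 1) * G ≤ 2 * M ∧ M ≤ 3 * (2 ^ (Nat.size (a / b) - 1) * G) := by
  have a' := abs_le.1 ha
  have b' := abs_le.1 hb
  have p := mul_pos hu hG
  have b0 : 0 < b := by exact_mod_cast (show (0 : ℝ) < b by linarith)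
  have c1 : ((a / b : ℕ) : ℝ) * b ≤ a := by exact_mod_cast Nat.div_mul_le_self a b
  have c2 : (a : ℝ) ≤ 2 * 2 ^ (Nat.size (a / b) - 1) * b := by
    have x := Nat.lt_size_self (a / b)
    have y : 2 ^ Nat.size (a / b) ≤ 2 ^ (Nat.size (a / b) - 1 + 1) :=
      Nat.pow_le_pow_right two_pos (by omega)
    have z := (Nat.lt_mul_div_succ a b0).le.trans (Nat.mul_le_mul_left b (x.trans_le y))
    rw [pow_succ', mul_comm] at z
    exact_mod_cast z
  constructor
  · rcases Nat.eq_zero_or_pos (a / b) with e | e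
    · rw [e]; simp; linarith
    have x : ((2 ^ (Nat.size (a / b) - 1) : ℕ) : ℝ) ≤ (a / b : ℕ) := by
      exact_mod_cast Nat.lt_size.1 (by have := Nat.size_pos.2 e; omega)
    push_cast at x
    refine (mul_le_mul_of_nonneg_right x hG.le).trans (le_of_mul_le_mul_left ?_ hu)
    have : (0 : ℝ) ≤ (a / b : ℕ) := by positivity
    nlinarith [mul_le_mul_of_nonneg_left b'.1 this]
  · refine le_of_mul_le_mul_left ?_ hu
    have : (0 : ℝ) ≤ 2 ^ (Nat.size (a / b) - 1) := by positivity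
    nlinarith [mul_le_mul_of_nonneg_left b'.2 this]

variable {ι : Type} [Fintype ι] [DecidableEq ι]

namespace Par

variable (P : Par ι)

/-- stationary probability -/
noncomputable def pi (t : ℕ) (k : ι → ℕ) (X : Finset (ι × Bool) → Prop) [DecidablePred X] : ℝ :=
  (∑ S ∈ Lay (ι × Bool) 0 (Fintype.card ι), (1 / 2) ^ P.En t k S * if X S then 1 else 0) /
    ∑ S ∈ Lay (ι × Bool) 0 (Fintype.card ι), (1 / 2) ^ P.En t k S

lemma h_ge : (64 : ℝ) ≤ P.h := by
  have := P.hh
  have : 0 < 2 ^ P.l := by positivity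
  exact_mod_cast (show 64 ≤ P.h by nlinarith)

lemma good_w {t : ℕ} {k d : ι → ℕ} (dd : ∀ i, 2 ^ d i * cs (P.om t k) 1 ≤ 2 * ∑ j, cs (P.om t k) (pr i j) ∧
    ∑ j, cs (P.om t k) (pr i j) ≤ 3 * (2 ^ d i * cs (P.om t k) 1)) (i j : ι) :
    cs (P.om (t + 1) fun i => k i + d i) (pr i j) ≤ 256 * cs (P.om (t + 1) fun i => k i + d i) 1 := by
  have n' := cs_nonneg fun S => (P.om_pos t k S).le
  have G0 : 0 < cs (P.om t k) 1 := by
    have := P.Z_pos t
    rw [P.om_one]; positivity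
  have a : ∀ α : ι → ℕ, ∀ S, prof S = α → P.om (t + 1) (fun i => k i + d i) S =
      (1 / 2) ^ (∑ c, d c * α c) * P.om (t + 1) k S := fun α S h => by
    simp only [om, h, add_mul, Finset.sum_add_distrib, pow_add]; ring
  have a1 := cs_mono (α := pr i j) (c := (1 / 2) ^ (∑ c, d c * pr i j c)) (b := P.om t k)
    fun S h => (a _ S h).trans_le (mul_le_mul_of_nonneg_left (pow_le_pow_of_le_one (by norm_num)
      (by norm_num) (Nat.add_le_add_right (P.F_succ t (by
        rw [card_prof, h]; simpa using sum_pr i j 1)).1 _)) (by positivity))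
  have a2 := cs_mono (α := 1) (c := 2 * 2 ^ (∑ c, d c)) (a := P.om t k)
    (b := P.om (t + 1) fun i => k i + d i) fun S h => by
      have b : P.om t k S ≤ 2 * P.om (t + 1) k S := by
        have := (P.F_succ t (S := S) (by simp [card_prof, h])).2
        rw [om, om, show (2 : ℝ) * (1 / 2) ^ (P.F (t + 1) S + ∑ i, k i * prof S i) =
          (1 / 2) ^ (P.F (t + 1) S + ∑ i, k i * prof S i) / (1 / 2) ^ 1 by ring,
          le_div_iff₀ (by positivity), ← pow_add]
        exact pow_le_pow_of_le_one (by norm_num) (by norm_num) (by omega)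
      rw [a 1 S h]
      refine b.trans_eq ?_
      simp only [Pi.one_apply, mul_one, one_div_pow]; field_simp
  have a3 : (1 / 2 : ℝ) ^ (∑ c, d c * pr i j c) * (2 ^ (∑ c, d c) * 2 ^ d i) = 2 ^ d j := by
    rw [← pow_add, ← sum_pr i j d, pow_add, one_div_pow]; field_simp
  have a4 := Finset.sum_le_sum fun c (_ : c ∈ univ) => P.tri_om t k i j c
  rw [← Finset.mul_sum, ← Finset.mul_sum, ← Finset.sum_mul] at a4
  have a5 : 2 ^ d j * cs (P.om t k) (pr i j) ≤ 96 * (2 ^ d i * cs (P.om t k) 1) := by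
    refine le_of_mul_le_mul_right ?_ G0
    linarith [mul_le_mul_of_nonneg_left (dd j).1 (n' (pr i j)),
      mul_le_mul_of_nonneg_right (dd i).2 G0.le]
  refine a1.trans (le_of_mul_le_mul_right ?_ (show (0 : ℝ) < 2 ^ (∑ c, d c) * 2 ^ d i by positivity))
  rw [mul_right_comm, a3]
  have := mul_nonneg (cs_nonneg (fun S => (P.om_pos (t + 1) (fun i => k i + d i) S).le) 1)
    (show (0 : ℝ) ≤ 2 ^ (∑ c, d c) * 2 ^ d i by positivity)
  linarith [mul_le_mul_of_nonneg_left a2 (show (0 : ℝ) ≤ 2 ^ d i by positivity)]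

lemma row {c : ι → ℕ} {x : ι → ℝ} {u η : ℝ} (i : ι) (hη : 0 ≤ η) (he : η ≤ 8 / P.h * (u * x i))
    (hu : 0 ≤ u) (hx : ∀ j, 0 ≤ x j)
    (h : ∀ j, |c j - u * (((1 / 2) ^ P.l) ^ (if i = j then 0 else 1) * x j)| ≤ η) :
    |((∑ j, (if i = j then 1 else 2 ^ P.l) * c j : ℕ) : ℝ) - u * ∑ j, x j| ≤ (u * ∑ j, x j) / 8 := by
  have hh := P.h_ge
  have a : (64 * (Fintype.card ι + 1) * 2 ^ P.l : ℝ) ≤ P.h := by exact_mod_cast P.hh
  have b : (Fintype.card ι * (2 ^ P.l * (8 / P.h)) : ℝ) ≤ 1 / 8 := by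
    rw [← mul_div_assoc, ← mul_div_assoc, div_le_div_iff₀ (by linarith) (by norm_num)]
    linarith [show (0 : ℝ) < 2 ^ P.l by positivity]
  have c' := mul_le_mul_of_nonneg_left (mul_le_mul_of_nonneg_left he
    (show (0 : ℝ) ≤ 2 ^ P.l by positivity)) (Nat.cast_nonneg (α := ℝ) (Fintype.card ι))
  have d := mul_le_mul_of_nonneg_left (Finset.single_le_sum (fun j _ => hx j) (mem_univ i)) hu
  refine le_trans (b := Fintype.card ι * (2 ^ P.l * η)) ?_ (by
    linarith [mul_le_mul_of_nonneg_right b (mul_nonneg hu (hx i))])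
  push_cast
  rw [Finset.mul_sum, ← Finset.sum_sub_distrib, ← nsmul_eq_mul, ← Finset.card_univ]
  refine (Finset.abs_sum_le_sum_abs _ _).trans (Finset.sum_le_card_nsmul _ _ _ fun j _ => ?_)
  have := h j
  split_ifs at this ⊢
  · rw [pow_zero, one_mul] at this
    rw [one_mul]
    exact this.trans (le_mul_of_one_le_left hη (one_le_pow₀ one_le_two))
  · refine le_of_eq_of_le ?_ (mul_le_mul_of_nonneg_left this (by positivity))
    rw [← abs_of_pos (show (0 : ℝ) < 2 ^ P.l by positivity), ← abs_mul,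
      abs_of_pos (show (0 : ℝ) < 2 ^ P.l by positivity)]
    congr 1
    rw [pow_one, one_div_pow]; field_simp

omit [Fintype ι] [DecidableEq ι] in
lemma ratio {c0 c1 A B ε : ℝ} (hA : 0 < A) (hB : 0 ≤ B) (e0 : 0 ≤ ε) (e1 : ε ≤ 1 / 8)
    (r0 : |c0 - A| ≤ ε * A) (r1 : |c1 - B| ≤ ε * A) :
    (1 - 3 * ε) * ((A + B) * c0) ≤ A * (c0 + c1) ∧ (1 - 3 * ε) * (c0 + c1) * A ≤ (A + B) * c0 := by
  replace r0 := abs_le.1 r0
  replace r1 := abs_le.1 r1
  have e2 := mul_nonneg e0 hB
  have e3 := mul_nonneg (mul_nonneg e0 e0) hA.le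
  have t : 0 ≤ 1 - 3 * ε := by linarith
  constructor
  · have x1 : (1 - 3 * ε) * c0 ≤ (1 - 2 * ε) * A := by
      linarith [mul_le_mul_of_nonneg_left r0.2 t]
    linarith [mul_le_mul_of_nonneg_right x1 (add_nonneg hA.le hB), mul_nonneg e2 hA.le,
      mul_le_mul_of_nonneg_left r0.1 hA.le, mul_le_mul_of_nonneg_left r1.1 hA.le]
  · have x1 : (1 - 3 * ε) * (c0 + c1) ≤ (1 - ε) * (A + B) := by
      linarith [mul_le_mul_of_nonneg_left r0.2 t, mul_le_mul_of_nonneg_left r1.2 t]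
    linarith [mul_le_mul_of_nonneg_right x1 hA.le,
      mul_le_mul_of_nonneg_left r0.1 (add_nonneg hA.le hB)]

lemma step {t : ℕ} {y : ℕ × (ι → ℕ) × ℕ × ℕ} (hy : P.Good t y) (R : ℕ)
    (h0 : |P.ct t y.2.1 (prof · = 1) R - P.s * P.pi t y.2.1 (prof · = 1)| ≤ 2 * P.s / P.h)
    (h1 : |P.ct t y.2.1 (fun S => prof S = 1 ∧ P.F (t + 1) S = P.F t S) R -
      P.s * P.pi t y.2.1 (fun S => prof S = 1 ∧ P.F (t + 1) S = P.F t S)| ≤ 2 * P.s / P.h)
    (h2 : ∀ i j, |P.ct t y.2.1 (prof · = pr i j) R - P.s * P.pi t y.2.1 (prof · = pr i j)| ≤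
      2 * P.s / P.h) : P.Good (t + 1) (P.upd y R) := by
  obtain ⟨t', k, N, D⟩ := y
  obtain ⟨rfl, g1, g2, g3, g4, g5⟩ := hy
  simp only at *
  have tot := P.tot_om g1
  have e0 := P.ev_eq t' k (α := 1) (by simp) fun _ => True
  have e1 := P.ev_eq t' k (α := 1) (by simp) fun S => P.F (t' + 1) S = P.F t' S
  have e2 := fun i j => P.ev_eq t' k (α := pr i j) (by simpa using sum_pr i j 1) fun _ => True
  simp only [and_true, if_true, dbl_pr, Pi.one_apply, OfNat.one_ne_ofNat, if_false,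
    Finset.sum_const_zero, pow_zero, one_mul,
    show (fun S => P.om t' k S) = P.om t' k from rfl] at e0 e1 e2
  simp only [pi, e0, e1, e2] at h0 h1 h2
  have z : 0 < ∑ S ∈ Lay (ι × Bool) 0 (Fintype.card ι), (1 / 2 : ℝ) ^ P.En t' k S :=
    Finset.sum_pos (fun _ _ => by positivity) ⟨_, mem_Lay.2 P.hy0⟩
  have zs := P.Z_succ t' k
  have n1 := cs_nonneg (a := fun S => if P.F (t' + 1) S = P.F t' S then P.om t' k S else 0)
    (fun S => by have := (P.om_pos t' k S).le; positivity) 1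
  have n' := cs_nonneg fun S => (P.om_pos t' k S).le
  have o1 := P.om_one t' k
  have zp := P.Z_pos t'
  have zp' := P.Z_pos (t' + 1)
  have G0 : 0 < cs (P.om t' k) 1 := by rw [o1]; positivity
  have hh := P.h_ge
  have s0 : (0 : ℝ) < P.s := by exact_mod_cast P.hs'
  unfold Good upd
  simp only
  clear e0 e1 e2
  generalize P.ct t' k (prof · = 1) R = c0 at *
  generalize P.ct t' k (fun S => prof S = 1 ∧ P.F (t' + 1) S = P.F t' S) R = c1 at *
  generalize cs (fun S => if P.F (t' + 1) S = P.F t' S then P.om t' k S else 0) 1 = G1 at *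
  generalize ∑ S ∈ Lay (ι × Bool) 0 (Fintype.card ι), (1 / 2 : ℝ) ^ P.En t' k S = Zt at *
  obtain ⟨u, hu⟩ : ∃ u, u = P.s / Zt := ⟨_, rfl⟩
  have u0 : 0 < u := by rw [hu]; positivity
  have hu' : ∀ x, P.s * (x / Zt) = u * x := fun x => by rw [hu]; ring
  simp only [hu'] at h0 h1 h2
  have et : (2 * P.s / P.h : ℝ) ≤ 8 / P.h * (u * cs (P.om t' k) 1) := by
    rw [hu, div_mul_eq_mul_div, div_mul_eq_mul_div]
    refine div_le_div_of_nonneg_right ?_ (by linarith)
    rw [← mul_div_assoc, le_div_iff₀ z]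
    linarith [mul_le_mul_of_nonneg_left tot s0.le]
  have e8 : (8 / P.h : ℝ) ≤ 1 / 8 := by rw [div_le_div_iff₀ (by linarith) (by norm_num)]; linarith
  have uG := mul_pos u0 G0
  have b0 : |c0 - u * cs (P.om t' k) 1| ≤ u * cs (P.om t' k) 1 / 8 :=
    h0.trans (et.trans (by linarith [mul_le_mul_of_nonneg_right e8 uG.le]))
  have c0p : (0 : ℝ) < c0 := by linarith [(abs_le.1 b0).1]
  have dd := fun i => dexp u0 G0 (pr_self i ▸ Finset.single_le_sum
    (f := fun j => cs (P.om t' k) (pr i j)) (fun _ _ => n' _) (mem_univ i))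
    (P.row (x := fun j => cs (P.om t' k) (pr i j)) i (by positivity) (by rwa [pr_self]) u0.le
      (fun _ => n' _) (h2 i)) b0
  have th : (0 : ℝ) ≤ 1 - 24 / P.h := by rw [sub_nonneg, div_le_one (by linarith)]; linarith
  have w : (0 : ℝ) < (1 / 2) ^ ∑ i, k i := by positivity
  have r := ratio uG (mul_nonneg u0.le n1) (by positivity) e8 (h0.trans et) (h1.trans et)
  rw [← mul_add, ← zs, o1, show 3 * (8 / P.h : ℝ) = 24 / P.h by ring] at r
  refine ⟨trivial, P.good_w dd, fun i => ?_, mul_pos g3 (by exact_mod_cast mul_pos two_pos c0p), ?_, ?_⟩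
  · have a := Finset.sum_le_card_nsmul univ (fun j => cs (P.om t' k) (pr i j)) _ fun j _ => g1 i j
    rw [nsmul_eq_mul, Finset.card_univ] at a
    have b := (dd i).1
    generalize Nat.size _ - 1 = d at b ⊢
    replace b : (2 : ℝ) ^ d ≤ 512 * Fintype.card ι := le_of_mul_le_mul_right (by linarith) G0
    have b' : 2 ^ d ≤ 512 * Fintype.card ι := by exact_mod_cast b
    have c' := Nat.le_self_pow two_ne_zero (Fintype.card ι)
    have c : 2 ^ d ≤ 2 ^ P.l := b'.trans (le_trans (by omega) P.hl)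
    rw [Nat.succ_mul]
    exact add_le_add (g2 i) ((Nat.pow_le_pow_iff_right one_lt_two).1 c)
  · have a : (1 - 24 / P.h) * (P.Z (t' + 1) * (2 * c0)) ≤ P.Z t' * (c0 + c1) :=
      le_of_mul_le_mul_left (by linarith [r.1]) (mul_pos u0 w)
    push_cast
    calc _ = (1 - 24 / P.h) ^ t' * D * ((1 - 24 / P.h) * (P.Z (t' + 1) * (2 * c0))) := by ring
      _ ≤ (1 - 24 / P.h) ^ t' * D * (P.Z t' * (c0 + c1)) := by gcongr
      _ = (1 - 24 / P.h) ^ t' * (P.Z t' * D) * (c0 + c1) := by ring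
      _ ≤ P.Z 0 * N * (c0 + c1) := by gcongr
      _ = _ := by ring
  · have a : (1 - 24 / P.h) * (c0 + c1) * P.Z t' ≤ P.Z (t' + 1) * (2 * c0) :=
      le_of_mul_le_mul_left (by linarith [r.2]) (mul_pos u0 w)
    push_cast
    calc _ = (1 - 24 / P.h) ^ t' * (P.Z 0 * N) * ((1 - 24 / P.h) * (c0 + c1)) := by ring
      _ ≤ P.Z t' * D * ((1 - 24 / P.h) * (c0 + c1)) := by gcongr
      _ = D * ((1 - 24 / P.h) * (c0 + c1) * P.Z t') := by ring
      _ ≤ D * (P.Z (t' + 1) * (2 * c0)) := by gcongr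
      _ = _ := by ring

lemma good_zero : P.Good 0 (0, 0, 1, 1) := by
  refine ⟨rfl, fun i j => ?_, by simp, Nat.one_pos, by simp, by simp⟩
  have : P.om 0 0 = fun _ => 1 := funext fun S => by simp [om, F]
  have n := cs_nonneg (a := fun _ : Finset (ι × Bool) => (1 : ℝ)) (by simp) 1
  simp only [this]
  by_cases e : i = j
  · rw [e, pr_self]; linarith
  refine le_trans ?_ (le_mul_of_one_le_left n (by norm_num))
  rw [cs, cs, ← Equiv.sum_comp (Function.Involutive.toPerm _ (sw_sw (i, true) (j, true)))]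
  refine Finset.sum_le_sum fun S _ => ?_
  split_ifs with h h'
  · rfl
  · refine absurd (funext fun c => ?_) h'
    change prof (sw (i, true) (j, true) S) = pr i j at h
    have a := congrFun h c
    have a1 := congrFun h i
    have a2 := congrFun h j
    simp only [prof_eq, pr, sw, Finset.mem_map_equiv, Equiv.symm_swap, Equiv.swap_apply_def,
      Pi.one_apply, Prod.mk.injEq, Bool.false_eq_true, and_false, and_true, if_false] at a a1 a2 ⊢
    grind
  · norm_num
  · rfl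

open Classical in
theorem run {X : ℕ} (hX : 0 < X) :
    (∑ R ∈ range (((P.B ^ P.tm) ^ P.s) ^ P.T * X), if P.Good P.T
      ((eat ((P.B ^ P.tm) ^ P.s) P.upd)^[P.T] ((0, 0, 1, 1), R)).1 then 0 else 1) /
      ((((P.B ^ P.tm) ^ P.s) ^ P.T * X : ℕ) : ℝ) ≤
      P.T * ((Fintype.card ι ^ 2 + 2) * (2 * (1 / 2) ^ P.j)) := by
  have q := P.hQ
  have hB : 0 < P.B ^ P.tm := by unfold B; positivity
  have h0 : 0 < P.h := lt_of_lt_of_le (by positivity) P.hh
  rw [eat_sum (pow_pos hB _) P.upd hX fun p => if P.Good P.T p.1 then 0 else 1,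
    show (fun y => (∑ b ∈ range X, if P.Good P.T (y, b).1 then 0 else 1) / (X : ℝ)) =
    fun y => if P.Good P.T y then 0 else 1 from funext fun y => by
      have : (X : ℝ) ≠ 0 := by positivity
      by_cases e : P.Good P.T y <;> simp [e, this]]
  have := good_chain (T := P.T) (pow_pos hB P.s) P.upd P.Good
    (ζ := (Fintype.card ι ^ 2 + 2) * (2 * (1 / 2) ^ P.j)) (by positivity) (fun t ht y hy => ?_)
    P.T 0 (0, 0, 1, 1) rfl
  · rw [if_pos P.good_zero, add_zero] at this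
    exact this
  have c := fun (X : Finset (ι × Bool) → Prop) [DecidablePred X] =>
    conc hB (fun ω => X (P.smp t y.2.1 ω)) h0 (P.smp_prob ht.le hy.2.2.1 X) P.hs
  have c1 := add_le_add (add_le_add (c (prof · = 1)) (c fun S => prof S = 1 ∧ P.F (t + 1) S = P.F t S))
    (Finset.sum_le_sum fun (p : ι × ι) (_ : p ∈ univ) => c (prof · = pr p.1 p.2))
  rw [Finset.sum_comm, ← Finset.sum_add_distrib, ← Finset.sum_add_distrib] at c1
  refine le_trans (Finset.sum_le_sum fun R _ => ?_) (c1.trans_eq (by simp; ring))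
  by_cases g : P.Good (t + 1) (P.upd y R)
  · rw [if_pos g]; positivity
  rw [if_neg g]
  have := mt (fun h : _ ∧ _ ∧ _ => P.step hy R h.1 h.2.1 h.2.2) g
  simp only [not_and_or, not_forall] at this
  rcases this with h | h | ⟨i, j, h⟩
  · exact le_add_of_le_of_nonneg (le_add_of_le_of_nonneg (if_neg h).ge (by positivity)) (by positivity)
  · exact le_add_of_le_of_nonneg (le_add_of_nonneg_of_le (by positivity) (if_neg h).ge) (by positivity)
  · refine le_add_of_nonneg_of_le (by positivity) (le_of_eq_of_le ?_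
      (Finset.single_le_sum (fun _ _ => by positivity) (mem_univ (i, j))))
    exact (if_neg h).symm

theorem round {e0 N D : ℕ} {k : ι → ℕ} (he : 1 ≤ e0) (hT : P.T = P.m * (Fintype.card ι + e0 + 3))
    (hh : 192 * P.T * e0 ≤ P.h) (h : P.Good P.T (P.T, k, N, D)) :
    |(((2 * (2 ^ Fintype.card ι * N) + D) / (2 * D) : ℕ) : ℝ) -
      (univ.filter fun A => P.ν (tv A) = 0).card| ≤ (univ.filter fun A => P.ν (tv A) = 0).card / e0 := by
  obtain ⟨-, -, -, g3, g4, g5⟩ := h
  simp only at g3 g4 g5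
  have z0 : P.Z 0 = 2 ^ Fintype.card ι := by simp [Z, cs_one, F]
  have e1 : (1 : ℝ) ≤ e0 := by exact_mod_cast he
  have d0 : (0 : ℝ) < D := by exact_mod_cast g3
  obtain ⟨x, hx⟩ : ∃ x : ℝ, x = 1 / (8 * e0) := ⟨_, rfl⟩
  have x0 : 0 < x := by rw [hx]; positivity
  have x1 : x ≤ 1 / 8 := hx ▸ one_div_le_one_div_of_le (by norm_num) (by linarith)
  have zt : ((univ.filter fun A => P.ν (tv A) = 0).card : ℝ) ≤ P.Z P.T ∧
      P.Z P.T ≤ (univ.filter fun A => P.ν (tv A) = 0).card + x := by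
    have : ∀ S, P.F P.T S = (Fintype.card ι + e0 + 3) * P.ν S := fun S => by
      rw [F, hT, mul_assoc, Nat.mul_div_cancel_left _ (Nat.zero_lt_of_lt P.hm)]
    simp only [Z, cs_one, this, Finset.natCast_card_filter]
    refine ⟨Finset.sum_le_sum fun A _ => by split_ifs with h <;> simp [h], (Finset.sum_le_sum
      (g := fun A => (if P.ν (tv A) = 0 then 1 else 0) + (1 / 2) ^ (Fintype.card ι + e0 + 3))
      fun A _ => ?_).trans ?_⟩
    · split_ifs with h
      · simp [h]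
      · rw [zero_add]
        exact pow_le_pow_of_le_one (by norm_num) (by norm_num) (Nat.le_mul_of_pos_right _ (by omega))
    · rw [Finset.sum_add_distrib, Finset.sum_const, Finset.card_univ, Fintype.card_finset, nsmul_eq_mul]
      have : (e0 : ℝ) ≤ 2 ^ e0 := by exact_mod_cast Nat.lt_two_pow_self.le
      gcongr
      rw [hx, one_div_pow, mul_one_div, div_le_div_iff₀ (by positivity) (by positivity)]
      push_cast
      rw [pow_add, pow_add, one_mul, mul_assoc, mul_comm _ (_ ^ 3)]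
      gcongr; norm_num
  have hh' := P.h_ge
  have be : 1 - x ≤ (1 - 24 / P.h : ℝ) ^ P.T := by
    refine le_trans ?_ (one_add_mul_le_pow (a := -(24 / P.h : ℝ)) (by
      rw [neg_le_neg_iff, div_le_iff₀ (by linarith)]; linarith) P.T)
    have : (192 * P.T * e0 : ℝ) ≤ P.h := by exact_mod_cast hh
    rw [hx, mul_neg, ← sub_eq_add_neg, sub_le_sub_iff_left, ← mul_div_assoc,
      div_le_div_iff₀ (by linarith) (by positivity)]
    linarith
  obtain ⟨y, hy⟩ : ∃ y : ℝ, y = 2 ^ Fintype.card ι * N / D := ⟨_, rfl⟩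
  have y0 : 0 ≤ y := by rw [hy]; positivity
  have zp := P.Z_pos P.T
  rw [z0] at g4 g5
  have a1 : (1 - x) * P.Z P.T ≤ y := by
    rw [hy, le_div_iff₀ d0, mul_assoc]
    exact (mul_le_mul_of_nonneg_right be (by positivity)).trans g4
  have a2 : (1 - x) * y ≤ P.Z P.T := by
    rw [hy, ← mul_div_assoc, div_le_iff₀ d0]
    exact (mul_le_mul_of_nonneg_right be (by positivity)).trans g5
  have v1 : (((2 * (2 ^ Fintype.card ι * N) + D) / (2 * D) : ℕ) : ℝ) ≤ y + 1 / 2 :=
    Nat.cast_div_le.trans_eq (by rw [hy]; push_cast; field_simp)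
  have v2 : y - 1 / 2 < (((2 * (2 ^ Fintype.card ι * N) + D) / (2 * D) : ℕ) : ℝ) := by
    have : ((2 * (2 ^ Fintype.card ι * N) + D : ℕ) : ℝ) <
        (2 * D * ((2 * (2 ^ Fintype.card ι * N) + D) / (2 * D) + 1) : ℕ) := by
      exact_mod_cast Nat.lt_mul_div_succ _ (by omega)
    rw [Nat.cast_mul (2 * D), Nat.cast_add _ 1] at this
    rw [hy, sub_lt_iff_lt_add, div_lt_iff₀ d0]
    generalize (((2 * (2 ^ Fintype.card ι * N) + D) / (2 * D) : ℕ) : ℝ) = v at *
    push_cast at this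
    linarith
  rw [div_eq_mul_one_div _ (e0 : ℝ), show (1 / e0 : ℝ) = 8 * x by rw [hx]; field_simp]
  generalize (2 * (2 ^ Fintype.card ι * N) + D) / (2 * D) = v at *
  generalize (univ.filter fun A => P.ν (tv A) = 0).card = M at *
  have M0 : (0 : ℝ) ≤ M := by positivity
  by_cases c : (v : ℝ) = M
  · rw [c, sub_self, abs_zero]; positivity
  have b1 : M - x * M ≤ y := by nlinarith
  rcases Nat.eq_zero_or_pos M with rfl | hM
  · have : (v : ℝ) < 1 := by simp at zt; nlinarith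
    exact absurd (by simpa using this) c
  have M1 : (1 : ℝ) ≤ M := by exact_mod_cast hM
  have b2 : y ≤ M + 3 * x * M := by
    by_contra hc
    nlinarith [mul_pos x0 x0, mul_le_mul_of_nonneg_left M1 x0.le]
  rcases lt_or_gt_of_ne (show v ≠ M from fun e => c (by rw [e])) with l | l
  · have : (v : ℝ) + 1 ≤ M := by exact_mod_cast l
    rw [abs_le]; constructor <;> nlinarith
  · have : (M : ℝ) + 1 ≤ v := by exact_mod_cast l
    rw [abs_le]; constructor <;> nlinarith

end Par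

end Vale.Agent.P317
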